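import Mathlib

namespace Vale.Agent.P085

open Filter Topology
open scoped InnerProductSpace ComplexOrder

universe u

/-- The algebra `B(H)` of bounded operators on a Hilbert space. -/
abbrev Bdd (H : Type u) [NormedAddCommGroup H] [InnerProductSpace ℂ H] : Type u := H →L[ℂ] H

variable {H : Type u} [NormedAddCommGroup H] [InnerProductSpace ℂ H] [CompleteSpace H]

/-- Convergence of a filter of operators in the weak operator topology. -/
def WOTTendsto (l : Filter (Bdd H)) (x : Bdd H) : Prop :=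
  ∀ ξ η : H, Tendsto (fun y : Bdd H => ⟪η, y ξ⟫_ℂ) l (𝓝 ⟪η, x ξ⟫_ℂ)

/-- `τ` restricts to a faithful normal tracial state on `M` (its values outside `M` play no role).
Normal means: continuous on the unit ball of `M` for the weak operator topology. -/
structure IsFaithfulNormalTrace (M : VonNeumannAlgebra H) (τ : Bdd H → ℂ) : Prop where
  map_add : ∀ x ∈ M, ∀ y ∈ M, τ (x + y) = τ x + τ y
  map_smul : ∀ c : ℂ, ∀ x ∈ M, τ (c • x) = c * τ x
  map_one : τ 1 = 1
  nonneg : ∀ x ∈ M, 0 ≤ τ (star x * x)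
  tracial : ∀ x ∈ M, ∀ y ∈ M, τ (x * y) = τ (y * x)
  faithful : ∀ x ∈ M, τ (star x * x) = 0 → x = 0
  normal : ∀ l : Filter (Bdd H), ∀ x ∈ M, ‖x‖ ≤ 1 → (∀ᶠ y in l, y ∈ M ∧ ‖y‖ ≤ 1) →
    WOTTendsto l x → Tendsto τ l (𝓝 (τ x))

/-- The centre of `M` consists of the scalar multiples of the identity. -/
def IsFactor (M : VonNeumannAlgebra H) : Prop :=
  ∀ z ∈ M, (∀ y ∈ M, z * y = y * z) → ∃ c : ℂ, z = c • 1

/-- `M` is infinite-dimensional as a complex vector space. -/
def IsInfiniteDimensional (M : VonNeumannAlgebra H) : Prop :=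
  ¬ FiniteDimensional ℂ M.toStarSubalgebra

/-- An infinite-dimensional factor with a faithful normal tracial state. -/
def IsTypeII1Factor (M : VonNeumannAlgebra H) : Prop :=
  IsFactor M ∧ IsInfiniteDimensional M ∧ ∃ τ : Bdd H → ℂ, IsFaithfulNormalTrace M τ

/-- `M` is the smallest von Neumann algebra containing some single element `x` of `M`. -/
def IsSinglyGenerated (M : VonNeumannAlgebra H) : Prop :=
  ∃ x ∈ M, ∀ N : VonNeumannAlgebra H, x ∈ N → M ≤ N

end Vale.Agent.P085
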