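import Vale.Agent.P085.Free

/-! Cayley transforms and words in unitaries. -/

set_option linter.unusedSectionVars false

namespace Vale.Agent.P085

open Filter Topology Finset

universe u v

section

variable {A : Type u} [CStarAlgebra A] {B : Type v} [CStarAlgebra B]

/-- `z` is the Cayley transform of `k`. -/
structure IsCay (k z : A) : Prop where
  mem : z ∈ unitary A
  left : (1 - Complex.I • k) * ((2⁻¹ : ℂ) • (z + 1)) = 1
  right : (2⁻¹ : ℂ) • (z + 1) * (1 - Complex.I • k) = 1

theorem map_mem_unitary (φ : A →⋆ₐ[ℂ] B) {u : A} (hu : u ∈ unitary A) : φ u ∈ unitary B :=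
  ⟨by rw [← map_star, ← map_mul, hu.1, map_one], by rw [← map_star, ← map_mul, hu.2, map_one]⟩

theorem IsCay.map {k z : A} (h : IsCay k z) (φ : A →⋆ₐ[ℂ] B) : IsCay (φ k) (φ z) :=
  ⟨map_mem_unitary φ h.mem, by simpa using congrArg φ h.left, by simpa using congrArg φ h.right⟩

theorem exists_cay {k : A} (hk : star k = k) : ∃ z, IsCay k z := by
  have h : IsUnit (1 - Complex.I • k) := by
    have h1 : -Complex.I ∉ spectrum ℂ k := fun h => by
      simpa using IsSelfAdjoint.im_eq_zero_of_mem_spectrum hk h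
    rw [spectrum.notMem_iff] at h1
    have h2 := h1.smul (Units.mk0 Complex.I Complex.I_ne_zero)
    convert h2 using 1
    simp [Units.smul_def, Algebra.algebraMap_eq_smul_one, smul_sub, smul_smul]
  obtain ⟨T, hT⟩ := h
  have h1 : (1 - Complex.I • k) * (T⁻¹ : Aˣ) = 1 := by rw [← hT, Units.mul_inv]
  have h2 : (T⁻¹ : Aˣ) * (1 - Complex.I • k) = 1 := by rw [← hT, Units.inv_mul]
  generalize ((T⁻¹ : Aˣ) : A) = R at h1 h2
  have hs : star (1 - Complex.I • k) = (2 : ℂ) • (1 : A) - (1 - Complex.I • k) := by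
    simp only [star_sub, star_one, star_smul, hk, Complex.star_def, Complex.conj_I]
    module
  have h3 := congrArg star h1
  have h4 := congrArg star h2
  rw [star_mul, hs, star_one] at h3 h4
  generalize hT' : 1 - Complex.I • k = T at *
  have h5 : (2 : ℂ) • (star R * R) = R + star R := by
    have := congrArg (· * R) h3
    simp only [mul_sub, sub_mul, mul_smul_comm, smul_mul_assoc, mul_one, one_mul, mul_assoc,
      h1] at this
    rw [← sub_eq_iff_eq_add, this]
  have h6 : (2 : ℂ) • (R * star R) = R + star R := by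
    have := congrArg (R * ·) h4
    simp only [mul_sub, sub_mul, mul_smul_comm, smul_mul_assoc, mul_one, one_mul, ← mul_assoc,
      h2] at this
    rw [← sub_eq_iff_eq_add, this]
  have e : (2⁻¹ : ℂ) • ((2 : ℂ) • R - 1 + 1) = R := by module
  refine ⟨(2 : ℂ) • R - 1, ⟨?_, ?_⟩, by rw [e, hT', h1], by rw [e, hT', h2]⟩
  · simp only [star_sub, star_smul, star_one, star_ofNat, mul_sub, sub_mul, mul_smul_comm,
      smul_mul_assoc, mul_one, one_mul, h5]
    module
  · simp only [star_sub, star_smul, star_one, star_ofNat, mul_sub, sub_mul, mul_smul_comm,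
      smul_mul_assoc, mul_one, one_mul, h6]
    module

theorem exists_cay_inv {z : A} (hz : z ∈ unitary A) (h : ‖z - 1‖ < 2) :
    ∃ k, star k = k ∧ IsCay k z := by
  have hn : ‖(2⁻¹ : ℂ) • (1 - z)‖ < 1 := by
    rw [norm_smul, norm_sub_rev, norm_inv, Complex.norm_ofNat]
    linarith
  have e : (2⁻¹ : ℂ) • (z + 1) = 1 - (2⁻¹ : ℂ) • (1 - z) := by module
  set U := Units.oneSub _ hn with hU
  have hU' : (U : A) = (2⁻¹ : ℂ) • (z + 1) := by rw [e]; rfl
  have h1 : (U⁻¹ : Aˣ) * ((2⁻¹ : ℂ) • (z + 1)) = 1 := by rw [← hU', Units.inv_mul]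
  have h2 : ((2⁻¹ : ℂ) • (z + 1)) * (U⁻¹ : Aˣ) = 1 := by rw [← hU', Units.mul_inv]
  generalize ((U⁻¹ : Aˣ) : A) = T at h1 h2
  have h3 : (2 : ℂ) • (star ((2⁻¹ : ℂ) • (z + 1)) * (2⁻¹ : ℂ) • (z + 1))
      = star ((2⁻¹ : ℂ) • (z + 1)) + (2⁻¹ : ℂ) • (z + 1) := by
    simp only [star_smul, star_add, star_one, star_inv₀, star_ofNat, mul_add, add_mul,
      mul_smul_comm, smul_mul_assoc, mul_one, one_mul, hz.1]
    module
  have h4 := congrArg star h2
  rw [star_mul, star_one] at h4
  have e2 : 1 - Complex.I • Complex.I • (T - 1) = T := by simp [smul_smul]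
  refine ⟨Complex.I • (T - 1), ?_, hz, by rw [e2, h1], by rw [e2, h2]⟩
  generalize (2⁻¹ : ℂ) • (z + 1) = R at *
  have h5 := congrArg (fun x => star T * x * T) h3
  simp only [mul_add, add_mul, mul_smul_comm, smul_mul_assoc, ← mul_assoc, h4, one_mul] at h5
  rw [mul_assoc, h2, mul_one] at h5
  have h6 : star T = (2 : ℂ) • (1 : A) - T := by rw [h5]; abel
  simp only [star_smul, star_sub, star_one, h6, Complex.star_def, Complex.conj_I]
  module

/-- The hermitian part. -/
noncomputable def herm (q : A) : A := (2⁻¹ : ℂ) • (q + star q)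

theorem star_herm (q : A) : star (herm q) = herm q := by simp [herm, add_comm]

theorem map_herm (φ : A →⋆ₐ[ℂ] B) (q : A) : φ (herm q) = herm (φ q) := by
  simp [herm, map_star]

variable {α : Type}

/-- The value of a word. -/
noncomputable def wrd (U : α → A) (L : List (α × Bool)) : A :=
  (L.map fun x => cond x.2 (U x.1) (star (U x.1))).prod

theorem wrd_cons (U : α → A) (x : α × Bool) (L : List (α × Bool)) :
    wrd U (x :: L) = cond x.2 (U x.1) (star (U x.1)) * wrd U L := by simp [wrd]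

theorem map_wrd (φ : A →⋆ₐ[ℂ] B) (U : α → A) (L : List (α × Bool)) :
    φ (wrd U L) = wrd (fun j => φ (U j)) L := by
  induction L with
  | nil => exact map_one φ
  | cons x L ih =>
    obtain ⟨j, _ | _⟩ := x <;> simp [wrd_cons, ih, map_star]

theorem wrd_mem {S : Type*} [SetLike S A] [SubmonoidClass S A] [StarMemClass S A] {s : S}
    {U : α → A} (h : ∀ j, U j ∈ s) (L : List (α × Bool)) : wrd U L ∈ s := by
  induction L with
  | nil => exact one_mem s
  | cons x L ih =>
    obtain ⟨j, _ | _⟩ := x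
    exacts [wrd_cons U _ L ▸ mul_mem (star_mem (h j)) ih, wrd_cons U _ L ▸ mul_mem (h j) ih]

theorem letter_mem_unitary {U : α → A} (h : ∀ j, U j ∈ unitary A) (x : α × Bool) :
    cond x.2 (U x.1) (star (U x.1)) ∈ unitary A := by
  obtain ⟨j, _ | _⟩ := x
  exacts [Unitary.star_mem (h j), h j]

theorem wrd_mem_unitary {U : α → A} (h : ∀ j, U j ∈ unitary A) (L : List (α × Bool)) :
    wrd U L ∈ unitary A := by
  induction L with
  | nil => exact one_mem _
  | cons x L ih => exact wrd_cons U _ L ▸ mul_mem (letter_mem_unitary h x) ih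

theorem hom_mk (π : FreeGroup α →* A) (h : ∀ g, star (π g) = π g⁻¹) (L : List (α × Bool)) :
    π (FreeGroup.mk L) = wrd (fun j => π (FreeGroup.of j)) L := by
  induction L with
  | nil => exact map_one π
  | cons x L ih =>
    have e : FreeGroup.mk (x :: L) = FreeGroup.mk [x] * FreeGroup.mk L := rfl
    rw [e, map_mul, ih, wrd_cons]
    obtain ⟨j, _ | _⟩ := x
    · rw [Bool.cond_false, h]; rfl
    · rfl

theorem exists_hom {U : α → A} (h : ∀ j, U j ∈ unitary A) :
    ∃ π : FreeGroup α →* A, (∀ g, star (π g) = π g⁻¹) ∧ ∀ j, π (FreeGroup.of j) = U j := by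
  refine ⟨(unitary A).subtype.comp (FreeGroup.lift fun j => ⟨U j, h j⟩), fun g => ?_,
    fun j => by simp⟩
  change star ((FreeGroup.lift _ g : unitary A) : A) = ((FreeGroup.lift _ g⁻¹ : unitary A) : A)
  rw [map_inv]
  rfl

/-- The linear span of a unitary group representation. -/
noncomputable def spanAlg {G : Type} [Group G] (π : G →* A) (h : ∀ g, star (π g) = π g⁻¹) :
    StarSubalgebra ℂ A where
  toSubalgebra := (Submodule.span ℂ (Set.range π)).toSubalgebra
    (Submodule.subset_span ⟨1, map_one π⟩) fun x y hx hy => by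
      refine Submodule.span_induction₂ (p := fun x y _ _ => x * y ∈ Submodule.span ℂ (Set.range π))
        ?_ (by simp) (by simp) (fun _ _ _ _ _ _ h1 h2 => by rw [add_mul]; exact add_mem h1 h2)
        (fun _ _ _ _ _ _ h1 h2 => by rw [mul_add]; exact add_mem h1 h2)
        (fun _ _ _ _ _ h => by rw [smul_mul_assoc]; exact Submodule.smul_mem _ _ h)
        (fun _ _ _ _ _ h => by rw [mul_smul_comm]; exact Submodule.smul_mem _ _ h) hx hy
      rintro _ _ ⟨g, rfl⟩ ⟨g', rfl⟩
      exact Submodule.subset_span ⟨g * g', map_mul π g g'⟩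
  star_mem' {x} hx := by
    refine Submodule.span_induction (p := fun x _ => star x ∈ Submodule.span ℂ (Set.range π))
      ?_ (by simp) (fun _ _ _ _ h1 h2 => by rw [star_add]; exact add_mem h1 h2)
      (fun _ _ _ h => by rw [star_smul]; exact Submodule.smul_mem _ _ h) hx
    rintro _ ⟨g, rfl⟩
    exact Submodule.subset_span ⟨g⁻¹, (h g).symm⟩

end

variable {A : Type u} [CStarAlgebra A] [Tr A] {α : Type}

theorem IsCay.n2_sub_le {k z k' z' : A} (h : IsCay k z) (h' : IsCay k' z') :
    n2 (z - z') ≤ 2 * n2 (k - k') := by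
  have hn : ∀ z ∈ unitary A, ‖(2⁻¹ : ℂ) • (z + 1)‖ ≤ 1 := fun z hz => by
    rw [norm_smul, norm_inv, Complex.norm_ofNat]
    linarith [norm_add_le z 1, norm_unitary_le hz, norm_one_le (A := A)]
  have e : z - z' = (2 * Complex.I) •
      ((2⁻¹ : ℂ) • (z + 1) * (k - k') * (2⁻¹ : ℂ) • (z' + 1)) := by
    have e1 : z - z' = (2 : ℂ) • ((2⁻¹ : ℂ) • (z + 1) - (2⁻¹ : ℂ) • (z' + 1)) := by module
    have h1 := h.right
    have h2 := h'.left
    rw [e1]
    generalize (2⁻¹ : ℂ) • (z + 1) = R at *
    generalize (2⁻¹ : ℂ) • (z' + 1) = R' at *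
    calc _ = (2 : ℂ) • (R * ((1 - Complex.I • k') * R') - R * (1 - Complex.I • k) * R') := by
          rw [h1, h2, mul_one, one_mul]
      _ = _ := by
        simp only [mul_sub, sub_mul, mul_smul_comm, smul_mul_assoc, mul_one, one_mul, mul_assoc]
        module
  rw [e, n2_smul, norm_mul, Complex.norm_I, Complex.norm_ofNat, mul_one]
  exact mul_le_mul_of_nonneg_left ((n2_mul_le_of' _ (hn _ h'.mem)).trans
    (n2_mul_le_of (hn _ h.mem) _)) zero_le_two

theorem n2_sub_herm {k : A} (hk : star k = k) (q : A) : n2 (k - herm q) ≤ n2 (k - q) := by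
  have e : k - herm q = (2⁻¹ : ℂ) • ((k - q) + star (k - q)) := by
    rw [herm, star_sub, hk]
    module
  rw [e, n2_smul, norm_inv, Complex.norm_ofNat]
  have := n2_add_le (k - q) (star (k - q))
  rw [n2_star] at this
  linarith

theorem n2_wrd_sub {U V : α → A} (hU : ∀ j, U j ∈ unitary A) (hV : ∀ j, V j ∈ unitary A) {δ : ℝ}
    (h : ∀ j, n2 (U j - V j) ≤ δ) (L : List (α × Bool)) :
    n2 (wrd U L - wrd V L) ≤ L.length * δ := by
  induction L with
  | nil => simp [wrd, n2_zero]
  | cons x L ih =>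
    rw [wrd_cons, wrd_cons]
    refine (n2_triangle _ (cond x.2 (U x.1) (star (U x.1)) * wrd V L) _).trans ?_
    rw [← mul_sub, ← sub_mul, n2_unitary_mul (letter_mem_unitary hU x),
      n2_mul_unitary _ (wrd_mem_unitary hV L), List.length_cons]
    have : n2 (cond x.2 (U x.1) (star (U x.1)) - cond x.2 (V x.1) (star (V x.1))) ≤ δ := by
      obtain ⟨j, _ | _⟩ := x
      · rw [Bool.cond_false, Bool.cond_false, ← star_sub, n2_star]
        exact h j
      · exact h j
    push_cast
    linarith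

end Vale.Agent.P085
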