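import Vale.Agent.P085.KeyL

/-! Transfer of the key approximation and the Baire category argument. -/

set_option linter.unusedSectionVars false

namespace Vale.Agent.P085

open Filter Topology Finset Vale.Agent.P086
open scoped BoundedContinuousFunction

universe u

variable {A : Type u} [CStarAlgebra A] [Tr A]

/-- Evaluation of a bounded sequence. -/
noncomputable def evB (A : Type u) [CStarAlgebra A] (n : ℕ) : (ℕ →ᵇ A) →⋆ₐ[ℂ] A where
  toFun f := f n
  map_one' := rfl
  map_mul' _ _ := rfl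
  map_zero' := rfl
  map_add' _ _ := rfl
  commutes' _ := by simp [Algebra.algebraMap_eq_smul_one]
  map_star' _ := rfl

theorem tendsto_of_mem_closure {G : Type} [Group G] {B C : Type*} [CStarAlgebra B] [Tr B]
    [CStarAlgebra C] (φ : ℕ → C →⋆ₐ[ℂ] A) (ψ : C →⋆ₐ[ℂ] B) (π : G →* C)
    (hs : ∀ g, star (π g) = π g⁻¹)
    (h : ∀ g, Tendsto (fun n => τ (φ n (π g))) atTop (𝓝 (τ (ψ (π g)))))
    {x : C} (hx : x ∈ (spanAlg π hs).topologicalClosure) :
    Tendsto (fun n => n2 (φ n x)) atTop (𝓝 (n2 (ψ x))) := by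
  have key : ∀ x ∈ (spanAlg π hs).topologicalClosure,
      Tendsto (fun n => τ (φ n x)) atTop (𝓝 (τ (ψ x))) := by
    intro x hx
    have hc : IsClosed {x : C | Tendsto (fun n => τ (φ n x)) atTop (𝓝 (τ (ψ x)))} := by
      refine Equicontinuous.isClosed_setOfPred_tendsto (F := fun n x => τ (φ n x))
        (LipschitzWith.uniformEquicontinuous _ 1 fun n => ?_).equicontinuous
        (continuous_τ.comp (AddMonoidHomClass.continuous_of_bound ψ 1 fun x => by
          rw [one_mul]; exact NonUnitalStarAlgHom.norm_apply_le _ _))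
      refine LipschitzWith.of_dist_le_mul fun x y => ?_
      rw [dist_eq_norm, dist_eq_norm, ← map_sub, ← map_sub, NNReal.coe_one, one_mul]
      exact (norm_τ_le _).trans (NonUnitalStarAlgHom.norm_apply_le _ _)
    refine closure_minimal (fun y hy => ?_) hc hx
    refine Submodule.span_induction
      (p := fun y _ => Tendsto (fun n => τ (φ n y)) atTop (𝓝 (τ (ψ y)))) ?_ (by simp)
      (fun _ _ _ _ h1 h2 => by simpa only [map_add] using h1.add h2)
      (fun c _ _ h => by simpa only [map_smul] using h.const_smul c) hy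
    rintro _ ⟨g, rfl⟩
    exact h g
  have h1 := ((Complex.continuous_re.tendsto _).comp (key _ (mul_mem (star_mem hx) hx))).sqrt
  simpa only [Function.comp_def, map_mul, map_star, ← n2_sq, Real.sqrt_sq (n2_nonneg _)] using h1

theorem val_eq_wrd {α : Type} (y s : α → A) (L : List (α × Bool)) :
    val y s L = wrd (fun j => y j * s j) L := by
  rw [val, wrd]
  congr 2
  funext x
  rw [lt, star_mul]

theorem transfer_abs {B C : Type*} [CStarAlgebra B] [Tr B] [CStarAlgebra C]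
    (φ : ℕ → C →⋆ₐ[ℂ] A) (ψ : C →⋆ₐ[ℂ] B) (π : G4 →* C) (hs : ∀ g, star (π g) = π g⁻¹)
    (h : ∀ g, Tendsto (fun n => τ (φ n (π g))) atTop (𝓝 (τ (ψ (π g)))))
    {L : List (Fin 3 × Bool)} {F : Finset G4} {r : G4 → ℂ} {ε : ℝ}
    (hkey : ∀ z : B, IsCay (herm (∑ g ∈ F, r g • ψ (π g))) z → n2 (z - 1) < ε ∧
      n2 (wrd ![z * ψ (π (FreeGroup.of 0)), ψ (π (FreeGroup.of 1)), ψ (π (FreeGroup.of 2))] L
        - ψ (π (FreeGroup.of 3))) < ε) :
    ∃ n, ∃ z ∈ unitary A, n2 (z - 1) < ε ∧ n2 (wrd ![z * φ n (π (FreeGroup.of 0)),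
      φ n (π (FreeGroup.of 1)), φ n (π (FreeGroup.of 2))] L - φ n (π (FreeGroup.of 3))) < ε := by
  set D := (spanAlg π hs).topologicalClosure with hD
  have : IsClosed (D : Set C) := StarSubalgebra.isClosed_topologicalClosure _
  have hπD : ∀ g, π g ∈ D := fun g => subset_closure (Submodule.subset_span ⟨g, rfl⟩)
  obtain ⟨z, hz⟩ := exists_cay (star_herm (∑ g ∈ F, r g • (⟨π g, hπD g⟩ : D)))
  have hz1 := hz.map (ψ.comp D.subtype)
  rw [map_herm, map_sum] at hz1
  simp only [map_smul, StarAlgHom.comp_apply, StarSubalgebra.subtype_apply] at hz1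
  obtain ⟨k1, k2⟩ := hkey _ hz1
  have t1 := tendsto_of_mem_closure φ ψ π hs h (sub_mem z.2 (one_mem D))
  have t2 := tendsto_of_mem_closure φ ψ π hs h (sub_mem (wrd_mem
    (U := ![z * π (FreeGroup.of 0), π (FreeGroup.of 1), π (FreeGroup.of 2)])
    (fun j => by
      fin_cases j
      exacts [mul_mem z.2 (hπD _), hπD _, hπD _]) L) (hπD (FreeGroup.of 3)))
  have e : ∀ (n : ℕ) (a b c d : C),
      (fun j => φ n (![a * b, c, d] j)) = ![φ n a * φ n b, φ n c, φ n d] := by
    intro n a b c d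
    funext j
    fin_cases j
    exacts [map_mul (φ n) _ _, rfl, rfl]
  have e' : ∀ a b c d : C, (fun j => ψ (![a * b, c, d] j)) = ![ψ a * ψ b, ψ c, ψ d] := by
    intro a b c d
    funext j
    fin_cases j
    exacts [map_mul ψ _ _, rfl, rfl]
  simp only [map_sub, map_one, map_wrd, e, e'] at t1 t2
  obtain ⟨n, h1, h2⟩ := ((t1.eventually (gt_mem_nhds k1)).and
    (t2.eventually (gt_mem_nhds k2))).exists
  exact ⟨n, φ n z, (hz.map ((φ n).comp D.subtype)).mem, h1, h2⟩

theorem exists_product {B : Type*} [CStarAlgebra B] {α : Type} {U : ℕ → α → A} {V : α → B}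
    (hU : ∀ n j, U n j ∈ unitary A) (hV : ∀ j, V j ∈ unitary B) :
    ∃ (φ : ℕ → (ℕ →ᵇ A) × B →⋆ₐ[ℂ] A) (ψ : (ℕ →ᵇ A) × B →⋆ₐ[ℂ] B)
      (π : FreeGroup α →* (ℕ →ᵇ A) × B), (∀ g, star (π g) = π g⁻¹) ∧
        (∀ n L, φ n (π (FreeGroup.mk L)) = wrd (U n) L) ∧
        ∀ L, ψ (π (FreeGroup.mk L)) = wrd V L := by
  obtain ⟨π, hπ1, hπ2⟩ := exists_hom (A := (ℕ →ᵇ A) × B) (U := fun j =>
    (BoundedContinuousFunction.ofNormedAddCommGroupDiscrete (fun n => U n j) 1
      fun n => norm_unitary_le (hU n j), V j)) fun j =>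
    ⟨Prod.ext (BoundedContinuousFunction.ext fun n => (hU n j).1) (hV _).1,
      Prod.ext (BoundedContinuousFunction.ext fun n => (hU n j).2) (hV _).2⟩
  refine ⟨fun n => (evB A n).comp (StarAlgHom.fst ℂ _ _), StarAlgHom.snd ℂ _ _, π, hπ1,
    fun n L => ?_, fun L => ?_⟩ <;> rw [hom_mk π hπ1, map_wrd] <;> simp only [hπ2] <;> rfl

theorem exists_perturb {N : StarSubalgebra ℂ A} {l : Filter (Mean A)} (hl : IsMixing N l)
    {a v : A} (ha : a ∈ unitary A) (hv : v ∈ unitary A) {ε : ℝ} (hε : 0 < ε) :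
    ∃ z ∈ unitary A, n2 (z - 1) < ε ∧ ∃ s : Fin 4 → A, (∀ j, s j ∈ unitary A ∧ s j ∈ N) ∧
      ∃ L, n2 (wrd ![z * a * s 0, s 1, s 2] L - v * s 3) < ε := by
  classical
  obtain ⟨L, F, r, hkey⟩ := key3 hε
  have hy : ∀ j, ![a, 1, 1, v] j ∈ unitary A := by
    intro j
    fin_cases j
    exacts [ha, one_mem _, one_mem _, hv]
  choose s hs1 hs2 using fun n : ℕ => exists_free hl hy n (Nat.one_div_pos_of_nat (n := n))
  obtain ⟨φ, ψ, π, hπ, h1, h2⟩ := exists_product (U := fun n j => ![a, 1, 1, v] j * s n j)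
    (V := fun j : Fin 4 => lamB (FreeGroup.of j)) (fun n j => mul_mem (hy j) (hs1 n j).1)
    fun j => lamB_mem_unitary _
  have hψπ : ∀ g, ψ (π g) = lamB g := fun g => by
    rw [← FreeGroup.mk_toWord (x := g), h2, hom_mk lamB star_lamB]
  have hφU : ∀ n j, φ n (π (FreeGroup.of j)) = ![a, 1, 1, v] j * s n j := fun n j =>
    (h1 n [(j, true)]).trans (by simp [wrd])
  have hlim : ∀ g, Tendsto (fun n => τ (φ n (π g))) atTop (𝓝 (τ (ψ (π g)))) := by
    intro g
    rcases eq_or_ne g 1 with rfl | hg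
    · simp only [map_one, τ_one]
      exact tendsto_const_nhds
    · rw [hψπ, τ_lamB, if_neg hg, tendsto_zero_iff_norm_tendsto_zero]
      refine squeeze_zero' (Eventually.of_forall fun _ => norm_nonneg _) ?_
        tendsto_one_div_add_atTop_nhds_zero_nat
      filter_upwards [eventually_ge_atTop g.toWord.length] with n hn
      have := hs2 n _ hn (mt FreeGroup.toWord_eq_nil_iff.1 hg) FreeGroup.isReduced_toWord
      rwa [val_eq_wrd, ← h1, FreeGroup.mk_toWord] at this
  obtain ⟨n, z, hz, k1, k2⟩ := transfer_abs φ ψ π hπ hlim (L := L) (F := F) (r := r) (ε := ε)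
    (by simpa only [hψπ] using hkey)
  refine ⟨z, hz, k1, s n, hs1 n, L, ?_⟩
  simpa [hφU, mul_assoc] using k2

theorem exists_generator [WTr A] [TopologicalSpace.SeparableSpace (LL A)]
    {N : StarSubalgebra ℂ A} {l : Filter (Mean A)} (hl : IsMixing N l) :
    ∃ a : A, ∀ S : StarSubalgebra ℂ A, IsW S → N ≤ S → a ∈ S → ∀ y, y ∈ S := by
  let X := {x : LL A | toL.symm x ∈ (unitary A : Set A)}
  have : CompleteSpace X := (isComplete_of_seq (fun x hx => norm_unitary_le hx) fun u x hu h =>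
    ⟨(h.star.mul h fun n => norm_unitary_le (Unitary.star_mem (hu n))).eq_of_eq (T2.const 1)
        fun n => (hu n).1,
      (h.mul h.star fun n => norm_unitary_le (hu n)).eq_of_eq (T2.const 1)
        fun n => (hu n).2⟩).completeSpace_coe
  have : Nonempty X := ⟨⟨toL 1, one_mem (unitary A)⟩⟩
  have : SecondCountableTopology (LL A) := UniformSpace.secondCountable_of_separable _
  obtain ⟨d, hd⟩ := TopologicalSpace.exists_dense_seq X
  let O : ℕ × ℕ → Set X := fun p => {a | ∃ s : Fin 4 → A, (∀ j, s j ∈ unitary A ∧ s j ∈ N) ∧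
    ∃ L, n2 (wrd ![toL.symm a.1 * s 0, s 1, s 2] L - toL.symm (d p.1).1 * s 3)
      < 1 / ((p.2 : ℝ) + 1)}
  have hu : ∀ (a : X) (s : Fin 4 → A), (∀ j, s j ∈ unitary A ∧ s j ∈ N) →
      ∀ j, ![toL.symm a.1 * s 0, s 1, s 2] j ∈ unitary A := by
    intro a s hs j
    fin_cases j
    exacts [mul_mem a.2 (hs 0).1, (hs 1).1, (hs 2).1]
  have hO := dense_iInter_of_isOpen (f := O) (fun p => ?_) (fun p => ?_)
  · obtain ⟨a, ha⟩ := hO.nonempty
    refine ⟨toL.symm a.1, fun S hS hN haS y => ?_⟩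
    have h1 : ∀ v ∈ unitary A, v ∈ S := by
      intro v hv
      have : ∀ n : ℕ, ∃ w ∈ S, ‖w‖ ≤ 1 ∧ n2 (w - v) ≤ 2 * (1 / ((n : ℝ) + 1)) := by
        intro n
        obtain ⟨i, hi⟩ := Metric.denseRange_iff.1 hd ⟨toL v, hv⟩ _ (Nat.one_div_pos_of_nat (n := n))
        obtain ⟨s, hs, L, h⟩ := Set.mem_iInter.1 ha (i, n)
        have h3 := Unitary.star_mem (hs 3).1
        refine ⟨wrd ![toL.symm a.1 * s 0, s 1, s 2] L * star (s 3), mul_mem (wrd_mem (fun j => ?_) L)
          (star_mem (hN (hs 3).2)), norm_unitary_le (mul_mem (wrd_mem_unitary (hu a s hs) L) h3),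
          (n2_triangle _ (toL.symm (d i).1) _).trans ?_⟩
        · fin_cases j
          exacts [mul_mem haS (hN (hs 0).2), hN (hs 1).2, hN (hs 2).2]
        · rw [← n2_mul_unitary _ h3, sub_mul, mul_assoc, (hs 3).1.2, mul_one] at h
          have : n2 (toL.symm (d i).1 - v) < 1 / ((n : ℝ) + 1) := by
            rw [← dist_toL, dist_comm]
            exact hi
          dsimp only at h
          linarith
      choose w h1 h2 h3 using this
      refine hS.mem w v h1 h2 (T2_iff.2 (squeeze_zero (fun _ => n2_nonneg _) h3 ?_))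
      simpa using (tendsto_one_div_add_atTop_nhds_zero_nat (𝕜 := ℝ)).const_mul 2
    obtain ⟨v, c, rfl, -⟩ := CStarAlgebra.exists_sum_four_unitary y
    exact sum_mem fun i _ => SMulMemClass.smul_mem _ (h1 _ (v i).2)
  · rw [Metric.isOpen_iff]
    rintro a ⟨s, hs, L, h⟩
    set δ := 1 / ((p.2 : ℝ) + 1)
      - n2 (wrd ![toL.symm a.1 * s 0, s 1, s 2] L - toL.symm (d p.1).1 * s 3) with hδ
    have hδ0 : 0 < δ := sub_pos.2 h
    have hδ1 : 0 < δ / (L.length + 1) := by positivity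
    refine ⟨_, hδ1, fun b hb => ⟨s, hs, L, ?_⟩⟩
    have h1 := n2_wrd_sub (hu b s hs) (hu a s hs) (δ := δ / (L.length + 1)) (fun j => by
      fin_cases j
      · have : n2 (toL.symm b.1 - toL.symm a.1) < δ / (L.length + 1) := by
          rw [← dist_toL]
          exact hb
        simpa only [Fin.zero_eta, Matrix.cons_val_zero, ← sub_mul, n2_mul_unitary _ (hs 0).1]
          using this.le
      · simpa [n2_zero] using hδ1.le
      · simpa [n2_zero] using hδ1.le) L
    have h2 : L.length * (δ / (L.length + 1)) + δ / (L.length + 1) = δ := by field_simp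
    refine (n2_triangle _ (wrd ![toL.symm a.1 * s 0, s 1, s 2] L) _).trans_lt ?_
    linarith
  · rw [Metric.dense_iff]
    intro a ε hε
    obtain ⟨z, hz, h1, s, hs, L, h2⟩ := exists_perturb hl a.2 (d p.1).2
      (ε := min ε (1 / ((p.2 : ℝ) + 1))) (by positivity)
    refine ⟨⟨toL (z * toL.symm a.1), mul_mem hz a.2⟩, ?_, s, hs, L,
      h2.trans_le (min_le_right _ _)⟩
    rw [← n2_mul_unitary (u := toL.symm a.1) _ a.2, sub_mul, one_mul, ← dist_toL] at h1
    exact h1.trans_le (min_le_left _ _)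

end Vale.Agent.P085
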