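import Vale.Agent.P085.Tower

/-! Second-order expansion of perturbed words and a Lyapunov lemma. -/

set_option linter.unusedSectionVars false

namespace Vale.Agent.P085

open Filter Topology Finset

universe u

theorem lyapunov {W J : Type} {S : Type u} [Fintype W] [Fintype J] [Nonempty J] {G : Set S}
    (hne : G.Nonempty) (rk : W → ℕ) (f : W → S → ℝ) (hf : ∀ w s, 0 ≤ f w s) {K : ℝ} (hK : 0 < K)
    (h : ∀ s ∈ G, ∀ t : ℝ, 0 < t → t ≤ 1 → ∃ μ : J → Mean S, (∀ j, (μ j).supp ⊆ G) ∧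
      ∀ w, ∑ j, (μ j).E (f w) ≤ (Fintype.card J - t ^ 2 / 4) * f w s
        + K * t ^ 2 * ∑ w' with rk w' < rk w, f w' s + K * t ^ 3)
    {ε : ℝ} (hε : 0 < ε) : ∃ s ∈ G, ∀ w, f w s ≤ ε := by
  set n : ℝ := (Fintype.card W : ℝ) with hn
  set c : ℝ := (Fintype.card J : ℝ) with hc
  have hn0 : 0 ≤ n := by positivity
  have hc1 : 1 ≤ c := by rw [hc]; exact_mod_cast Fintype.card_pos
  set a : ℝ := (8 * K * n + 1)⁻¹ with ha
  have ha0 : 0 < a := by positivity
  have ha1 : a ≤ 1 := inv_le_one_of_one_le₀ (le_add_of_nonneg_left (by positivity))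
  have ha2 : K * n * a ≤ 1 / 8 := by
    rw [ha, mul_inv_le_iff₀ (by positivity)]
    linarith
  set Φ : S → ℝ := fun s => ∑ w, a ^ rk w * f w s with hΦ
  have hΦ0 : ∀ s, 0 ≤ Φ s := fun s => sum_nonneg fun w _ => mul_nonneg (by positivity) (hf w s)
  have key : ∀ δ > 0, ∃ s ∈ G, Φ s < δ := by
    intro δ hδ
    by_contra hcon
    push Not at hcon
    have hb : BddBelow (Φ '' G) := ⟨0, by rintro _ ⟨s, -, rfl⟩; exact hΦ0 s⟩
    set I := sInf (Φ '' G) with hI
    have hI0 : δ ≤ I := le_csInf (hne.image _) (by rintro _ ⟨s, hs, rfl⟩; exact hcon s hs)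
    set t : ℝ := min 1 (δ / (16 * (c + K * n))) with ht
    have ht0 : 0 < t := lt_min one_pos (by positivity)
    have ht1 : t ≤ 1 := min_le_left _ _
    have ht2 : t * (16 * (c + K * n)) ≤ δ := by
      rw [← le_div_iff₀ (by positivity)]
      exact min_le_right _ _
    obtain ⟨_, ⟨s, hs, rfl⟩, h1⟩ := exists_lt_of_csInf_lt (hne.image Φ)
      (lt_add_of_pos_right I (pow_pos ht0 3))
    obtain ⟨μ, hμ, h2⟩ := h s hs t ht0 ht1
    have h3 : c * I ≤ ∑ j, (μ j).E Φ := by
      rw [hc, ← nsmul_eq_mul, ← card_univ, ← sum_const]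
      exact sum_le_sum fun j _ => (μ j).le _ _ fun s' hs' => csInf_le hb ⟨s', hμ j hs', rfl⟩
    have h4 : ∑ j, (μ j).E Φ = ∑ w, a ^ rk w * ∑ j, (μ j).E (f w) := by
      have : Φ = ∑ w, a ^ rk w • f w := by funext s; simp [hΦ]
      simp only [this, map_sum, map_smul, smul_eq_mul, mul_sum]
      exact sum_comm
    have h5 : ∀ w, a ^ rk w * ∑ w' with rk w' < rk w, f w' s ≤ a * Φ s := by
      intro w
      rw [hΦ, mul_sum, mul_sum]
      refine (sum_le_sum fun w' hw' => ?_).trans (sum_le_sum_of_subset_of_nonneg (subset_univ _)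
        fun w' _ _ => mul_nonneg ha0.le (mul_nonneg (by positivity) (hf w' s)))
      rw [← mul_assoc, ← pow_succ']
      exact mul_le_mul_of_nonneg_right (pow_le_pow_of_le_one ha0.le ha1 (mem_filter.1 hw').2)
        (hf w' s)
    have h6 : ∑ w, a ^ rk w * ∑ j, (μ j).E (f w)
        ≤ ∑ w, ((c - t ^ 2 / 4) * (a ^ rk w * f w s) + (K * t ^ 2 * (a * Φ s) + K * t ^ 3)) := by
      refine sum_le_sum fun w _ => (mul_le_mul_of_nonneg_left (h2 w) (by positivity)).trans ?_
      have k1 := mul_le_mul_of_nonneg_left (h5 w) (by positivity : 0 ≤ K * t ^ 2)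
      have k2 := mul_le_mul_of_nonneg_right (pow_le_one₀ (n := rk w) ha0.le ha1)
        (by positivity : 0 ≤ K * t ^ 3)
      linarith
    rw [sum_add_distrib, ← mul_sum, sum_const, card_univ, nsmul_eq_mul, ← hn] at h6
    change _ ≤ (c - t ^ 2 / 4) * Φ s + _ at h6
    have h7 := mul_le_mul_of_nonneg_right ha2 (mul_nonneg (sq_nonneg t) (hΦ0 s))
    have h8 : c * I ≤ (c - t ^ 2 / 8) * Φ s + n * K * t ^ 3 := by linarith
    have h9 : t ^ 2 ≤ 1 := pow_le_one₀ ht0.le ht1
    have h10 := mul_le_mul_of_nonneg_left h1.le (by linarith : 0 ≤ c - t ^ 2 / 8)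
    have h11 := mul_le_mul_of_nonneg_left (ht2.trans hI0) (sq_nonneg t)
    have h12 : 0 < t ^ 2 * t ^ 3 := by positivity
    have h13 : 0 < t ^ 2 * I := mul_pos (by positivity) (hδ.trans_le hI0)
    nlinarith
  obtain ⟨s, hs, h1⟩ := key (a ^ (∑ w, rk w) * ε) (by positivity)
  refine ⟨s, hs, fun w => ?_⟩
  have h2 : a ^ rk w * f w s ≤ Φ s :=
    single_le_sum (f := fun w => a ^ rk w * f w s)
      (fun w _ => mul_nonneg (by positivity) (hf w s)) (mem_univ w)
  have h3 : a ^ (∑ w, rk w) ≤ a ^ rk w :=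
    pow_le_pow_of_le_one ha0.le ha1 (single_le_sum (fun _ _ => Nat.zero_le _) (mem_univ w))
  exact le_of_mul_le_mul_left ((h2.trans h1.le).trans (mul_le_mul_of_nonneg_right h3 hε.le))
    (by positivity)

theorem norm_sq_step {m q e : ℂ} {B t : ℝ} (hm : ‖m‖ ≤ 1) (hq : ‖q‖ ≤ B) (he : ‖e‖ ≤ 2 * B * t ^ 3)
    (ht0 : 0 ≤ t) (ht1 : t ≤ 1) :
    ‖m + ((t : ℂ) ^ 2 * q + e)‖ ^ 2
      ≤ ‖m‖ ^ 2 + (4 * B + 9 * B ^ 2) * t ^ 3 + 2 * t ^ 2 * (star m * q).re := by
  have hB : 0 ≤ B := (norm_nonneg _).trans hq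
  have h1 : ‖(t : ℂ) ^ 2 * q + e‖ ≤ 3 * B * t ^ 2 := by
    refine (norm_add_le _ _).trans ?_
    rw [norm_mul, norm_pow, Complex.norm_real, Real.norm_of_nonneg ht0]
    have := mul_le_mul_of_nonneg_left hq (sq_nonneg t)
    have := mul_le_mul_of_nonneg_left ht1 (by positivity : 0 ≤ B * t ^ 2)
    nlinarith
  have h2 : ‖(t : ℂ) ^ 2 * q + e‖ ^ 2 ≤ 9 * B ^ 2 * t ^ 3 := by
    have := pow_le_pow_left₀ (norm_nonneg _) h1 2
    have := mul_le_mul_of_nonneg_left ht1 (by positivity : 0 ≤ B ^ 2 * t ^ 3)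
    nlinarith
  have h3 : (star m * e).re ≤ 2 * B * t ^ 3 := by
    refine (Complex.re_le_norm _).trans ?_
    rw [norm_mul, norm_star]
    exact (mul_le_of_le_one_left (norm_nonneg _) hm).trans he
  have h4 : (((t : ℂ) ^ 2 * q + e) * (starRingEnd ℂ) m).re
      = t ^ 2 * (star m * q).re + (star m * e).re := by
    rw [← Complex.ofReal_pow, add_mul, Complex.add_re, mul_assoc, Complex.re_ofReal_mul,
      mul_comm q, mul_comm e]
    rfl
  rw [add_comm m, ← Complex.normSq_eq_norm_sq, Complex.normSq_add, Complex.normSq_eq_norm_sq,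
    Complex.normSq_eq_norm_sq, h4]
  linarith

variable {A : Type u} [CStarAlgebra A] [Tr A] {β : Type}

/-- The first-order term. -/
noncomputable def P1 (Z D : β → A) : List β → A
  | [] => 0
  | x :: l => D x * (l.map Z).prod + Z x * P1 Z D l

/-- The second-order term. -/
noncomputable def P2 (Z D : β → A) : List β → A
  | [] => 0
  | x :: l => D x * P1 Z D l + Z x * P2 Z D l

theorem norm_mul_le_of {a : A} (ha : ‖a‖ ≤ 1) (b : A) : ‖a * b‖ ≤ ‖b‖ :=
  (norm_mul_le _ _).trans (mul_le_of_le_one_left (norm_nonneg _) ha)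

theorem norm_mul_le_of' (b : A) {a : A} (ha : ‖a‖ ≤ 1) : ‖b * a‖ ≤ ‖b‖ :=
  (norm_mul_le _ _).trans (mul_le_of_le_one_right (norm_nonneg _) ha)

theorem norm_P0_le {Z : β → A} (hZ : ∀ x, ‖Z x‖ ≤ 1) (l : List β) : ‖(l.map Z).prod‖ ≤ 1 := by
  induction l with
  | nil => exact norm_one_le
  | cons x l ih => exact (norm_mul_le_of (hZ x) _).trans ih

theorem norm_expand {Z D : β → A} (hZ : ∀ x, ‖Z x‖ ≤ 1) (hD : ∀ x, ‖D x‖ ≤ 1) {t : ℝ}
    (ht0 : 0 ≤ t) (ht1 : t ≤ 1) (l : List β) :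
    ‖P1 Z D l‖ ≤ 3 ^ l.length ∧ ‖P2 Z D l‖ ≤ 3 ^ l.length ∧
      ‖(l.map fun x => Z x + (t : ℂ) • D x).prod - (l.map Z).prod - (t : ℂ) • P1 Z D l
        - (t : ℂ) ^ 2 • P2 Z D l‖ ≤ 3 ^ l.length * t ^ 3 := by
  induction l with
  | nil => simp [P1, P2]; positivity
  | cons x l ih =>
    obtain ⟨h1, h2, h3⟩ := ih
    have h0 := (norm_P0_le hZ l).trans (one_le_pow₀ (n := l.length) (by norm_num : (1 : ℝ) ≤ 3))
    have hp : (0 : ℝ) ≤ 3 ^ l.length := by positivity
    rw [List.length_cons, pow_succ]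
    refine ⟨(norm_add_le _ _).trans ?_, (norm_add_le _ _).trans ?_, ?_⟩
    · linarith [norm_mul_le_of (hD x) (l.map Z).prod, norm_mul_le_of (hZ x) (P1 Z D l)]
    · linarith [norm_mul_le_of (hD x) (P1 Z D l), norm_mul_le_of (hZ x) (P2 Z D l)]
    · set R := (l.map fun x => Z x + (t : ℂ) • D x).prod - (l.map Z).prod - (t : ℂ) • P1 Z D l
        - (t : ℂ) ^ 2 • P2 Z D l with hR
      have e : ((x :: l).map fun x => Z x + (t : ℂ) • D x).prod - ((x :: l).map Z).prod
          - (t : ℂ) • P1 Z D (x :: l) - (t : ℂ) ^ 2 • P2 Z D (x :: l)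
          = (t : ℂ) ^ 3 • (D x * P2 Z D l) + Z x * R + (t : ℂ) • (D x * R) := by
        simp only [hR, P1, P2, List.map_cons, List.prod_cons, mul_sub, add_mul, mul_smul_comm,
          smul_mul_assoc]
        module
      rw [e]
      refine (norm_add₃_le).trans ?_
      rw [norm_smul, norm_smul, norm_pow, Complex.norm_real, Real.norm_of_nonneg ht0]
      have k1 := mul_le_mul_of_nonneg_left ((norm_mul_le_of (hD x) _).trans h2) (pow_nonneg ht0 3)
      have k2 := (norm_mul_le_of (hZ x) R).trans h3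
      have k3 := (mul_le_of_le_one_left (norm_nonneg _) ht1).trans
        ((norm_mul_le_of (hD x) R).trans h3)
      linarith

section

variable {N : StarSubalgebra ℂ A} {l : Filter (Mean A)} (hl : IsMixing N l)
  {Z a b : β → A} {e : β → ℂ}
include hl

theorem fst_order (L : List β) (Y : A) {η : ℝ} (hη : 0 < η) :
    ∀ᶠ μ in l, ∀ p ∈ μ.supp, ‖τ (Y * P1 Z (fun x => e x • (a x * p * b x)) L)‖ ≤ η := by
  induction L generalizing Y η with
  | nil => exact Eventually.of_forall fun μ p _ => by simpa [P1] using hη.le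
  | cons x L ih =>
    filter_upwards [ih (Y * Z x) (half_pos hη),
      hl.fst (e x • (b x * (L.map Z).prod * Y * a x)) _ (half_pos hη)] with μ h1 h2 p hp
    have e1 : τ (Y * (e x • (a x * p * b x) * (L.map Z).prod))
        = τ (p * e x • (b x * (L.map Z).prod * Y * a x)) := by
      simp only [mul_smul_comm, smul_mul_assoc, map_smul]
      rw [← mul_assoc, ← mul_assoc, ← mul_assoc, mul_assoc (Y * a x), mul_assoc (Y * a x), τ_comm]
      simp only [mul_assoc]
    rw [P1, mul_add, map_add, e1, ← mul_assoc]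
    exact (norm_add_le _ _).trans (by linarith [h1 p hp, h2 p hp])

theorem snd_order_aux (hZ : ∀ x, ‖Z x‖ ≤ 1) (hb : ∀ x, ‖b x‖ ≤ 1) (he : ∀ x, ‖e x‖ ≤ 1)
    {ρ C : ℝ} (hρ : 0 ≤ ρ) {Y : A} (hY : ‖Y‖ ≤ C) (L : List β) (V : A)
    (h : ∀ L1 x L2, L = L1 ++ x :: L2 → e x ≠ 0 → ‖τ (V * (L1.map Z).prod * a x)‖ ≤ ρ)
    {η : ℝ} (hη : 0 < η) :
    ∀ᶠ μ in l, μ.E (fun p => (τ (Y * p * V * P1 Z (fun x => e x • (a x * p * b x)) L)).re)
      ≤ L.length * (ρ * C) + η := by
  induction L generalizing V η with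
  | nil => exact Eventually.of_forall fun μ => by simpa [P1, μ.const] using hη.le
  | cons x L ih =>
    filter_upwards [ih (V * Z x) (fun L1 x' L2 h1 h2 => by
        have := h (x :: L1) x' L2 (by rw [h1]; rfl) h2
        rwa [List.map_cons, List.prod_cons, ← mul_assoc] at this) (half_pos hη),
      hl.snd (V * a x) (e x • (b x * (L.map Z).prod * Y)) _ (half_pos hη)] with μ h1 h2
    have e1 : ∀ p, (τ (Y * p * V * P1 Z (fun x => e x • (a x * p * b x)) (x :: L))).re
        = (τ (p * (V * a x) * p * e x • (b x * (L.map Z).prod * Y))).re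
          + (τ (Y * p * (V * Z x) * P1 Z (fun x => e x • (a x * p * b x)) L)).re := by
      intro p
      rw [P1, mul_add, map_add, Complex.add_re, mul_assoc Y, mul_assoc Y, τ_comm Y]
      simp only [mul_smul_comm, smul_mul_assoc, mul_assoc]
    have h3 : ‖τ (V * a x)‖ * ‖e x • (b x * (L.map Z).prod * Y)‖ ≤ ρ * C := by
      have hC := (norm_nonneg _).trans hY
      rcases eq_or_ne (e x) 0 with h0 | h0
      · rw [h0, zero_smul, norm_zero, mul_zero]
        positivity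
      · have := h [] x L rfl h0
        rw [List.map_nil, List.prod_nil, mul_one] at this
        refine mul_le_mul this ?_ (norm_nonneg _) hρ
        rw [norm_smul]
        exact (mul_le_of_le_one_left (norm_nonneg _) (he x)).trans
          ((norm_mul_le_of (norm_mul_le_one (hb x) (norm_P0_le hZ L)) Y).trans hY)
    simp only [e1, μ.add, List.length_cons]
    push_cast
    linarith

theorem snd_order (hZ : ∀ x, ‖Z x‖ ≤ 1) (ha : ∀ x, ‖a x‖ ≤ 1) (hb : ∀ x, ‖b x‖ ≤ 1)
    (he : ∀ x, ‖e x‖ ≤ 1) {ρ C : ℝ} (hρ : 0 ≤ ρ) (L : List β) {Y : A} (hY : ‖Y‖ ≤ C)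
    (h : ∀ L0 x L1 x' L2, L = L0 ++ x :: (L1 ++ x' :: L2) → e x ≠ 0 → e x' ≠ 0 →
      ‖τ (b x * (L1.map Z).prod * a x')‖ ≤ ρ) {η : ℝ} (hη : 0 < η) :
    ∀ᶠ μ in l, μ.E (fun p => (τ (Y * P2 Z (fun x => e x • (a x * p * b x)) L)).re)
      ≤ L.length ^ 2 * (ρ * C) + η := by
  have hC := (norm_nonneg _).trans hY
  induction L generalizing Y η with
  | nil => exact Eventually.of_forall fun μ => by simpa [P2, μ.const] using hη.le
  | cons x L ih =>
    have h2 : ∀ᶠ μ in l, μ.E (fun p => (τ (e x • (Y * a x) * p * b x *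
        P1 Z (fun x => e x • (a x * p * b x)) L)).re) ≤ L.length * (ρ * C) + η / 2 := by
      rcases eq_or_ne (e x) 0 with h0 | h0
      · refine Eventually.of_forall fun μ => ?_
        simp only [h0, zero_smul, zero_mul, map_zero, Complex.zero_re, μ.const]
        positivity
      · refine snd_order_aux hl hZ hb he hρ ?_ L _
          (fun L1 x' L2 h1 h2 => h [] x L1 x' L2 (by rw [h1]; rfl) h0 h2) (half_pos hη)
        rw [norm_smul]
        exact (mul_le_of_le_one_left (norm_nonneg _) (he x)).trans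
          ((norm_mul_le_of' Y (ha x)).trans hY)
    filter_upwards [h2, ih ((norm_mul_le_of' Y (hZ x)).trans hY)
      (fun L0 x' L1 x'' L2 h1 => h (x :: L0) x' L1 x'' L2 (by rw [h1]; rfl)) (half_pos hη)]
      with μ h2 h1
    have e1 : ∀ p, (τ (Y * P2 Z (fun x => e x • (a x * p * b x)) (x :: L))).re
        = (τ (e x • (Y * a x) * p * b x * P1 Z (fun x => e x • (a x * p * b x)) L)).re
          + (τ (Y * Z x * P2 Z (fun x => e x • (a x * p * b x)) L)).re := by
      intro p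
      rw [P2, mul_add, map_add, Complex.add_re]
      simp only [mul_smul_comm, smul_mul_assoc, mul_assoc]
    simp only [e1, μ.add, List.length_cons]
    push_cast
    have : 0 ≤ (L.length + 1 : ℝ) * (ρ * C) := by positivity
    nlinarith

end

end Vale.Agent.P085
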