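import Vale.Agent.P085.Expand

/-! Asymptotically free unitaries. -/

set_option linter.unusedSectionVars false

namespace Vale.Agent.P085

open Filter Topology Finset

universe u

variable {A : Type u} [CStarAlgebra A] [Tr A] {α : Type} [Fintype α] [DecidableEq α]

/-- The value of a letter. -/
noncomputable def lt (y s : α → A) (x : α × Bool) : A :=
  cond x.2 (y x.1 * s x.1) (star (s x.1) * star (y x.1))

/-- The value of a word. -/
noncomputable def val (y s : α → A) (L : List (α × Bool)) : A := (L.map (lt y s)).prod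

/-- The normalising constant. -/
noncomputable def cst (t : ℝ) : ℝ := (√(1 + t ^ 2))⁻¹

theorem cst_pos (t : ℝ) : 0 < cst t := by unfold cst; positivity

theorem cst_sq (t : ℝ) : cst t ^ 2 * (1 + t ^ 2) = 1 := by
  rw [cst, inv_pow, Real.sq_sqrt (by positivity), inv_mul_cancel₀ (by positivity)]

theorem cst_sq_le {t : ℝ} (ht0 : 0 ≤ t) (ht1 : t ≤ 1) : cst t ^ 2 ≤ 1 - t ^ 2 / 2 := by
  have h1 : t ^ 2 ≤ 1 := pow_le_one₀ ht0 ht1
  refine le_of_mul_le_mul_right ?_ (by positivity : 0 < 1 + t ^ 2)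
  rw [cst_sq]
  nlinarith [sq_nonneg t]

theorem cst_le_one (t : ℝ) : cst t ≤ 1 := by
  have h1 := cst_sq t
  have h2 := cst_pos t
  nlinarith [mul_nonneg (sq_nonneg (cst t)) (sq_nonneg t)]

/-- The unitary perturbation of the identity in the direction of a symmetry. -/
noncomputable def rot (t : ℝ) (p : A) : A := (cst t : ℂ) • (1 + (t : ℂ) • Complex.I • p)

theorem star_rot (t : ℝ) {p : A} (hp : star p = p) :
    star (rot t p) = (cst t : ℂ) • (1 - (t : ℂ) • Complex.I • p) := by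
  simp [rot, hp, sub_eq_add_neg]

theorem rot_mem_unitary (t : ℝ) {p : A} (hp : star p = p) (hpp : p * p = 1) :
    rot t p ∈ unitary A := by
  have h : (cst t : ℂ) ^ 2 * (1 + (t : ℂ) ^ 2) = 1 := by exact_mod_cast cst_sq t
  constructor <;> rw [star_rot t hp, rot] <;>
    simp only [smul_mul_assoc, mul_smul_comm, mul_add, add_mul, sub_mul, mul_sub, one_mul,
      mul_one, hpp] <;>
    match_scalars
  · linear_combination h - (cst t : ℂ) ^ 2 * t ^ 2 * Complex.I_sq
  · ring
  · linear_combination h - (cst t : ℂ) ^ 2 * t ^ 2 * Complex.I_sq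
  · ring

theorem prod_map_smul {β : Type} (c : β → ℝ) (f : β → A) (L : List β) :
    (L.map fun x => (c x : ℂ) • f x).prod = (((L.map c).prod : ℝ) : ℂ) • (L.map f).prod := by
  induction L with
  | nil => simp
  | cons x L ih =>
    simp only [List.map_cons, List.prod_cons]
    rw [ih, smul_mul_smul_comm, Complex.ofReal_mul]

theorem prod_bound (t : ℝ) (j : α) (L : List (α × Bool)) :
    0 ≤ (L.map fun x => if x.1 = j then cst t else 1).prod ∧
      (L.map fun x => if x.1 = j then cst t else 1).prod ≤ 1 := by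
  induction L with
  | nil => simp
  | cons x L ih =>
    have h1 := cst_pos t
    have h2 := cst_le_one t
    rw [List.map_cons, List.prod_cons]
    split_ifs
    · exact ⟨mul_nonneg h1.le ih.1, mul_le_one₀ h2 ih.1 ih.2⟩
    · rwa [one_mul]

theorem isReduced_mid {L L1 : List (α × Bool)} (h : FreeGroup.IsReduced L)
    (h' : ∃ s t, s ++ L1 ++ t = L) : FreeGroup.IsReduced L1 := by
  obtain ⟨s, t, rfl⟩ := h'
  exact List.IsChain.right_of_append (List.IsChain.left_of_append h)

theorem τ_cross {y s : α → A} (hy : ∀ j, y j ∈ unitary A) (hs : ∀ j, s j ∈ unitary A)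
    {L L0 L1 L2 : List (α × Bool)} {x x' : α × Bool} (hL : FreeGroup.IsReduced L)
    (e : L = L0 ++ x :: (L1 ++ x' :: L2)) (hx : x.1 = x'.1) :
    ∃ L', L' ≠ [] ∧ FreeGroup.IsReduced L' ∧ L'.length < L.length ∧
      τ (cond x.2 (s x.1) (star (y x.1)) * (L1.map (lt y s)).prod
        * cond x'.2 (y x'.1) (star (s x'.1))) = τ (val y s L') := by
  obtain ⟨j, b⟩ := x
  obtain ⟨j', b'⟩ := x'
  obtain rfl : j = j' := hx
  have hlen : L.length = L0.length + L1.length + L2.length + 2 := by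
    rw [e]; simp; ring
  have hne : b ≠ b' → L1 ≠ [] := by
    rintro hb rfl
    have := isReduced_mid hL (L1 := [(j, b), (j, b')]) ⟨L0, L2, by simp [e]⟩
    exact hb ((FreeGroup.isReduced_cons_cons.1 this).1 rfl)
  have h1 : FreeGroup.IsReduced L1 := isReduced_mid hL ⟨L0 ++ [(j, b)], (j, b') :: L2, by simp [e]⟩
  cases b <;> cases b'
  · refine ⟨L1 ++ [(j, false)], by simp, isReduced_mid hL ⟨L0 ++ [(j, false)], L2, by simp [e]⟩,
      by simp; omega, ?_⟩
    rw [mul_assoc, τ_comm]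
    simp [val, lt, mul_assoc]
  · refine ⟨L1, hne (by simp), h1, by omega, ?_⟩
    rw [τ_comm, ← mul_assoc, Bool.cond_true, Bool.cond_false, (hy j).2, one_mul, val]
  · refine ⟨L1, hne (by simp), h1, by omega, ?_⟩
    rw [τ_comm, ← mul_assoc, Bool.cond_true, Bool.cond_false, (hs j).1, one_mul, val]
  · refine ⟨(j, true) :: L1, by simp, isReduced_mid hL ⟨L0, (j, true) :: L2, by simp [e]⟩,
      by simp; omega, ?_⟩
    rw [τ_comm]
    simp [val, lt, mul_assoc]

theorem step_bound {N : StarSubalgebra ℂ A} {l : Filter (Mean A)} (hl : IsMixing N l)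
    {y s : α → A} (hy : ∀ j, y j ∈ unitary A) (hs : ∀ j, s j ∈ unitary A) {t : ℝ} (ht0 : 0 < t)
    (ht1 : t ≤ 1) (j : α) {n : ℕ} {L : List (α × Bool)} (hL : FreeGroup.IsReduced L)
    (hn : L.length ≤ n) {ρ : ℝ} (hρ : 0 ≤ ρ)
    (h : ∀ L', L' ≠ [] → FreeGroup.IsReduced L' → L'.length < L.length → ‖τ (val y s L')‖ ≤ ρ) :
    ∀ᶠ μ in l, μ.E (fun p => ‖τ (val y (Function.update s j (rot t p * s j)) L)‖ ^ 2)
      ≤ (L.map fun x => if x.1 = j then cst t else 1).prod ^ 2 * ‖τ (val y s L)‖ ^ 2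
        + ((4 * 3 ^ n + 9 * (3 ^ n) ^ 2 + 2) * t ^ 3
          + 2 * t ^ 2 * (n ^ 2 * (ρ * ‖τ (val y s L)‖))) := by
  set a : α × Bool → A := fun x => cond x.2 (y x.1) (star (s x.1)) with ha
  set b : α × Bool → A := fun x => cond x.2 (s x.1) (star (y x.1)) with hb
  set e : α × Bool → ℂ := fun x => if x.1 = j then cond x.2 Complex.I (-Complex.I) else 0 with he
  have ha1 : ∀ x, ‖a x‖ ≤ 1 := by
    rintro ⟨i, _ | _⟩
    exacts [norm_unitary_le (Unitary.star_mem (hs i)), norm_unitary_le (hy i)]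
  have hb1 : ∀ x, ‖b x‖ ≤ 1 := by
    rintro ⟨i, _ | _⟩
    exacts [norm_unitary_le (Unitary.star_mem (hy i)), norm_unitary_le (hs i)]
  have hZ : ∀ x, ‖lt y s x‖ ≤ 1 := by
    rintro ⟨i, _ | _⟩
    exacts [norm_mul_le_one (ha1 (i, false)) (hb1 (i, false)),
      norm_mul_le_one (ha1 (i, true)) (hb1 (i, true))]
  have he1 : ∀ x, ‖e x‖ ≤ 1 := by
    rintro ⟨i, _ | _⟩ <;> simp only [he] <;> split_ifs <;> simp
  set m := τ (val y s L) with hm
  have hm1 : ‖m‖ ≤ 1 := (norm_τ_le _).trans (norm_P0_le hZ L)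
  have hY : ‖star m • (1 : A)‖ ≤ ‖m‖ := by
    rw [norm_smul, norm_star]
    exact mul_le_of_le_one_right (norm_nonneg _) norm_one_le
  filter_upwards [hl.sym, fst_order hl (Z := lt y s) (a := a) (b := b) (e := e) L 1
    (pow_pos ht0 2), snd_order hl hZ ha1 hb1 he1 hρ L hY (fun L0 x L1 x' L2 h1 h2 h3 => by
      have k1 : x.1 = j := by by_contra hc; exact h2 (if_neg hc)
      have k2 : x'.1 = j := by by_contra hc; exact h3 (if_neg hc)
      obtain ⟨L', a1, a2, a3, a4⟩ := τ_cross hy hs hL h1 (k1.trans k2.symm)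
      exact (congrArg norm a4).trans_le (h L' a1 a2 a3)) ht0] with μ h1 h2 h3
  obtain ⟨hk0, hk1⟩ := prod_bound t j L
  set k := (L.map fun x => if x.1 = j then cst t else 1).prod with hk
  have hk2 : k ^ 2 ≤ 1 := pow_le_one₀ hk0 hk1
  have hB : (3 : ℝ) ^ L.length ≤ 3 ^ n := pow_le_pow_right₀ (by norm_num) hn
  have hB1 : (1 : ℝ) ≤ 3 ^ n := one_le_pow₀ (by norm_num)
  have key : ∀ p ∈ μ.supp, ‖τ (val y (Function.update s j (rot t p * s j)) L)‖ ^ 2
      ≤ k ^ 2 * (‖m‖ ^ 2 + (4 * 3 ^ n + 9 * (3 ^ n) ^ 2) * t ^ 3) + k ^ 2 * (2 * t ^ 2) *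
        (τ (star m • (1 : A) * P2 (lt y s) (fun x => e x • (a x * p * b x)) L)).re := by
    intro p hp
    obtain ⟨p1, p2, -⟩ := h1 p hp
    set D : α × Bool → A := fun x => e x • (a x * p * b x) with hD
    have hp1 : ‖p‖ ≤ 1 := norm_unitary_le ⟨by rw [p1, p2], by rw [p1, p2]⟩
    have hD1 : ∀ x, ‖D x‖ ≤ 1 := fun x => by
      rw [hD, norm_smul]
      exact mul_le_one₀ (he1 x) (norm_nonneg _)
        (norm_mul_le_one (norm_mul_le_one (ha1 x) hp1) (hb1 x))
    have e1 : lt y (Function.update s j (rot t p * s j))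
        = fun x => ((if x.1 = j then cst t else 1 : ℝ) : ℂ) • (lt y s x + (t : ℂ) • D x) := by
      funext ⟨i, c⟩
      rcases eq_or_ne i j with rfl | hij
      · cases c
        · simp only [lt, hD, he, ha, hb, Function.update_self, Bool.cond_false, if_true, star_mul,
            star_rot t p1, mul_smul_comm, smul_mul_assoc, mul_sub, sub_mul, mul_one]
          module
        · simp only [lt, hD, he, ha, hb, Function.update_self, Bool.cond_true, if_true, rot,
            mul_smul_comm, smul_mul_assoc, mul_add, add_mul, one_mul, mul_assoc]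
      · simp [lt, hD, he, hij]
    obtain ⟨-, k2, k3⟩ := norm_expand hZ hD1 ht0.le ht1 L
    set R := (L.map fun x => lt y s x + (t : ℂ) • D x).prod - (L.map (lt y s)).prod
      - (t : ℂ) • P1 (lt y s) D L - (t : ℂ) ^ 2 • P2 (lt y s) D L with hR
    have e2 : τ (L.map fun x => lt y s x + (t : ℂ) • D x).prod
        = m + ((t : ℂ) ^ 2 * τ (P2 (lt y s) D L) + ((t : ℂ) * τ (P1 (lt y s) D L) + τ R)) := by
      simp only [hR, hm, val, map_sub, map_smul, smul_eq_mul]
      ring
    have k4 := h2 p hp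
    rw [one_mul] at k4
    have k5 := norm_sq_step hm1 (((norm_τ_le _).trans k2).trans hB)
      (e := (t : ℂ) * τ (P1 (lt y s) D L) + τ R) (by
        refine (norm_add_le _ _).trans ?_
        rw [norm_mul, Complex.norm_real, Real.norm_of_nonneg ht0.le]
        have a1 := mul_le_mul_of_nonneg_left k4 ht0.le
        have a2 := (norm_τ_le R).trans (k3.trans
          (mul_le_mul_of_nonneg_right hB (by positivity)))
        have a3 := mul_le_mul_of_nonneg_right hB1 (by positivity : 0 ≤ t ^ 3)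
        linarith) ht0.le ht1
    rw [val, e1, prod_map_smul, map_smul, smul_eq_mul, norm_mul, mul_pow, Complex.norm_real,
      Real.norm_of_nonneg hk0, e2, smul_mul_assoc, one_mul, map_smul, smul_eq_mul, mul_assoc,
      ← mul_add]
    exact mul_le_mul_of_nonneg_left k5 (by positivity)
  refine (μ.mono key).trans ?_
  rw [μ.add, μ.const, μ.mul, mul_assoc, ← mul_add]
  have h4 : (L.length : ℝ) ^ 2 * (ρ * ‖m‖) ≤ n ^ 2 * (ρ * ‖m‖) := by gcongr
  have h5 := mul_le_mul_of_nonneg_left (h3.trans (add_le_add_left h4 t))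
    (by positivity : 0 ≤ 2 * t ^ 2)
  have h6 := mul_le_mul_of_nonneg_right hk2 (by positivity : 0 ≤
    (4 * 3 ^ n + 9 * (3 ^ n) ^ 2 + 2) * t ^ 3 + 2 * t ^ 2 * (n ^ 2 * (ρ * ‖m‖)))
  have h7 := mul_le_mul_of_nonneg_left h5 (sq_nonneg k)
  linarith

theorem exists_free [Nonempty α] {N : StarSubalgebra ℂ A} {l : Filter (Mean A)}
    (hl : IsMixing N l) {y : α → A} (hy : ∀ j, y j ∈ unitary A) (n : ℕ) {ε : ℝ} (hε : 0 < ε) :
    ∃ s : α → A, (∀ j, s j ∈ unitary A ∧ s j ∈ N) ∧
      ∀ L, L.length ≤ n → L ≠ [] → FreeGroup.IsReduced L → ‖τ (val y s L)‖ ≤ ε := by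
  let W := {L : List (α × Bool) // L.length ≤ n ∧ L ≠ [] ∧ FreeGroup.IsReduced L}
  have : Finite W := ((List.finite_length_le (α × Bool) n).subset fun L hL => hL.1).to_subtype
  let _ : Fintype W := Fintype.ofFinite W
  set c : ℝ := (Fintype.card α : ℝ) with hc
  have hc0 : 0 < c := by rw [hc]; exact_mod_cast Fintype.card_pos
  set K1 : ℝ := 4 * 3 ^ n + 9 * (3 ^ n) ^ 2 + 2 with hK1
  have hK : 0 < K1 := by positivity
  obtain ⟨s, hs, h⟩ := lyapunov (J := α) (G := {s : α → A | ∀ j, s j ∈ unitary A ∧ s j ∈ N})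
    ⟨1, fun _ => ⟨one_mem _, one_mem _⟩⟩ (fun w : W => w.1.length)
    (fun w s => ‖τ (val y s w.1)‖ ^ 2) (fun _ _ => by positivity)
    (K := 4 * c ^ 2 * n ^ 4 + c * K1) (by positivity) (fun s hs t ht0 ht1 => by
      have := hl.neBot
      set F : W → ℝ := fun w => ∑ w' : W with w'.1.length < w.1.length, ‖τ (val y s w'.1)‖ ^ 2
        with hF
      have hF0 : ∀ w, 0 ≤ F w := fun w => sum_nonneg fun _ _ => by positivity
      obtain ⟨μ, h1, h2⟩ := (hl.sym.and (eventually_all.2 fun j => eventually_all.2 fun w : W =>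
        step_bound hl hy (fun j => (hs j).1) ht0 ht1 j w.2.2.2 w.2.1 (Real.sqrt_nonneg (F w))
          fun L' a1 a2 a3 => Real.le_sqrt_of_sq_le (single_le_sum
            (f := fun w' : W => ‖τ (val y s w'.1)‖ ^ 2) (fun _ _ => by positivity)
            (a := ⟨L', a3.le.trans w.2.1, a1, a2⟩) (mem_filter.2 ⟨mem_univ _, a3⟩)))).exists
      refine ⟨fun j => μ.map fun p => Function.update s j (rot t p * s j), fun j => ?_,
        fun w => ?_⟩
      · rintro _ ⟨p, hp, rfl⟩ i
        obtain ⟨p1, p2, p3⟩ := h1 p hp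
        dsimp only
        rcases eq_or_ne i j with rfl | hij
        · rw [Function.update_self]
          exact ⟨mul_mem (rot_mem_unitary t p1 p2) (hs i).1, mul_mem (SMulMemClass.smul_mem _
            (add_mem (one_mem _) (SMulMemClass.smul_mem _ (SMulMemClass.smul_mem _ p3)))) (hs i).2⟩
        · rw [Function.update_of_ne hij]
          exact hs i
      · obtain ⟨L, hL1, hL2, hL3⟩ := w
        obtain ⟨x, L, rfl⟩ := List.exists_cons_of_ne_nil hL2
        set w : W := ⟨x :: L, hL1, hL2, hL3⟩ with hw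
        set m := ‖τ (val y s w.1)‖ with hm
        have hm0 : 0 ≤ m := norm_nonneg _
        have k1 : ∀ j, (w.1.map fun x => if x.1 = j then cst t else 1).prod ^ 2 * m ^ 2
            ≤ m ^ 2 - if j = x.1 then t ^ 2 / 2 * m ^ 2 else 0 := by
          intro j
          split_ifs with hj
          · obtain ⟨a1, a2⟩ := prod_bound t j L
            have a3 : (w.1.map fun x => if x.1 = j then cst t else 1).prod ^ 2
                ≤ 1 - t ^ 2 / 2 := by
              rw [hw, List.map_cons, List.prod_cons, if_pos hj.symm, mul_pow]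
              exact (mul_le_of_le_one_right (sq_nonneg _) (pow_le_one₀ a1 a2)).trans
                (cst_sq_le ht0.le ht1)
            nlinarith [mul_le_mul_of_nonneg_right a3 (sq_nonneg m)]
          · obtain ⟨a1, a2⟩ := prod_bound t j w.1
            rw [sub_zero]
            exact mul_le_of_le_one_left (sq_nonneg _) (pow_le_one₀ a1 a2)
        refine (sum_le_sum fun j _ => (h2 j w).trans (add_le_add_left (k1 j) _)).trans ?_
        rw [sum_add_distrib, sum_sub_distrib, sum_ite_eq', if_pos (mem_univ _), sum_const,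
          sum_const, card_univ, nsmul_eq_mul, nsmul_eq_mul, ← hc]
        change _ ≤ (c - t ^ 2 / 4) * m ^ 2 + (4 * c ^ 2 * n ^ 4 + c * K1) * t ^ 2 * F w + _
        have k2 := Real.sq_sqrt (hF0 w)
        have k3 := mul_nonneg (sq_nonneg t) (sq_nonneg (m / 2 - 2 * c * n ^ 2 * √(F w)))
        have k4 : 0 ≤ c * K1 * t ^ 2 * F w := by have := hF0 w; positivity
        have k5 : 0 ≤ 4 * c ^ 2 * n ^ 4 * t ^ 3 := by positivity
        have k6 : 4 * c ^ 2 * n ^ 4 * t ^ 2 * √(F w) ^ 2 = 4 * c ^ 2 * n ^ 4 * t ^ 2 * F w := by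
          rw [k2]
        rw [← hK1]
        linarith) (pow_pos hε 2)
  exact ⟨s, hs, fun L h1 h2 h3 =>
    (sq_le_sq₀ (norm_nonneg _) hε.le).1 (h ⟨L, h1, h2, h3⟩)⟩

end Vale.Agent.P085
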