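import Vale.Agent.P085.Dense

/-! Reduction of the number of generators. -/

set_option linter.unusedSectionVars false

namespace Vale.Agent.P085

open Filter Topology Finset

universe u

variable {A : Type u} [CStarAlgebra A] [Tr A]

theorem sign_mem {S : StarSubalgebra ℂ A} [IsClosed (S : Set A)] {z k : A} (hz : star z = z)
    (hzz : z * z = 1) (hk : star k = k) (hc : k * z = z * k) (hn : ‖k‖ < 1) (h : z + k ∈ S) :
    z ∈ S := by
  let _ := CStarAlgebra.spectralOrder A
  have _ := CStarAlgebra.spectralOrderedRing A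
  have hzz' : ∀ w, z * (z * w) = w := fun w => by rw [← mul_assoc, hzz, one_mul]
  have h1 : ‖z * k‖ < 1 := (norm_mul_le_of (norm_unitary_le ⟨by rw [hz, hzz], by rw [hz, hzz]⟩)
    k).trans_lt hn
  have h2 : IsSelfAdjoint (-(z * k)) := by
    rw [IsSelfAdjoint, star_neg, star_mul, hz, hk, hc]
  have h3 : 0 ≤ 1 - -(z * k) := by
    refine sub_nonneg.2 (h2.le_algebraMap_norm_self.trans ?_)
    rw [← map_one (algebraMap ℝ A), norm_neg]
    exact algebraMap_mono _ h1.le
  have h4 : (z + k) * (z + k) = (1 - -(z * k)) * (1 - -(z * k)) := by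
    have : z * k * (z * k) = k * k := by rw [mul_assoc, ← mul_assoc k, hc, mul_assoc, hzz']
    simp only [sub_neg_eq_add, mul_add, add_mul, this, hc, hzz, mul_one, one_mul]
  have h5 : 1 - -(z * k) ∈ S := by
    rw [← CFC.sqrt_mul_self _ h3, CFC.sqrt_eq_real_sqrt _ (by
      nth_rewrite 1 [← h3.isSelfAdjoint.star_eq]
      exact star_mul_self_nonneg _), ← h4]
    exact cfcₙ_mem (𝕜' := ℂ) _ (mul_mem h h)
  obtain ⟨T, hT⟩ := (StarSubalgebra.coe_isUnit S (a := ⟨_, h5⟩)).1
    (Units.oneSub (-(z * k)) (by rwa [norm_neg])).isUnit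
  have h6 : (1 - -(z * k)) * ((T⁻¹ : Sˣ) : S) = 1 := by
    have := congrArg Subtype.val T.mul_inv
    rwa [hT] at this
  have h7 : z = (z + k) * ((T⁻¹ : Sˣ) : S) := by
    calc z = z * ((1 - -(z * k)) * ((T⁻¹ : Sˣ) : S)) := by rw [h6, mul_one]
      _ = _ := by rw [← mul_assoc, sub_neg_eq_add, mul_add, mul_one, hzz']
  rw [h7]
  exact mul_mem h (Subtype.prop _)

theorem exists_series {x : ℕ → A} (h1 : ∀ k, star (x k) = x k) (h2 : ∀ k, x k * x k = 1)
    (h3 : ∀ j k, j < k → Commute (x j) (x k)) :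
    ∃ h : A, star h = h ∧ ∀ S : StarSubalgebra ℂ A, IsClosed (S : Set A) → h ∈ S → ∀ k, x k ∈ S := by
  set t : ℕ → A := fun m => ∑' k, (3⁻¹ : ℂ) ^ k • x (k + m) with ht
  have hb : ∀ m k, ‖(3⁻¹ : ℂ) ^ k • x (k + m)‖ ≤ 3⁻¹ ^ k := fun m k => by
    rw [norm_smul, norm_pow, norm_inv, Complex.norm_ofNat]
    exact mul_le_of_le_one_right (by positivity)
      (norm_unitary_le ⟨by rw [h1, h2], by rw [h1, h2]⟩)
  have hg := hasSum_geometric_of_lt_one (r := 3⁻¹) (by norm_num) (by norm_num)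
  have hs : ∀ m, star (t m) = t m := fun m => by simp [ht, tsum_star, h1]
  have hrec : ∀ m, t m = x m + (3⁻¹ : ℂ) • t (m + 1) := fun m => by
    rw [ht]
    dsimp only
    rw [(hg.summable.of_norm_bounded (hb m)).tsum_eq_zero_add, ← tsum_const_smul'']
    simp only [pow_zero, zero_add, one_smul, smul_smul, pow_succ', add_assoc, add_comm 1 m]
  refine ⟨t 0, hs 0, fun S _ h0 => ?_⟩
  have key : ∀ m, t m ∈ S → x m ∈ S := fun m hm => by
    refine sign_mem (h1 m) (h2 m) (k := (3⁻¹ : ℂ) • t (m + 1)) (by simp [hs]) ?_ ?_ (hrec m ▸ hm)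
    · exact ((Commute.tsum_right _ fun k => (h3 m _ (by omega)).smul_right _).smul_right _).symm
    · rw [norm_smul, norm_inv, Complex.norm_ofNat]
      have : ‖t (m + 1)‖ ≤ (1 - 3⁻¹)⁻¹ := tsum_of_norm_bounded hg (hb (m + 1))
      norm_num at this ⊢
      linarith
  have key2 : ∀ m, t m ∈ S := fun m => by
    induction m with
    | zero => exact h0
    | succ m ih =>
      have : t (m + 1) = (3 : ℂ) • (t m - x m) := by rw [hrec m]; module
      rw [this]
      exact SMulMemClass.smul_mem _ (sub_mem ih (key m ih))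
  exact fun k => key k (key2 k)

theorem herm_decomp (a : A) : a = herm a + Complex.I • herm (-Complex.I • a) := by
  simp only [herm, star_smul, star_neg, Complex.star_def, Complex.conj_I, neg_neg]
  match_scalars
  · linear_combination (1 / 2) * Complex.I_sq
  · linear_combination (-1 / 2) * Complex.I_sq

variable [WTr A] [Fac A] [TopologicalSpace.SeparableSpace (LL A)]

theorem exists_four (hA : ¬ FiniteDimensional ℂ A) : ∃ h : Fin 4 → A, (∀ j, star (h j) = h j) ∧
    ∀ S : StarSubalgebra ℂ A, IsW S → (∀ j, h j ∈ S) → ∀ y, y ∈ S := by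
  obtain ⟨x, z, h⟩ := exists_tower hA
  obtain ⟨l, hl⟩ := h.exists_mixing (N := StarAlgebra.adjoin ℂ (Set.range x ∪ Set.range z))
    (fun k => StarAlgebra.subset_adjoin _ _ (Or.inl ⟨k, rfl⟩))
    fun k => StarAlgebra.subset_adjoin _ _ (Or.inr ⟨k, rfl⟩)
  obtain ⟨a, ha⟩ := exists_generator hl
  obtain ⟨p, hp1, hp2⟩ := exists_series (fun k => (h.pauli k).sx) (fun k => (h.pauli k).xx)
    fun j k hjk => (h.comm' hjk).1
  obtain ⟨q, hq1, hq2⟩ := exists_series (fun k => (h.pauli k).sz) (fun k => (h.pauli k).zz)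
    fun j k hjk => (h.comm' hjk).2.2.2
  refine ⟨![p, q, herm a, herm (-Complex.I • a)], fun j => ?_, fun S hS hm => ha S hS ?_ ?_⟩
  · fin_cases j
    exacts [hp1, hq1, star_herm _, star_herm _]
  · refine StarAlgebra.adjoin_le ?_
    rintro _ (⟨k, rfl⟩ | ⟨k, rfl⟩)
    exacts [hp2 S inferInstance (hm 0) k, hq2 S inferInstance (hm 1) k]
  · rw [herm_decomp a]
    exact add_mem (hm 2) (SMulMemClass.smul_mem _ (hm 3))

theorem exists_single (hA : ¬ FiniteDimensional ℂ A) :
    ∃ w : A, ∀ S : StarSubalgebra ℂ A, IsW S → w ∈ S → ∀ y, y ∈ S := by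
  obtain ⟨x, z, h⟩ := exists_pauli hA
  have hQ := (isII1_top hA).inf_cent trivial trivial h
  set Q := ⊤ ⊓ cent x z with hQdef
  have := hQ.isW
  have := hQ.toFac
  have : SecondCountableTopology (LL A) := UniformSpace.secondCountable_of_separable _
  have : SecondCountableTopology (LL Q) :=
    (Isometry.of_dist_eq (f := fun v : LL Q => toL ((toL.symm v : Q) : A))
      fun _ _ => rfl).isEmbedding.secondCountableTopology
  obtain ⟨g, hg1, hg2⟩ := exists_four hQ.inf
  have hs : ∀ j, star (g j : A) = g j := fun j => congrArg Subtype.val (hg1 j)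
  have hx : ∀ j, (g j : A) * x = x * g j := fun j => (h.mem_cent.1 (g j).2.2).1.symm
  have hz : ∀ j, z * (g j : A) = g j * z := fun j => (h.mem_cent.1 (g j).2.2).2
  obtain ⟨e, he1, he2, hex, hez, hec, heS⟩ : ∃ e : A, star e = e ∧ e * e = e ∧
      x * e = x - e * x ∧ z * e = e * z ∧ (∀ c, z * c = c * z → c * e = e * c) ∧
      ∀ S : StarSubalgebra ℂ A, z ∈ S → e ∈ S := by
    refine ⟨(2⁻¹ : ℂ) • (1 + z), by simp [h.sz], ?_, ?_, by simp [mul_add, add_mul], fun c hc => ?_,
      fun S hz => SMulMemClass.smul_mem _ (add_mem (one_mem _) hz)⟩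
    · simp only [mul_smul_comm, smul_mul_assoc, mul_add, add_mul, h.zz, one_mul, mul_one]
      module
    · simp only [mul_smul_comm, smul_mul_assoc, mul_add, add_mul, h.zx, one_mul, mul_one]
      module
    · simp only [mul_smul_comm, smul_mul_assoc, mul_add, add_mul, hc, one_mul, mul_one]
  set K : Fin 4 → Fin 4 → A := fun i j => e * g i + (g j - e * g j) with hK
  have hK1 : ∀ i j, star (K i j) = K i j := fun i j => by
    simp only [hK, star_add, star_sub, star_mul, hs, he1, hec _ (hz _)]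
  have hK2 : ∀ i j, K i j * z = z * K i j := fun i j => by
    simp only [hK, add_mul, mul_add, sub_mul, mul_sub, mul_assoc, ← hz]
    simp only [← mul_assoc, hez]
  have he3 : ∀ w, e * (e * w) = e * w := fun w => by rw [← mul_assoc, he2]
  have hex' : ∀ v, x * (e * v) = x * v - e * (x * v) := fun v => by
    rw [← mul_assoc, hex, sub_mul, mul_assoc]
  have hK3 : ∀ (S : StarSubalgebra ℂ A) i j, x ∈ S → z ∈ S → K i j ∈ S →
      (g i : A) ∈ S ∧ (g j : A) ∈ S := by
    intro S i j hxS hzS hm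
    have a1 := mul_mem (heS S hzS) hm
    have a2 := sub_mem hm a1
    have b1 := add_mem a1 (mul_mem (mul_mem hxS a1) hxS)
    have b2 := add_mem a2 (mul_mem (mul_mem hxS a2) hxS)
    simp only [hK, mul_add, mul_sub, add_mul, sub_mul, he3, mul_assoc, hx, hex', h.xx'] at b1 b2
    exact ⟨by convert b1 using 1; abel, by convert b2 using 1; abel⟩
  set c : ℝ := (‖K 0 1‖ + 1)⁻¹ with hc
  have hc0 : 0 < c := by positivity
  refine ⟨z + (c : ℂ) • K 0 1 + Complex.I • (x + K 2 3), fun S hS hw y => ?_⟩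
  have hw' := star_mem hw
  rw [star_add, star_add, star_smul, star_smul, star_add x, h.sz, h.sx, hK1, hK1, Complex.star_def,
    Complex.conj_I, Complex.conj_ofReal] at hw'
  have m1 : z + (c : ℂ) • K 0 1 ∈ S := by
    convert SMulMemClass.smul_mem (2⁻¹ : ℂ) (add_mem hw hw') using 1
    module
  have m2 : x + K 2 3 ∈ S := by
    have := SMulMemClass.smul_mem (-Complex.I) (sub_mem hw m1)
    rwa [add_sub_cancel_left, smul_smul, neg_mul, Complex.I_mul_I, neg_neg, one_smul] at this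
  have m3 : z ∈ S := by
    refine sign_mem h.sz h.zz (by simp [hK1]) (by simp [hK2]) ?_ m1
    rw [norm_smul, Complex.norm_real, Real.norm_of_nonneg hc0.le, hc,
      inv_mul_lt_iff₀ (by positivity)]
    linarith
  have m4 : K 0 1 ∈ S := by
    have := SMulMemClass.smul_mem ((c⁻¹ : ℝ) : ℂ) (sub_mem m1 m3)
    rwa [add_sub_cancel_left, smul_smul, ← Complex.ofReal_mul, inv_mul_cancel₀ hc0.ne',
      Complex.ofReal_one, one_smul] at this
  have m5 : x ∈ S := by
    have := SMulMemClass.smul_mem (2⁻¹ : ℂ) (sub_mem m2 (mul_mem m3 (mul_mem m2 m3)))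
    rw [add_mul, hK2, mul_add, h.zz', h.zx', h.zz, mul_one] at this
    convert this using 1
    module
  have m6 : K 2 3 ∈ S := by simpa using sub_mem m2 m5
  have hall := hg2 (S.comap Q.subtype) ⟨fun u v hu hb hv => hS.mem _ _ hu hb (T2_coe.1 hv)⟩
    fun j => by
      fin_cases j
      exacts [(hK3 S 0 1 m5 m3 m4).1, (hK3 S 0 1 m5 m3 m4).2, (hK3 S 2 3 m5 m3 m6).1,
        (hK3 S 2 3 m5 m3 m6).2]
  have ht : ∀ y, tw x z y ∈ S := fun y =>
    hall ⟨tw x z y, trivial, h.mem_cent.2 ⟨h.comm_x y, h.comm_z y⟩⟩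
  rw [h.decomp y]
  exact add_mem (add_mem (add_mem (ht _) (mul_mem m5 (ht _))) (mul_mem m3 (ht _)))
    (mul_mem (mul_mem m5 m3) (ht _))

end Vale.Agent.P085
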