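import Vale.Agent.P085.Proj

/-! Existence of a unital copy of the two by two matrices. -/

set_option linter.unusedSectionVars false

namespace Vale.Agent.P085

open Filter Topology
open scoped InnerProductSpace ComplexOrder

universe u

theorem exists_maximal_of_complete {X : Type*} [MetricSpace X] {S : Set X} (hS : IsComplete S)
    (hne : S.Nonempty) (r : X → X → Prop) (hrefl : ∀ x ∈ S, r x x)
    (htrans : ∀ x y z, r x y → r y z → r x z) (φ : X → ℝ) (hφ : ∀ x ∈ S, φ x ≤ 1)
    (hcl : ∀ x (u : ℕ → X) y, (∀ n, r x (u n)) → Tendsto u atTop (𝓝 y) → r x y)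
    (hd : ∀ x y, r x y → dist x y ^ 2 ≤ φ y - φ x) : ∃ x ∈ S, ∀ y ∈ S, r x y → y = x := by
  have step : ∀ (n : ℕ) (x : S), ∃ y : S, r x y ∧ ∀ z ∈ S, r x z → φ z ≤ φ y + (1 / 4) ^ n := by
    intro n x
    have hb : BddAbove (φ '' {z | z ∈ S ∧ r x z}) := ⟨1, by rintro _ ⟨z, hz, rfl⟩; exact hφ z hz.1⟩
    have hn : (φ '' {z | z ∈ S ∧ r x z}).Nonempty := ⟨_, x, ⟨x.2, hrefl x x.2⟩, rfl⟩
    obtain ⟨_, ⟨y, hy, rfl⟩, h⟩ := exists_lt_of_lt_csSup hn
      (sub_lt_self _ (by positivity : (0 : ℝ) < (1 / 4) ^ n))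
    refine ⟨⟨y, hy.1⟩, hy.2, fun z hz hr => ?_⟩
    have := le_csSup hb ⟨z, ⟨hz, hr⟩, rfl⟩
    linarith
  choose f hf1 hf2 using step
  set u : ℕ → S := fun n => Nat.rec ⟨_, hne.some_mem⟩ f n with hu
  have hu1 : ∀ n, u (n + 1) = f n (u n) := fun n => rfl
  have hmono : ∀ n m, r (u n) (u (n + m)) := by
    intro n m
    induction m with
    | zero => exact hrefl _ (u n).2
    | succ m ih => exact htrans _ _ _ ih (hf1 _ _)
  have key : ∀ n, ∀ z ∈ S, r (u (n + 1)) z → dist (u (n + 1) : X) z ≤ (1 / 2) ^ n := by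
    intro n z hz hr
    have h1 := hf2 n (u n) z hz (htrans _ _ _ (hf1 _ _) hr)
    have h2 := hd _ _ hr
    refine (sq_le_sq₀ dist_nonneg (by positivity)).1 ?_
    rw [← pow_mul, mul_comm, pow_mul, show ((1 : ℝ) / 2) ^ 2 = 1 / 4 by norm_num]
    rw [← hu1] at h1
    linarith
  have hc : CauchySeq fun n => (u (n + 1) : X) :=
    cauchySeq_of_le_geometric (1 / 2) 1 (by norm_num) fun n => by
      rw [one_mul]
      exact key n _ (u (n + 1 + 1)).2 (hmono (n + 1) 1)
  obtain ⟨x, hx, hlim⟩ := cauchySeq_tendsto_of_isComplete hS (fun n => (u (n + 1)).2) hc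
  refine ⟨x, hx, fun y hy hxy => ?_⟩
  have h1 : ∀ n, r (u (n + 1)) x := fun n =>
    hcl _ (fun m => u (m + n + 1)) x (fun m => by
      have := hmono (n + 1) m
      rwa [show n + 1 + m = m + n + 1 by ring] at this) ((tendsto_add_atTop_iff_nat n).2 hlim)
  refine tendsto_nhds_unique ?_ hlim
  rw [tendsto_iff_dist_tendsto_zero]
  exact squeeze_zero (fun _ => dist_nonneg) (fun n => key n y hy (htrans _ _ _ (h1 n) hxy))
    (tendsto_pow_atTop_nhds_zero_of_lt_one (by norm_num) (by norm_num))

variable {A : Type u} [CStarAlgebra A] [Tr A]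

theorem norm_proj_le {p : A} (h1 : star p = p) (h2 : p * p = p) : ‖p‖ ≤ 1 :=
  IsStarProjection.norm_le p ⟨h2, h1⟩

theorem norm_piso_le {v : A} (h : v * star v * v = v) : ‖v‖ ≤ 1 := by
  have := norm_proj_le (p := star v * v) (by rw [star_mul, star_star])
    (by rw [mul_assoc, ← mul_assoc v, h])
  rw [CStarRing.norm_star_mul_self] at this
  nlinarith [norm_nonneg v]

theorem exists_orth {w : A} (hw : star w = w) (h0 : w ≠ 0) (hτ : τ w = 0) :
    ∃ a b : A, a ≠ 0 ∧ b ≠ 0 ∧ star b = b ∧ b * a = 0 ∧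
      ∀ c, c * w = 0 → c * a = 0 ∧ c * b = 0 := by
  let _ := CStarAlgebra.spectralOrder A
  have _ := CStarAlgebra.spectralOrderedRing A
  have hw' : IsSelfAdjoint w := hw
  have h1 := CFC.posPart_sub_negPart w
  have hf : ∀ a : A, 0 ≤ a → τ a = 0 → a = 0 := by
    intro a ha h
    obtain ⟨b, rfl⟩ := CStarAlgebra.nonneg_iff_eq_star_mul_self.1 ha
    rw [τ_faithful b h, mul_zero]
  have h2 : τ w⁺ = τ w⁻ := by rw [← sub_eq_zero, ← map_sub, h1, hτ]
  have ha := (CFC.posPart_nonneg w).isSelfAdjoint.star_eq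
  have hb := (CFC.negPart_nonneg w).isSelfAdjoint.star_eq
  refine ⟨w⁺, w⁻, fun h => h0 ?_, fun h => h0 ?_, hb, CFC.negPart_mul_posPart w, fun c hc => ?_⟩
  · rw [← h1, hf _ (CFC.negPart_nonneg w) (by rw [← h2, h, map_zero]), h, sub_zero]
  · rw [← h1, hf _ (CFC.posPart_nonneg w) (by rw [h2, h, map_zero]), h, sub_zero]
  · have h3 : c * w⁺ = c * w⁻ := by rw [← sub_eq_zero, ← mul_sub, h1, hc]
    have h4 : c * w⁺ = 0 := by
      rw [← CStarRing.mul_star_self_eq_zero_iff, star_mul, ha]
      nth_rewrite 1 [h3]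
      rw [mul_assoc, ← mul_assoc w⁻, CFC.negPart_mul_posPart, zero_mul, mul_zero]
    exact ⟨h4, h3 ▸ h4⟩

variable [WTr A]

theorem exists_piso {t : A} (h0 : t ≠ 0) (ht : t * t = 0) :
    ∃ v : A, v ≠ 0 ∧ v * star v * v = v ∧ v * v = 0 ∧ (∀ c, c * t = 0 → c * v = 0) ∧
      ∀ c, t * c = 0 → v * c = 0 := by
  have := nontrivial_of_tr A
  set h : A := star t * t with hh
  have hsa : IsSelfAdjoint h := IsSelfAdjoint.star_mul_self t
  have hn : 0 < ‖h‖ := by
    rw [hh, CStarRing.norm_star_mul_self]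
    have := norm_pos_iff.2 h0
    positivity
  set l : ℝ := ‖h‖ / 2 with hl
  have hl0 : 0 < l := by positivity
  set f : ℝ → ℝ := fun s => max (s - l) 0 with hf
  set g : ℝ → ℝ := fun s => (√(max s l))⁻¹ with hg
  have hfc : Continuous f := by fun_prop
  have hpos : ∀ s, 0 < √(max s l) := fun s => Real.sqrt_pos.2 (lt_max_of_lt_right hl0)
  have hgc : Continuous g := Continuous.inv₀ (by fun_prop) fun s => (hpos s).ne'
  have hk0 : cfc f h ≠ 0 := by
    intro e
    let _ := CStarAlgebra.spectralOrder A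
    have _ := CStarAlgebra.spectralOrderedRing A
    have h1 := CStarAlgebra.norm_mem_spectrum_of_nonneg (star_mul_self_nonneg t)
    rw [← cfc_zero ℝ h] at e
    have h2 := eqOn_of_cfc_eq_cfc e hfc.continuousOn continuousOn_const hsa h1
    have h3 : ‖h‖ - l ≤ f ‖h‖ := le_max_left _ _
    rw [h2, Pi.zero_apply] at h3
    linarith
  have hgf : ∀ s, g s * s * g s * f s = f s := by
    intro s
    rcases le_total s l with h1 | h1
    · rw [hf]; simp [h1]
    · have h2 := hpos s
      have h3 := Real.mul_self_sqrt (hl0.le.trans h1)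
      simp only [hg, max_eq_left h1] at h2 ⊢
      field_simp
      rw [sq, h3]
  have hm : ∀ p q : ℝ → ℝ, Continuous p → Continuous q →
      cfc p h * cfc q h = cfc (fun s => p s * q s) h := fun p q hp hq =>
    (cfc_mul p q h hp.continuousOn hq.continuousOn).symm
  have hid : cfc (fun s : ℝ => s) h = h := cfc_id' ℝ h hsa
  have e1 : cfc g h * h * cfc g h * cfc f h = cfc f h := by
    calc _ = cfc g h * cfc (fun s : ℝ => s) h * cfc g h * cfc f h := by rw [hid]
      _ = _ := by
        rw [hm _ _ hgc continuous_id', hm _ _ (hgc.fun_mul continuous_id') hgc,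
          hm _ _ ((hgc.fun_mul continuous_id').fun_mul hgc) hfc]
        simp only [hgf]
  have e2 : cfc f h = h * (cfc g h * cfc g h * cfc f h) := by
    calc _ = cfc (fun s : ℝ => s) h * (cfc g h * cfc g h * cfc f h) := by
          rw [hm _ _ hgc hgc, hm _ _ (hgc.fun_mul hgc) hfc,
            hm _ _ continuous_id' ((hgc.fun_mul hgc).fun_mul hfc)]
          congr 1
          funext s
          exact (hgf s).symm.trans (by ring)
      _ = _ := by rw [hid]
  have hG : star (cfc g h) = cfc g h := (cfc_predicate g h : IsSelfAdjoint _).star_eq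
  generalize cfc g h = G at *
  generalize cfc f h = k at *
  obtain ⟨e, he1, he2, he3, he4⟩ := exists_range_proj k
  have e3 : G * h * G * e = e := by
    have := he4 (G * h * G - 1) (by rw [sub_mul, e1, one_mul, sub_self])
    rwa [sub_mul, one_mul, sub_eq_zero] at this
  have e4 : star (t * G * e) * (t * G * e) = e := by
    calc _ = e * (G * h * G * e) := by simp only [star_mul, he1, hG, hh, mul_assoc]
      _ = e := by rw [e3, he2]
  have e5 : ∀ c, t * c = 0 → e * c = 0 := by
    intro c hc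
    have h1 : star c * star t = 0 := by rw [← star_mul, hc, star_zero]
    have h2 := he4 (star c) (by
      rw [e2, hh, ← mul_assoc (star c), ← mul_assoc (star c), h1, zero_mul, zero_mul])
    rw [← star_eq_zero, star_mul, he1, h2]
  refine ⟨t * G * e, fun h => hk0 ?_, ?_, ?_, fun c hc => ?_, fun c hc => ?_⟩
  · rw [← he3, ← e4, h, mul_zero, zero_mul]
  · rw [mul_assoc, e4, mul_assoc, he2]
  · calc _ = t * G * (e * t) * G * e := by simp only [mul_assoc]
      _ = 0 := by rw [e5 t ht]; simp
  · rw [← mul_assoc, ← mul_assoc, hc, zero_mul, zero_mul]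
  · rw [mul_assoc, e5 c hc, mul_zero]

variable [Fac A]

theorem finite_of_minimal {r : A} (hr1 : star r = r) (hr2 : r * r = r) (h0 : r ≠ 0)
    (h : ∀ y, ∃ c : ℂ, r * y * r = c • r) : FiniteDimensional ℂ A := by
  classical
  set ρ : ℝ := n2 r ^ 2 with hρ
  have hρ0 : 0 < ρ := lt_of_not_ge fun h => h0 (n2_eq_zero_of_sq_le h)
  have hτ : τ r = ρ := by rw [hρ, ← τ_star_mul_self, hr1, hr2]
  set V : Submodule ℂ (LL A) :=
    LinearMap.ker ((LinearMap.mulRight ℂ (r - 1)).comp toL.symm.toLinearMap) with hV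
  have hmem : ∀ x : A, toL x ∈ V ↔ x * r = x := fun x => by
    rw [hV, LinearMap.mem_ker]
    change x * (r - 1) = 0 ↔ _
    rw [mul_sub, mul_one, sub_eq_zero]
  have hfin : FiniteDimensional ℂ V := by
    by_contra hV'
    obtain ⟨n, hn⟩ := exists_nat_gt ρ⁻¹
    obtain ⟨f, hf⟩ := exists_linearIndependent_of_le_rank (R := ℂ) (M := V) (n := n)
      (Cardinal.natCast_le_aleph0.trans (not_lt.1 (mt Module.rank_lt_aleph0_iff.1 hV')))
    have hon := orthonormal_iff_ite.1 (InnerProductSpace.gramSchmidtNormed_orthonormal hf)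
    set w : Fin n → A := fun i => toL.symm (InnerProductSpace.gramSchmidtNormed ℂ f i).1
    have hw1 : ∀ i, w i * r = w i := fun i =>
      (hmem _).1 (InnerProductSpace.gramSchmidtNormed ℂ f i).2
    have hw2 : ∀ i j, τ (star (w i) * w j) = if i = j then 1 else 0 := hon
    have hw3 : ∀ i j, (ρ : ℂ) • (star (w i) * w j) = if i = j then r else 0 := by
      intro i j
      obtain ⟨c, hc⟩ := h (star (w i) * w j)
      have e : r * (star (w i) * w j) * r = star (w i) * w j := by
        rw [mul_assoc, mul_assoc, hw1, ← mul_assoc, ← hr1, ← star_mul, hw1]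
      rw [e] at hc
      have e2 := hw2 i j
      rw [hc, map_smul, hτ, smul_eq_mul] at e2
      rw [hc, smul_smul, mul_comm, e2]
      split_ifs <;> simp
    have hp := norm_proj_le (p := (ρ : ℂ) • ∑ i, w i * star (w i)) (by simp [star_sum]) (by
      rw [smul_mul_assoc, Finset.sum_mul]
      congr 1
      refine Finset.sum_congr rfl fun i _ => ?_
      rw [Finset.smul_sum, Finset.mul_sum]
      have : ∀ j, w i * star (w i) * (ρ : ℂ) • (w j * star (w j))
          = if i = j then w i * star (w i) else 0 := by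
        intro j
        calc _ = w i * ((ρ : ℂ) • (star (w i) * w j)) * star (w j) := by simp [mul_assoc]
          _ = _ := by
            rw [hw3]
            split_ifs with hij
            · rw [hw1, hij]
            · simp
      simp only [this]
      simp)
    have h2 := (norm_τ_le _).trans hp
    simp only [map_smul, map_sum, τ_comm (w _), hw2, if_true, Finset.sum_const, Finset.card_univ,
      Fintype.card_fin, nsmul_eq_mul, mul_one, smul_eq_mul, norm_mul, Complex.norm_real,
      Complex.norm_natCast, Real.norm_of_nonneg hρ0.le] at h2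
    rw [inv_lt_iff_one_lt_mul₀' hρ0] at hn
    linarith
  let Φ : A →ₗ[ℂ] V →ₗ[ℂ] V := LinearMap.mk₂ ℂ
    (fun a v => ⟨toL (a * toL.symm v.1), (hmem _).2 (by
      rw [mul_assoc, (hmem (toL.symm v.1)).1 v.2])⟩)
    (fun a b v => Subtype.ext (by simp [add_mul])) (fun c a v => Subtype.ext (by simp))
    (fun a v w => Subtype.ext (by simp [mul_add])) (fun c a v => Subtype.ext (by simp))
  refine FiniteDimensional.of_injective Φ (LinearMap.ker_eq_bot.1 (LinearMap.ker_eq_bot'.2 ?_))
  intro a ha
  refine (prime (b := r) fun q => ?_).resolve_right h0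
  have := congrArg Subtype.val
    (LinearMap.congr_fun ha ⟨toL (q * r), (hmem _).2 (by rw [mul_assoc, hr2])⟩)
  rw [mul_assoc]
  exact this

theorem exists_piso_corner (hA : ¬ FiniteDimensional ℂ A) {r : A} (hr1 : star r = r)
    (hr2 : r * r = r) (h0 : r ≠ 0) :
    ∃ v : A, v ≠ 0 ∧ v * star v * v = v ∧ v * v = 0 ∧ r * v = v ∧ v * r = v := by
  have hρ : τ r ≠ 0 := fun h => h0 (τ_faithful r (by rwa [hr1, hr2]))
  have hr3 : (1 - r) * r = 0 := by rw [sub_mul, one_mul, hr2, sub_self]
  have : ∃ w : A, star w = w ∧ w ≠ 0 ∧ τ w = 0 ∧ (1 - r) * w = 0 := by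
    by_contra hc
    push Not at hc
    refine hA (finite_of_minimal hr1 hr2 h0 fun y => ⟨τ (r * y * r) / τ r, ?_⟩)
    rw [← sub_eq_zero]
    set z := r * y * r - (τ (r * y * r) / τ r) • r with hz
    have h1 : τ z = 0 := by
      rw [hz, map_sub, map_smul, smul_eq_mul, div_mul_cancel₀ _ hρ, sub_self]
    have h2 : τ (star z) = 0 := by rw [τ_star, h1, star_zero]
    have h3 : (1 - r) * z = 0 := by
      rw [hz, mul_sub, mul_smul_comm, ← mul_assoc, ← mul_assoc, hr3]; simp
    have h4 : (1 - r) * star z = 0 := by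
      rw [hz, star_sub, star_smul, star_mul, hr1, mul_sub, mul_smul_comm, ← mul_assoc, hr3]; simp
    have h5 : z + star z = 0 := by
      by_contra h
      exact hc _ (by rw [star_add, star_star, add_comm]) h (by rw [map_add, h1, h2, add_zero])
        (by rw [mul_add, h3, h4, add_zero])
    have h6 : Complex.I • (z - star z) = 0 := by
      by_contra h
      exact hc _ (by simp [sub_eq_neg_add, add_comm]) h (by simp [h1, h2])
        (by rw [mul_smul_comm, mul_sub, h3, h4]; simp)
    have h7 := sub_eq_zero.1 ((smul_eq_zero.1 h6).resolve_left Complex.I_ne_zero)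
    rw [← h7, ← two_smul ℂ] at h5
    exact (smul_eq_zero.1 h5).resolve_left two_ne_zero
  obtain ⟨w, hw1, hw2, hw3, hw4⟩ := this
  obtain ⟨a, b, ha, hb, hb', hba, hc⟩ := exists_orth hw1 hw2 hw3
  obtain ⟨hc1, hc2⟩ := hc _ hw4
  have hc3 : b * (1 - r) = 0 := by
    rw [← star_eq_zero, star_mul, star_sub, star_one, hr1, hb', hc2]
  obtain ⟨q, hq⟩ : ∃ q, a * q * b ≠ 0 := by
    by_contra h
    push Not at h
    exact (prime h).elim ha hb
  obtain ⟨v, h1, h2, h3, h4, h5⟩ := exists_piso hq (by
    calc _ = a * q * (b * a) * q * b := by simp only [mul_assoc]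
      _ = 0 := by rw [hba]; simp)
  refine ⟨v, h1, h2, h3, ?_, ?_⟩
  · have := h4 (1 - r) (by rw [← mul_assoc, ← mul_assoc, hc1, zero_mul, zero_mul])
    rw [sub_mul, one_mul, sub_eq_zero] at this
    exact this.symm
  · have := h5 (1 - r) (by rw [mul_assoc, hc3, mul_zero])
    rw [mul_sub, mul_one, sub_eq_zero] at this
    exact this.symm

/-- A pair of anticommuting symmetries. -/
structure IsPauli {A : Type u} [CStarAlgebra A] (x z : A) : Prop where
  sx : star x = x
  sz : star z = z
  xx : x * x = 1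
  zz : z * z = 1
  zx : z * x = -(x * z)

theorem exists_pauli (hA : ¬ FiniteDimensional ℂ A) : ∃ x z : A, IsPauli x z := by
  set S : Set A := {v | v * star v * v = v ∧ v * v = 0} with hS
  obtain ⟨v, ⟨hv1, hv2⟩, hmax⟩ := exists_maximal_of_complete (S := {x : LL A | toL.symm x ∈ S})
    (isComplete_of_seq (fun v hv => norm_piso_le hv.1) fun u x hu h =>
      ⟨((h.mul h.star fun n => norm_piso_le (hu n).1).mul h fun n => norm_mul_le_one
          (norm_piso_le (hu n).1) (by rw [norm_star]; exact norm_piso_le (hu n).1)).eq_of_eq h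
          fun n => (hu n).1,
        (h.mul h fun n => norm_piso_le (hu n).1).eq_of_eq (T2.const 0) fun n => (hu n).2⟩)
    ⟨0, by simp [hS]⟩
    (fun v w => toL.symm w * (star (toL.symm v) * toL.symm v) = toL.symm v ∧
      star (toL.symm w) * toL.symm v = star (toL.symm v) * toL.symm v)
    (fun v hv => ⟨by rw [← mul_assoc]; exact hv.1, rfl⟩)
    (fun u v w h1 h2 => by
      generalize toL.symm u = u at *
      generalize toL.symm v = v at *
      generalize toL.symm w = w at *
      have e : star v * v * (star u * u) = star u * u := by rw [mul_assoc, h1.1, h1.2]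
      refine ⟨by rw [← e, ← mul_assoc, h2.1, h1.1], ?_⟩
      nth_rewrite 1 [← h1.1]
      rw [← mul_assoc, h2.2, e])
    (fun v => ‖v‖ ^ 2)
    (fun v hv => pow_le_one₀ (norm_nonneg _) ((n2_le_norm (toL.symm v)).trans (norm_piso_le hv.1)))
    (fun v u w hu h => by
      have h' : T2 atTop (fun n => toL.symm (u n)) (toL.symm w) := h
      exact ⟨(h'.mul_const _).eq_of_eq (T2.const _) fun n => (hu n).1,
        (h'.star.mul_const _).eq_of_eq (T2.const _) fun n => (hu n).2⟩)
    (fun v w h => by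
      have h1 := n2_sub_sq (toL.symm w) (toL.symm v)
      rw [h.2, ← n2_sq, ← dist_toL, dist_comm] at h1
      change dist v w ^ 2 = ‖w‖ ^ 2 - 2 * ‖v‖ ^ 2 + ‖v‖ ^ 2 at h1
      linarith)
  have hmax' : ∀ w ∈ S, w * (star (toL.symm v) * toL.symm v) = toL.symm v →
      star w * toL.symm v = star (toL.symm v) * toL.symm v → w = toL.symm v :=
    fun w hw h1 h2 => hmax (toL w) hw ⟨h1, h2⟩
  generalize toL.symm v = v at *
  have a1 : v * (star v * v) = v := by rw [← mul_assoc, hv1]
  have a2 : star v * (v * star v) = star v := by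
    simpa only [star_mul, star_star] using congrArg star hv1
  have a3 : star v * star v = 0 := by rw [← star_mul, hv2, star_zero]
  have b3 : ∀ y, v * (v * y) = 0 := fun y => by rw [← mul_assoc, hv2, zero_mul]
  have b4 : ∀ y, star v * (star v * y) = 0 := fun y => by rw [← mul_assoc, a3, zero_mul]
  have hr : 1 - star v * v - v * star v = 0 := by
    by_contra h0
    set r := 1 - star v * v - v * star v with hr
    have c1 : r * v = 0 := by simp [hr, sub_mul, mul_assoc, a1, hv2]
    have c2 : v * r = 0 := by simp [hr, mul_sub, a1, b3]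
    have c0 : star r = r := by simp [hr]
    have c3 : star v * r = 0 := by rw [← star_eq_zero, star_mul, star_star, c0, c1]
    have c4 : r * star v = 0 := by rw [← star_eq_zero, star_mul, star_star, c0, c2]
    obtain ⟨w, h1, h2, h3, h4, h5⟩ := exists_piso_corner hA c0 (by
      nth_rewrite 2 [hr]
      rw [mul_sub, mul_sub, ← mul_assoc, ← mul_assoc, c1, c4]; simp) h0
    have d1 : v * w = 0 := by rw [← h4, ← mul_assoc, c2, zero_mul]
    have d2 : w * v = 0 := by rw [← h5, mul_assoc, c1, mul_zero]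
    have d3 : star v * w = 0 := by rw [← h4, ← mul_assoc, c3, zero_mul]
    have d4 : w * star v = 0 := by rw [← h5, mul_assoc, c4, mul_zero]
    have d5 : star w * v = 0 := by rw [← star_eq_zero, star_mul, star_star, d3]
    have d6 : v * star w = 0 := by rw [← star_eq_zero, star_mul, star_star, d4]
    have := hmax' (v + w) ⟨?_, ?_⟩ ?_ ?_
    · exact h1 (add_eq_left.1 this)
    · rw [star_add, add_mul v, mul_add v, mul_add w, d4, d6, add_zero, zero_add, add_mul, mul_add,
        mul_add, hv1, h2, mul_assoc, mul_assoc, d3, d5]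
      simp
    · simp [add_mul, mul_add, hv2, h3, d1, d2]
    · rw [add_mul, a1, ← mul_assoc, d4]; simp
    · rw [star_add, add_mul, d5, add_zero]
  have e : star v * v + v * star v = 1 := by rw [← sub_eq_zero, ← neg_eq_zero, ← hr]; abel
  refine ⟨v + star v, star v * v - v * star v, by simp [add_comm], by simp, ?_, ?_, ?_⟩
  · simp [add_mul, mul_add, hv2, a3, e, add_comm]
  · rw [← e]
    simp [sub_mul, mul_sub, mul_assoc, a1, a2, b3, b4]
  · simp [sub_mul, mul_sub, add_mul, mul_add, mul_assoc, a1, a2, a3, hv2, b3, b4]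
    abel

end Vale.Agent.P085
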