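import Vale.Agent.P085.Cayley
import Vale.Agent.P086.Stage

/-! The key approximation in the free group factor, in algebraic form. -/

set_option linter.unusedSectionVars false

namespace Vale.Agent.P085

open Filter Topology Finset Vale.Agent.P086
open scoped InnerProductSpace ComplexOrder

instance (G : Type) [Group G] : IsClosed (vN G : Set (Bdd (L2 G))) := isClosed_vN

/-- A trace on a closed subalgebra. -/
@[reducible] noncomputable def trOfSub {C : Type*} [CStarAlgebra C] (Q : StarSubalgebra ℂ C)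
    [IsClosed (Q : Set C)] (t : C → ℂ) (h1 : ∀ x ∈ Q, ∀ y ∈ Q, t (x + y) = t x + t y)
    (h2 : ∀ c : ℂ, ∀ x ∈ Q, t (c • x) = c * t x) (h3 : t 1 = 1)
    (h4 : ∀ x ∈ Q, 0 ≤ t (star x * x)) (h5 : ∀ x ∈ Q, ∀ y ∈ Q, t (x * y) = t (y * x))
    (h6 : ∀ x ∈ Q, t (star x * x) = 0 → x = 0) : Tr Q where
  τ := ⟨⟨fun x => t x, fun x y => h1 _ x.2 _ y.2⟩, fun c x => h2 c _ x.2⟩
  τ_one := h3
  τ_nonneg x := h4 _ x.2
  τ_comm x y := h5 _ x.2 _ y.2
  τ_faithful x h := Subtype.ext (h6 _ x.2 h)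

noncomputable instance (G : Type) [Group G] : Tr (vN G) :=
  trOfSub (vN G) tr (fun _ _ _ _ => map_add _ _ _) (fun _ _ _ => map_smul _ _ _)
    (by
      classical
      have := tr_lam (1 : G)
      rwa [if_pos rfl, map_one] at this)
    (fun x _ => by
      rw [← inner_apply_dl_one, inner_self_eq_norm_sq_to_K]
      exact pow_nonneg (Complex.zero_le_real.2 (norm_nonneg (x (dl 1)))) 2)
    (fun _ hx _ hy => tr_mul_comm hx hy)
    (fun x hx h => by
      rw [← inner_apply_dl_one, inner_self_eq_zero] at h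
      refine op_ext fun g => ?_
      rw [vN_apply_dl hx, h, map_zero]
      rfl)

theorem τ_vN {G : Type} [Group G] (x : vN G) : τ x = tr (x : Bdd (L2 G)) := rfl

theorem n2_vN {G : Type} [Group G] (x : vN G) : n2 x = ‖(x : Bdd (L2 G)) (dl 1)‖ := by
  rw [← sq_eq_sq₀ (n2_nonneg _) (norm_nonneg _), n2_sq, τ_vN, MulMemClass.coe_mul,
    StarMemClass.coe_star, ← inner_apply_dl_one, ← inner_self_eq_norm_sq (𝕜 := ℂ)]
  rfl

/-- The left regular representation with values in the group von Neumann algebra. -/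
noncomputable def lamB {G : Type} [Group G] : G →* vN G where
  toFun g := ⟨lam g, lam_mem_vN g⟩
  map_one' := Subtype.ext (map_one lam)
  map_mul' g h := Subtype.ext (map_mul lam g h)

theorem star_lamB {G : Type} [Group G] (g : G) : star (lamB g) = lamB g⁻¹ :=
  Subtype.ext (star_lam g)

theorem lamB_mem_unitary {G : Type} [Group G] (g : G) : lamB g ∈ unitary (vN G) :=
  mem_unitary_of_star lamB star_lamB g

theorem τ_lamB {G : Type} [Group G] [DecidableEq G] (g : G) :
    τ (lamB g) = if g = 1 then 1 else 0 := by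
  convert tr_lam g using 1
  · rfl
  · congr

theorem key2 {ε : ℝ} (hε : 0 < ε) : ∃ (L : List (Fin 3 × Bool)) (z : vN G4), z ∈ unitary (vN G4) ∧
    ‖z - 1‖ ≤ ε ∧ n2 (wrd ![z * lamB (FreeGroup.of 0), lamB (FreeGroup.of 1),
      lamB (FreeGroup.of 2)] L - lamB (FreeGroup.of 3)) ≤ ε := by
  obtain ⟨W, hW, w, h0, h1, h2⟩ := key00 hε
  obtain ⟨V, hV, hVg⟩ := exists_std_of_aut (ext4 inc (vv * (inc w)⁻¹)) (ext4 inc (vv * inc w))
    (fun g => DFunLike.congr_fun (hom4_ext (f := (ext4 inc (vv * (inc w)⁻¹)).comp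
      (ext4 inc (vv * inc w))) (g := MonoidHom.id _) (fun x => by simp [ext4_inc])
      (by simp [ext4_inc, ext4_vv])) g)
    (fun g => DFunLike.congr_fun (hom4_ext (f := (ext4 inc (vv * inc w)).comp
      (ext4 inc (vv * (inc w)⁻¹))) (g := MonoidHom.id _) (fun x => by simp [ext4_inc])
      (by simp [ext4_inc, ext4_vv])) g)
  have hU := hW.trans hV
  have hV1 : ∀ j : Fin 3, V.conjStarAlgEquiv (lam (FreeGroup.of j.castSucc))
      = lam (FreeGroup.of j.castSucc) := fun j => by rw [← inc_of, hVg, ext4_inc]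
  set π : G3 →* vN G4 :=
    { toFun := fun g => ⟨(W.trans V).conjStarAlgEquiv (lam (inc g)), (hU.2 _).2 (lam_mem_vN _)⟩
      map_one' := Subtype.ext (by simp)
      map_mul' := fun g h => Subtype.ext (by simp) } with hπ
  have hπ1 : ∀ g, (π g : Bdd (L2 G4)) = (W.trans V).conjStarAlgEquiv (lam (inc g)) := fun g => rfl
  have hs : ∀ g, star (π g) = π g⁻¹ := fun g => Subtype.ext (by
    change star (π g : Bdd (L2 G4)) = _
    rw [hπ1, hπ1, ← map_star, star_lam, map_inv inc])
  have hu := lamB_mem_unitary (FreeGroup.of (0 : Fin 4))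
  refine ⟨w.toWord, π (FreeGroup.of 0) * star (lamB (FreeGroup.of 0)),
    mul_mem (mem_unitary_of_star π hs _) (Unitary.star_mem hu), ?_, ?_⟩
  · rw [← hu.2, ← sub_mul]
    refine (norm_mul_le_of' _ (norm_unitary_le (Unitary.star_mem hu))).trans ?_
    change ‖(π (FreeGroup.of 0) : Bdd (L2 G4)) - lam (FreeGroup.of (Fin.castSucc 0))‖ ≤ ε
    rw [hπ1, conj_trans, inc_of, ← hV1 0, ← map_sub, norm_conj, hV1]
    exact h1 _
  · have e : ![π (FreeGroup.of 0) * star (lamB (FreeGroup.of 0)) * lamB (FreeGroup.of 0),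
        lamB (FreeGroup.of 1), lamB (FreeGroup.of 2)] = fun j => π (FreeGroup.of j) := by
      have k : ∀ j : Fin 3, j ≠ 0 → lamB (FreeGroup.of j.castSucc) = π (FreeGroup.of j) :=
        fun j hj => Subtype.ext (by
          rw [hπ1, conj_trans, inc_of, h0 _ (by simpa using hj), hV1]
          rfl)
      funext j
      fin_cases j
      · simp [mul_assoc, hu.1]
      · exact k 1 (by decide)
      · exact k 2 (by decide)
    have e2 : V (dl (vv * inc w)) = dl vv := by
      rw [hV.apply_dl, hVg, lam_dl, map_mul, ext4_vv, ext4_inc]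
      simp
    rw [e, ← hom_mk π hs, FreeGroup.mk_toWord, n2_vN]
    change ‖((π w : Bdd (L2 G4)) - lam vv) (dl 1)‖ ≤ ε
    rw [sub_apply, hπ1, ← hU.apply_dl, lam_dl, mul_one, LinearIsometryEquiv.trans_apply, ← e2,
      ← map_sub, LinearIsometryEquiv.norm_map]
    exact h2

theorem exists_approx {G : Type} [Group G] (x : vN G) {ε : ℝ} (hε : 0 < ε) :
    ∃ (s : Finset G) (r : G → ℂ), n2 (x - ∑ g ∈ s, r g • lamB g) ≤ ε := by
  obtain ⟨s, hs⟩ := ((Metric.tendsto_nhds.1 (hasSum_dl ((x : Bdd (L2 G)) (dl 1)))) ε hε).exists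
  refine ⟨s, fun g => (x : Bdd (L2 G)) (dl 1) g, ?_⟩
  rw [dist_comm, dist_eq_norm] at hs
  have e : ∀ r : G → ℂ, ((∑ g ∈ s, r g • lamB g : vN G) : Bdd (L2 G)) (dl 1)
      = ∑ g ∈ s, r g • dl g := fun r => by
    rw [AddSubmonoidClass.coe_finsetSum, _root_.sum_apply]
    refine sum_congr rfl fun g _ => ?_
    change r g • lam g (dl 1) = _
    rw [lam_dl, mul_one]
  rw [n2_vN, AddSubgroupClass.coe_sub, sub_apply, e]
  exact hs.le

theorem key3 {ε : ℝ} (hε : 0 < ε) : ∃ (L : List (Fin 3 × Bool)) (s : Finset G4) (r : G4 → ℂ),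
    ∀ z : vN G4, IsCay (herm (∑ g ∈ s, r g • lamB g)) z → n2 (z - 1) < ε ∧
      n2 (wrd ![z * lamB (FreeGroup.of 0), lamB (FreeGroup.of 1), lamB (FreeGroup.of 2)] L
        - lamB (FreeGroup.of 3)) < ε := by
  obtain ⟨L, z, hz, h1, h2⟩ := key2 (ε := min 1 (ε / 2)) (by positivity)
  have m1 := min_le_left 1 (ε / 2)
  have m2 := min_le_right 1 (ε / 2)
  obtain ⟨k, hk, hc⟩ := exists_cay_inv hz (by linarith)
  set δ : ℝ := ε / 4 / (L.length + 1) with hδ
  have hδ0 : 0 < δ := by positivity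
  have hδ1 : L.length * δ + δ = ε / 4 := by rw [hδ]; field_simp
  obtain ⟨s, r, h3⟩ := exists_approx k (half_pos hδ0)
  refine ⟨L, s, r, fun z' hz' => ?_⟩
  have h4 : n2 (z' - z) ≤ δ := by
    rw [n2_sub_comm]
    linarith [hc.n2_sub_le hz', n2_sub_herm hk (∑ g ∈ s, r g • lamB g)]
  have h5 : 0 ≤ L.length * δ := by positivity
  refine ⟨?_, ?_⟩
  · linarith [n2_triangle z' z 1, n2_le_norm (z - 1)]
  · have hu : ∀ z ∈ unitary (vN G4), ∀ j, ![z * lamB (FreeGroup.of 0), lamB (FreeGroup.of 1),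
        lamB (FreeGroup.of 2)] j ∈ unitary (vN G4) := by
      intro z hz j
      fin_cases j
      exacts [mul_mem hz (lamB_mem_unitary _), lamB_mem_unitary _, lamB_mem_unitary _]
    have := n2_wrd_sub (hu z' hz'.mem) (hu z hz) (δ := δ) (fun j => by
      fin_cases j
      · simpa [← sub_mul, n2_mul_unitary _ (lamB_mem_unitary _)] using h4
      · simpa [n2_zero] using hδ0.le
      · simpa [n2_zero] using hδ0.le) L
    refine (n2_triangle _ _ _).trans_lt (lt_of_le_of_lt (add_le_add this h2) ?_)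
    linarith

end Vale.Agent.P085
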