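import Vale.Agent.P085.Basic
import Vale.Agent.P085.Gen

/-! From concrete von Neumann algebras to the abstract setting. -/

set_option linter.unusedSectionVars false

namespace Vale.Agent.P085

open Filter Topology
open scoped InnerProductSpace

universe u v

variable {H : Type u} [NormedAddCommGroup H] [InnerProductSpace ℂ H] [CompleteSpace H]

/-- Weak operator convergence of a sequence along a filter. -/
def WL (l : Filter ℕ) (u : ℕ → Bdd H) (x : Bdd H) : Prop :=
  ∀ ξ η : H, Tendsto (fun n => ⟪η, u n ξ⟫_ℂ) l (𝓝 ⟪η, x ξ⟫_ℂ)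

theorem WL.const_mul {l : Filter ℕ} {u : ℕ → Bdd H} {x : Bdd H} (h : WL l u x) (c : Bdd H) :
    WL l (fun n => c * u n) (c * x) := fun ξ η => by
  simpa only [mul_apply_eq_comp, ContinuousLinearMap.adjoint_inner_left]
    using h ξ (ContinuousLinearMap.adjoint c η)

theorem WL.mem {l : Filter ℕ} [l.NeBot] {u : ℕ → Bdd H} {x : Bdd H} (h : WL l u x)
    {N : VonNeumannAlgebra H} (hu : ∀ n, u n ∈ N) : x ∈ N := by
  rw [← N.commutant_commutant, VonNeumannAlgebra.mem_commutant_iff]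
  intro c hc
  ext1 ξ
  refine ext_inner_left ℂ fun η => tendsto_nhds_unique (h.const_mul c ξ η) ?_
  simpa only [← VonNeumannAlgebra.mem_commutant_iff.1 hc _ (hu _), mul_apply_eq_comp]
    using h (c ξ) η

theorem exists_WL (l : Ultrafilter ℕ) {u : ℕ → Bdd H} (hu : ∀ n, ‖u n‖ ≤ 1) :
    ∃ x : Bdd H, ‖x‖ ≤ 1 ∧ WL l u x := by
  have key : ∀ η ξ : H, ∃ b : ℂ, ‖b‖ ≤ 1 * ‖η‖ * ‖ξ‖ ∧ Tendsto (fun n => ⟪η, u n ξ⟫_ℂ) l (𝓝 b) := by
    intro η ξ
    obtain ⟨b, hb, h⟩ := (isCompact_closedBall (0 : ℂ) (1 * ‖η‖ * ‖ξ‖)).ultrafilter_le_nhds'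
      (l.map fun n => ⟪η, u n ξ⟫_ℂ) (Ultrafilter.mem_map.2 (univ_mem' fun n => by
        rw [Set.mem_preimage, mem_closedBall_zero_iff, one_mul]
        exact (norm_inner_le_norm _ _).trans (mul_le_mul_of_nonneg_left
          (((u n).le_opNorm ξ).trans (mul_le_of_le_one_left (norm_nonneg _) (hu n)))
          (norm_nonneg _))))
    exact ⟨b, mem_closedBall_zero_iff.1 hb, h⟩
  choose b hb h using key
  let B : H →L⋆[ℂ] H →L[ℂ] ℂ := LinearMap.mkContinuous₂
    (LinearMap.mk₂'ₛₗ (starRingEnd ℂ) (RingHom.id ℂ) b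
      (fun η η' ξ => tendsto_nhds_unique (h _ _)
        (by simpa only [inner_add_left] using (h η ξ).add (h η' ξ)))
      (fun c η ξ => tendsto_nhds_unique (h _ _)
        (by simpa only [inner_smul_left, smul_eq_mul] using (h η ξ).const_mul _))
      (fun η ξ ξ' => tendsto_nhds_unique (h _ _)
        (by simpa only [map_add, inner_add_right] using (h η ξ).add (h η ξ')))
      (fun c η ξ => tendsto_nhds_unique (h _ _)
        (by simpa only [map_smul, inner_smul_right, smul_eq_mul, RingHom.id_apply]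
          using (h η ξ).const_mul _))) 1 hb
  have e : ∀ η ξ, ⟪η, ContinuousLinearMap.adjoint
      (InnerProductSpace.continuousLinearMapOfBilin B) ξ⟫_ℂ = b η ξ := fun η ξ => by
    rw [ContinuousLinearMap.adjoint_inner_right,
      InnerProductSpace.continuousLinearMapOfBilin_apply]
    rfl
  refine ⟨_, ContinuousLinearMap.opNorm_le_bound _ zero_le_one fun ξ => ?_,
    fun ξ η => e η ξ ▸ h η ξ⟩
  generalize ContinuousLinearMap.adjoint (InnerProductSpace.continuousLinearMapOfBilin B) = x at e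
  have h1 := hb (x ξ) ξ
  rw [← e, inner_self_eq_norm_sq_to_K, norm_pow, RCLike.norm_ofReal, abs_norm] at h1
  rcases (norm_nonneg (x ξ)).eq_or_lt with h0 | h0
  · rw [← h0]; positivity
  · exact le_of_mul_le_mul_left (by linarith) h0

section

variable {A : Type v} [CStarAlgebra A] [Tr A]

theorem n2_le_of_weak {l : Filter ℕ} [l.NeBot] {v : ℕ → A} {w y : A} {ε : ℝ} (hε : 0 ≤ ε)
    (h : ∀ c, Tendsto (fun m => τ (c * v m)) l (𝓝 (τ (c * y))))
    (hw : ∀ᶠ m in l, n2 (w - v m) ≤ ε) : n2 (w - y) ≤ ε := by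
  have h1 : Tendsto (fun m => ‖τ (star (w - y) * (w - v m))‖) l
      (𝓝 ‖τ (star (w - y) * (w - y))‖) := by
    simpa only [mul_sub, map_sub] using ((h (star (w - y))).const_sub _).norm
  have h2 := le_of_tendsto h1 (hw.mono fun m hm => (norm_τ_mul_le _ _).trans
    (mul_le_mul_of_nonneg_left hm (n2_nonneg _)))
  rw [τ_star_mul_self, n2_star, Complex.norm_real, Real.norm_of_nonneg (sq_nonneg _)] at h2
  rcases (n2_nonneg (w - y)).eq_or_lt with h0 | h0
  · rwa [← h0]
  · exact le_of_mul_le_mul_left (by linarith) h0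

variable (ρ : A →⋆ₐ[ℂ] Bdd H)
  (hn : ∀ (l : Filter ℕ) (u : ℕ → A) (x : A), (∀ n, ‖u n‖ ≤ 1) → ‖x‖ ≤ 1 →
    WL l (fun n => ρ (u n)) (ρ x) → Tendsto (fun n => τ (u n)) l (𝓝 (τ x)))
include hn

theorem tendsto_τ_mul {l : Filter ℕ} {u : ℕ → A} {x : A} (hu : ∀ n, ‖u n‖ ≤ 1) (hx : ‖x‖ ≤ 1)
    (h : WL l (fun n => ρ (u n)) (ρ x)) (c : A) :
    Tendsto (fun m => τ (c * u m)) l (𝓝 (τ (c * x))) := by
  set r : ℝ := ‖c‖ + 1 with hr
  have hr0 : 0 < r := by positivity
  have h1 : ‖((r⁻¹ : ℝ) : ℂ) • c‖ ≤ 1 := by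
    rw [norm_smul, Complex.norm_real, Real.norm_of_nonneg (inv_pos.2 hr0).le, inv_mul_le_iff₀ hr0]
    linarith
  have h2 := (hn l _ _ (fun n => norm_mul_le_one h1 (hu n)) (norm_mul_le_one h1 hx)
    (by simpa only [map_mul] using h.const_mul (ρ _))).const_mul (r : ℂ)
  simpa only [smul_mul_assoc, map_smul, smul_eq_mul, ← mul_assoc, ← Complex.ofReal_mul,
    mul_inv_cancel₀ hr0.ne', Complex.ofReal_one, one_mul] using h2

theorem separable_LL [TopologicalSpace.SeparableSpace H] :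
    TopologicalSpace.SeparableSpace (LL A) := by
  have : Nonempty H := ⟨0⟩
  have : SecondCountableTopology H := UniformSpace.secondCountable_of_separable _
  obtain ⟨e, he⟩ := TopologicalSpace.exists_dense_seq H
  set Φ : A → ℕ → H := fun x i => ρ x (e i) with hΦ
  obtain ⟨t, h1, h2, h3⟩ := (TopologicalSpace.IsSeparable.of_separableSpace
    (Φ '' {x | ‖x‖ ≤ 1})).exists_countable_dense_subset
  obtain ⟨D, hD2, hD0, rfl⟩ := Set.SurjOn.exists_subset_injOn_image_eq h1
  have hD1 : D.Countable := Set.countable_of_injective_of_countable_image hD0 h2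
  have hb : TopologicalSpace.IsSeparable {x : LL A | ‖toL.symm x‖ ≤ 1} := by
    refine ⟨toL '' D, hD1.image _, fun x hx => ?_⟩
    obtain ⟨f, hf1, hf2⟩ := mem_closure_iff_seq_limit.1 (h3 ⟨_, hx, rfl⟩)
    choose u hu1 hu2 using hf1
    refine mem_closure_of_tendsto (b := atTop) (f := fun n => toL (u n)) ?_
      (Eventually.of_forall fun n => ⟨_, hu1 n, rfl⟩)
    set w : ℕ → A := fun n => (2⁻¹ : ℂ) • (u n - toL.symm x) with hw
    have hw1 : ∀ n, ‖w n‖ ≤ 1 := fun n => by
      rw [hw, norm_smul, norm_inv, Complex.norm_ofNat]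
      linarith [norm_sub_le (u n) (toL.symm x), show ‖u n‖ ≤ 1 from hD2 (hu1 n),
        show ‖toL.symm x‖ ≤ 1 from hx]
    have hw2 : ∀ n ξ, ‖ρ (w n) ξ‖ ≤ ‖ξ‖ := fun n ξ => ((ρ (w n)).le_opNorm ξ).trans
      (mul_le_of_le_one_left (norm_nonneg _)
        ((NonUnitalStarAlgHom.norm_apply_le _ _).trans (hw1 n)))
    have hs : ∀ ξ, Tendsto (fun n => ρ (w n) ξ) atTop (𝓝 0) := by
      have hc := Equicontinuous.isClosed_setOfPred_tendsto (l := atTop)
        (F := fun n ξ => ρ (w n) ξ) (LipschitzWith.uniformEquicontinuous _ 1 fun n =>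
          LipschitzWith.of_dist_le_mul fun ξ η => by
            rw [dist_eq_norm, dist_eq_norm, ← map_sub, NNReal.coe_one, one_mul]
            exact hw2 n _).equicontinuous (continuous_const (y := 0))
      refine fun ξ => he.induction_on ξ hc fun i => ?_
      have := ((tendsto_pi_nhds.1 hf2 i).sub_const (Φ (toL.symm x) i)).const_smul (2⁻¹ : ℂ)
      rw [show Φ x i - Φ (toL.symm x) i = 0 from sub_self _, smul_zero] at this
      simpa [hw, ← hu2, hΦ] using this
    have h4 := hn atTop (fun n => star (w n) * w n) 0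
      (fun n => norm_mul_le_one (by rw [norm_star]; exact hw1 n) (hw1 n)) (by simp) fun ξ η => by
        simp only [map_zero, zero_apply, inner_zero_right, map_mul, map_star, mul_apply_eq_comp,
          ContinuousLinearMap.star_eq_adjoint, ContinuousLinearMap.adjoint_inner_right]
        refine squeeze_zero_norm (fun n => (norm_inner_le_norm _ _).trans
          (mul_le_mul_of_nonneg_right (hw2 n η) (norm_nonneg _))) ?_
        simpa using (hs ξ).norm.const_mul ‖η‖
    have h5 := (((Complex.continuous_re.tendsto _).comp h4).sqrt).const_mul 2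
    refine (T2_iff (x := toL.symm x)).2 ?_
    simp only [Function.comp_def, ← n2_sq, Real.sqrt_sq (n2_nonneg _)] at h5
    simpa [hw, n2_smul] using h5
  refine TopologicalSpace.isSeparable_univ_iff.1 ((TopologicalSpace.IsSeparable.iUnion
    fun n : ℕ => hb.image (continuous_const_smul (((n : ℝ) + 1 : ℝ) : ℂ))).mono fun x _ => ?_)
  obtain ⟨n, hx⟩ := exists_nat_ge ‖toL.symm x‖
  have h0 : (0 : ℝ) < n + 1 := by positivity
  refine Set.mem_iUnion.2 ⟨n, ((((n : ℝ) + 1)⁻¹ : ℝ) : ℂ) • x, ?_, ?_⟩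
  · rw [Set.mem_ofPred_eq, map_smul, norm_smul, Complex.norm_real,
      Real.norm_of_nonneg (inv_pos.2 h0).le, inv_mul_le_iff₀ h0]
    linarith
  · simp only [smul_smul, ← Complex.ofReal_mul, mul_inv_cancel₀ h0.ne', Complex.ofReal_one,
      one_smul]

variable (hc : ∀ u : ℕ → A, (∀ n, ‖u n‖ ≤ 1) →
  ∃ x, ‖x‖ ≤ 1 ∧ WL (hyperfilter ℕ) (fun n => ρ (u n)) (ρ x))
include hc

theorem wTr_of_normal : WTr A where
  complete := isComplete_of_cauchySeq fun u hu hcs => by
    obtain ⟨x, hx, h⟩ := hc (fun n => toL.symm (u n)) hu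
    refine ⟨toL x, hx, Metric.tendsto_atTop.2 fun ε hε => ?_⟩
    obtain ⟨N, hN⟩ := Metric.cauchySeq_iff.1 hcs (ε / 2) (half_pos hε)
    refine ⟨N, fun n hn' => ((dist_toL (toL.symm (u n)) x).trans_le (n2_le_of_weak
      (half_pos hε).le (tendsto_τ_mul ρ hn hu hx h) ?_)).trans_lt (half_lt_self hε)⟩
    refine Nat.hyperfilter_le_atTop ((eventually_ge_atTop N).mono fun m hm => ?_)
    exact (dist_toL _ _).symm.trans_le (hN n hn' m hm).le

theorem isW_comap (N : VonNeumannAlgebra H) : IsW (N.toStarSubalgebra.comap ρ) where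
  mem u x hu hb h := by
    obtain ⟨y, hy, h'⟩ := hc u hb
    have : x = y := by
      refine sub_eq_zero.1 (n2_eq_zero (le_antisymm (le_of_forall_pos_le_add fun ε hε => ?_)
        (n2_nonneg _)))
      rw [zero_add]
      refine n2_le_of_weak hε.le (tendsto_τ_mul ρ hn hb hy h') (Nat.hyperfilter_le_atTop ?_)
      exact ((T2_iff.1 h).eventually (ge_mem_nhds hε)).mono fun m hm => (n2_sub_comm _ _).trans_le hm
    rw [this]
    exact h'.mem (N := N) hu

theorem exists_generator_rep [TopologicalSpace.SeparableSpace H] [Fac A]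
    (hA : ¬ FiniteDimensional ℂ A) :
    ∃ w : A, ∀ N : VonNeumannAlgebra H, ρ w ∈ N → ∀ y, ρ y ∈ N := by
  have := wTr_of_normal ρ hn hc
  have := separable_LL ρ hn
  obtain ⟨w, hw⟩ := exists_single hA
  exact ⟨w, fun N hN y => hw _ (isW_comap ρ hn hc N) hN y⟩

end

theorem singly_generated [TopologicalSpace.SeparableSpace H] (M : VonNeumannAlgebra H)
    (hM : IsTypeII1Factor M) : IsSinglyGenerated M := by
  obtain ⟨h1, h2, t, ht⟩ := hM
  have : IsClosed (M.toStarSubalgebra : Set (Bdd H)) := by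
    rw [M.coe_toStarSubalgebra, ← M.centralizer_centralizer]
    exact Set.isClosed_centralizer _
  let _ : Tr M.toStarSubalgebra := trOfSub M.toStarSubalgebra t ht.map_add ht.map_smul ht.map_one
    ht.nonneg ht.tracial ht.faithful
  have : Fac M.toStarSubalgebra := ⟨fun c hc => by
    obtain ⟨s, hs⟩ := h1 c c.2 fun y hy => congrArg Subtype.val (hc ⟨y, hy⟩)
    exact ⟨s, Subtype.ext hs⟩⟩
  obtain ⟨w, hw⟩ := exists_generator_rep M.toStarSubalgebra.subtype
    (fun l u x hu hx h => ht.normal (l.map fun n => (u n : Bdd H)) x x.2 hx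
      (eventually_map.2 (Eventually.of_forall fun n => ⟨(u n).2, hu n⟩)) h)
    (fun u hu => by
      obtain ⟨x, hx, h⟩ := exists_WL (hyperfilter ℕ) (u := fun n => (u n : Bdd H)) hu
      exact ⟨⟨x, h.mem (N := M) fun n => (u n).2⟩, hx, h⟩) h2
  exact ⟨w, w.2, fun N hN y hy => hw N hN ⟨y, hy⟩⟩

end Vale.Agent.P085
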