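import Vale.Agent.P085.Trace

/-! Minimal-norm arguments: averaging and range projections. -/

set_option linter.unusedSectionVars false

namespace Vale.Agent.P085

open Filter Topology
open scoped InnerProductSpace ComplexOrder

universe u

variable {A : Type u} [CStarAlgebra A] [Tr A]

theorem n2_add_sq (x y : A) :
    n2 (x + y) ^ 2 = n2 x ^ 2 + 2 * (τ (star x * y)).re + n2 y ^ 2 := by
  rw [n2, map_add, norm_add_sq (𝕜 := ℂ), inner_toL]
  rfl

theorem n2_sub_sq (x y : A) :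
    n2 (x - y) ^ 2 = n2 x ^ 2 - 2 * (τ (star x * y)).re + n2 y ^ 2 := by
  rw [n2, map_sub, norm_sub_sq (𝕜 := ℂ), inner_toL]
  rfl

theorem n2_eq_zero_of_sq_le {x : A} (h : n2 x ^ 2 ≤ 0) : x = 0 :=
  n2_eq_zero (pow_eq_zero_iff two_ne_zero |>.1 (le_antisymm h (sq_nonneg _)))

theorem norm_convex_le {x y : A} (hx : ‖x‖ ≤ 1) (hy : ‖y‖ ≤ 1) {a b : ℝ} (ha : 0 ≤ a) (hb : 0 ≤ b)
    (hab : a + b = 1) : ‖(a : ℂ) • x + (b : ℂ) • y‖ ≤ 1 := by
  refine (norm_add_le _ _).trans ?_
  rw [norm_smul, norm_smul, Complex.norm_real, Complex.norm_real, Real.norm_of_nonneg ha,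
    Real.norm_of_nonneg hb]
  nlinarith

theorem norm_mul_le_one {x y : A} (hx : ‖x‖ ≤ 1) (hy : ‖y‖ ≤ 1) : ‖x * y‖ ≤ 1 :=
  (norm_mul_le _ _).trans (mul_le_one₀ hx (norm_nonneg _) hy)

theorem τ_star_mul_self (x : A) : τ (star x * x) = ((n2 x ^ 2 : ℝ) : ℂ) := by
  rw [n2_sq]
  exact Complex.ext rfl (Complex.nonneg_iff.1 (τ_nonneg x)).2.symm

variable [WTr A]

theorem norm_le_of_T2 {ι : Type*} {l : Filter ι} [l.NeBot] {u : ι → A} {x : A}
    (hu : ∀ i, ‖u i‖ ≤ 1) (h : T2 l u x) : ‖x‖ ≤ 1 :=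
  (WTr.complete (A := A)).isClosed.mem_of_tendsto h (Eventually.of_forall hu)

theorem isComplete_of_seq {S : Set A} (hb : ∀ x ∈ S, ‖x‖ ≤ 1)
    (hcl : ∀ (u : ℕ → A) x, (∀ n, u n ∈ S) → T2 atTop u x → x ∈ S) :
    IsComplete {x : LL A | toL.symm x ∈ S} := by
  have hc : IsClosed {x : LL A | toL.symm x ∈ S} :=
    IsSeqClosed.isClosed fun u x hu h => hcl (fun n => toL.symm (u n)) (toL.symm x) hu h
  intro f hf hS
  obtain ⟨x, -, hx⟩ := WTr.complete (A := A) f hf (hS.trans (principal_mono.2 fun y hy => hb _ hy))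
  have := hf.1
  exact ⟨x, hc.mem_of_tendsto (f := id) hx (le_principal_iff.1 hS), hx⟩

theorem exists_min {S : Set A} (hne : S.Nonempty) (hb : ∀ x ∈ S, ‖x‖ ≤ 1)
    (hcl : ∀ (u : ℕ → A) x, (∀ n, u n ∈ S) → T2 atTop u x → x ∈ S)
    (hconv : ∀ x ∈ S, ∀ y ∈ S, ∀ a b : ℝ, 0 ≤ a → 0 ≤ b → a + b = 1 →
      (a : ℂ) • x + (b : ℂ) • y ∈ S) :
    ∃ e ∈ S, ∀ x ∈ S, n2 x ≤ n2 e → x = e := by
  let _ : InnerProductSpace ℝ (LL A) := InnerProductSpace.rclikeToReal ℂ _
  obtain ⟨e, he, h⟩ := exists_norm_eq_iInf_of_complete_convex (K := {x : LL A | toL.symm x ∈ S})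
    hne (isComplete_of_seq hb hcl) (fun x hx y hy a b ha hb hab => hconv _ hx _ hy a b ha hb hab) 0
  have hmin : ∀ x ∈ S, n2 (toL.symm e) ≤ n2 x := by
    intro x hx
    have := ciInf_le (f := fun w : {x : LL A | toL.symm x ∈ S} => ‖(0 : LL A) - w‖)
      ⟨0, Set.forall_mem_range.2 fun _ => norm_nonneg _⟩ ⟨toL x, hx⟩
    rw [← h, zero_sub, zero_sub, norm_neg, norm_neg] at this
    exact this
  refine ⟨toL.symm e, he, fun x hx hle => ?_⟩
  set e' : A := toL.symm e
  have h1 := hmin _ (hconv x hx e' he (1 / 2) (1 / 2) (by norm_num) (by norm_num) (by norm_num))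
  rw [← smul_add, n2_smul] at h1
  have h2 : ‖((1 / 2 : ℝ) : ℂ)‖ = 1 / 2 := by simp
  rw [h2] at h1
  have h3 := n2_add_sq x e'
  have h4 := n2_sub_sq x e'
  have h5 := n2_nonneg x
  have h6 := n2_nonneg e'
  refine sub_eq_zero.1 (n2_eq_zero_of_sq_le ?_)
  nlinarith

theorem exists_range_proj (k : A) :
    ∃ e : A, star e = e ∧ e * e = e ∧ e * k = k ∧ ∀ a, a * k = 0 → a * e = 0 := by
  obtain ⟨e, ⟨he1, he2⟩, h⟩ := exists_min (S := {x : A | ‖x‖ ≤ 1 ∧ x * k = k})
    ⟨1, norm_one_le, one_mul k⟩ (fun x hx => hx.1)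
    (fun u x hu h => ⟨norm_le_of_T2 (fun n => (hu n).1) h,
      (h.mul_const k).eq_of_eq (T2.const k) fun n => (hu n).2⟩)
    (fun x hx y hy a b ha hb hab => ⟨norm_convex_le hx.1 hy.1 ha hb hab, by
      rw [add_mul, smul_mul_assoc, smul_mul_assoc, hx.2, hy.2, ← add_smul, ← Complex.ofReal_add,
        hab, Complex.ofReal_one, one_smul]⟩)
  have hs : ‖star e‖ ≤ 1 := by rwa [norm_star]
  refine ⟨e, h _ ⟨hs, ?_⟩ (n2_star e).le,
    h _ ⟨norm_mul_le_one he1 he1, by rw [mul_assoc, he2, he2]⟩ (n2_mul_le_of he1 e), he2,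
    fun a ha => ?_⟩
  · refine sub_eq_zero.1 (n2_eq_zero_of_sq_le ?_)
    rw [n2_sub_sq, star_mul, star_star, mul_assoc, he2, ← n2_sq]
    have h1 := n2_mul_le_of hs k
    have h2 := n2_nonneg (star e * k)
    nlinarith
  · set c : ℝ := (‖a‖ ^ 2 + 1)⁻¹ with hc
    have hc0 : 0 < c := by positivity
    have hn : ‖1 - (c : ℂ) • (star a * a)‖ ≤ 1 := by
      let _ := CStarAlgebra.spectralOrder A
      have _ := CStarAlgebra.spectralOrderedRing A
      have k1 : (0 : A) ≤ (c : ℂ) • (star a * a) := by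
        rw [Complex.coe_smul]
        exact smul_nonneg hc0.le (star_mul_self_nonneg a)
      have k2 : ‖(c : ℂ) • (star a * a)‖ ≤ 1 := by
        rw [norm_smul, Complex.norm_real, Real.norm_of_nonneg hc0.le,
          CStarRing.norm_star_mul_self, hc, inv_mul_le_iff₀ (by positivity)]
        nlinarith
      have k3 := (CStarAlgebra.norm_le_one_iff_of_nonneg _ k1).1 k2
      exact (CStarAlgebra.norm_le_one_iff_of_nonneg _ (sub_nonneg.2 k3)).2 (sub_le_self _ k1)
    have h1 := h ((1 - (c : ℂ) • (star a * a)) * e) ⟨norm_mul_le_one hn he1, by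
      rw [mul_assoc, he2, sub_mul, one_mul, smul_mul_assoc, mul_assoc, ha, mul_zero, smul_zero,
        sub_zero]⟩ (n2_mul_le_of hn e)
    rw [sub_mul, one_mul, sub_eq_self, smul_mul_assoc, smul_eq_zero] at h1
    have h2 := h1.resolve_left (by exact_mod_cast hc0.ne')
    refine τ_faithful _ ?_
    rw [star_mul, mul_assoc, ← mul_assoc (star a), h2, mul_zero, map_zero]

/-- The centre is trivial. -/
class Fac (A : Type u) [CStarAlgebra A] : Prop where
  factor : ∀ c : A, (∀ y, c * y = y * c) → ∃ s : ℂ, c = s • 1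

variable [Fac A]

theorem averaging_aux {y : A} (hy : ‖y‖ ≤ 1) (c : A) (β : ℝ)
    (h : ∀ u ∈ unitary A, β ≤ (τ (c * (u * y * star u))).re) : β ≤ (τ c * τ y).re := by
  obtain ⟨e, ⟨he1, he2, he3⟩, hmin⟩ := exists_min
    (S := {w : A | ‖w‖ ≤ 1 ∧ τ w = τ y ∧ ∀ u ∈ unitary A, β ≤ (τ (c * (u * w * star u))).re})
    ⟨y, hy, rfl, h⟩ (fun x hx => hx.1)
    (fun u x hu h => ⟨norm_le_of_T2 (fun n => (hu n).1) h,
      tendsto_nhds_unique h.τ (tendsto_const_nhds.congr fun n => (hu n).2.1.symm), fun v hv =>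
        ge_of_tendsto' ((Complex.continuous_re.tendsto _).comp
          (((h.const_mul v).mul_const (star v)).const_mul c).τ) fun n => (hu n).2.2 v hv⟩)
    (fun x hx z hz a b ha hb hab => ⟨norm_convex_le hx.1 hz.1 ha hb hab, by
      rw [map_add, map_smul, map_smul, hx.2.1, hz.2.1, ← add_smul, ← Complex.ofReal_add,
        hab, Complex.ofReal_one, one_smul], fun v hv => by
      have h1 := mul_le_mul_of_nonneg_left (hx.2.2 v hv) ha
      have h2 := mul_le_mul_of_nonneg_left (hz.2.2 v hv) hb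
      simp only [mul_add, add_mul, mul_smul_comm, smul_mul_assoc, map_add, map_smul, smul_eq_mul,
        Complex.add_re, Complex.re_ofReal_mul]
      calc β = a * β + b * β := by rw [← add_mul, hab, one_mul]
        _ ≤ _ := add_le_add h1 h2⟩)
  have h1 : ∀ v ∈ unitary A, e * v = v * e := by
    intro v hv
    have hv' := Unitary.star_mem hv
    have := hmin (v * e * star v) ⟨norm_mul_le_one (norm_mul_le_one (norm_unitary_le hv) he1)
      (norm_unitary_le hv'), by rw [τ_comm, ← mul_assoc, hv.1, one_mul, he2], fun w hw => by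
        have := he3 _ (mul_mem hw hv)
        simpa only [star_mul, mul_assoc] using this⟩
      (by rw [n2_mul_unitary _ hv', n2_unitary_mul hv])
    conv_lhs => rw [← this]
    rw [mul_assoc, hv.1, mul_one]
  obtain ⟨s, rfl⟩ := Fac.factor e fun z => by
    obtain ⟨v, d, rfl, -⟩ := CStarAlgebra.exists_sum_four_unitary z
    simp only [Finset.mul_sum, Finset.sum_mul, mul_smul_comm, smul_mul_assoc, h1 _ (v _).2]
  have := he3 1 (one_mem _)
  rw [← he2]
  simpa [τ_one, mul_comm] using this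

theorem averaging (y c : A) (β : ℝ)
    (h : ∀ u ∈ unitary A, β ≤ (τ (c * (u * y * star u))).re) : β ≤ (τ c * τ y).re := by
  set r : ℝ := (‖y‖ + 1)⁻¹ with hr
  have hr0 : 0 < r := by positivity
  have := averaging_aux (y := (r : ℂ) • y) (by
    rw [norm_smul, Complex.norm_real, Real.norm_of_nonneg hr0.le, hr,
      inv_mul_le_iff₀ (by positivity)]
    linarith) c (r * β) fun u hu => by
      simp only [mul_smul_comm, smul_mul_assoc, map_smul, smul_eq_mul, Complex.re_ofReal_mul]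
      exact mul_le_mul_of_nonneg_left (h u hu) hr0.le
  rw [map_smul, smul_eq_mul, mul_left_comm, Complex.re_ofReal_mul] at this
  exact le_of_mul_le_mul_left this hr0

theorem prime {a b : A} (h : ∀ q, a * q * b = 0) : a = 0 ∨ b = 0 := by
  have := averaging (b * star b) (-(star a * a)) 0 fun u _ => by
    have e : -(star a * a) * (u * (b * star b) * star u)
        = -(star a * (a * u * b) * (star b * star u)) := by simp [mul_assoc]
    rw [e, h]
    simp
  have e2 : τ (b * star b) = ((n2 b ^ 2 : ℝ) : ℂ) := by rw [τ_comm, τ_star_mul_self]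
  rw [map_neg, τ_star_mul_self, e2, neg_mul, ← Complex.ofReal_mul, Complex.neg_re,
    Complex.ofReal_re, le_neg, neg_zero] at this
  rcases mul_eq_zero.1 (le_antisymm this (by positivity)) with h | h
  · exact Or.inl (n2_eq_zero_of_sq_le h.le)
  · exact Or.inr (n2_eq_zero_of_sq_le h.le)

end Vale.Agent.P085
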