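import Vale.Agent.P085.Twirl

/-! An irreducible tower of Pauli pairs and the resulting mixing families of symmetries. -/

set_option linter.unusedSectionVars false

namespace Vale.Agent.P085

open Filter Topology
open scoped InnerProductSpace ComplexOrder

universe u

variable {A : Type u} [CStarAlgebra A] [Tr A]

/-- The iterated conditional expectations. -/
noncomputable def tT (x z : ℕ → A) : ℕ → A →ₗ[ℂ] A
  | 0 => LinearMap.id
  | k + 1 => (tw (x k) (z k)).comp (tT x z k)

theorem tT_succ (x z : ℕ → A) (k : ℕ) (y : A) : tT x z (k + 1) y = tw (x k) (z k) (tT x z k y) :=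
  rfl

/-- A sequence of mutually commuting Pauli pairs with trivial relative commutant. -/
structure IsTower (x z : ℕ → A) : Prop where
  pauli : ∀ k, IsPauli (x k) (z k)
  comm : ∀ j k, j < k → x k ∈ cent (x j) (z j) ∧ z k ∈ cent (x j) (z j)
  lim : ∀ y, T2 atTop (fun k => tT x z k y) (τ y • 1)

theorem tT_one {x z : ℕ → A} (h : ∀ k, IsPauli (x k) (z k)) (k : ℕ) : tT x z k 1 = 1 := by
  induction k with
  | zero => rfl
  | succ k ih => rw [tT_succ, ih, (h k).tw_one]

theorem τ_mul_tT {x z : ℕ → A} (h : ∀ k, IsPauli (x k) (z k)) (k : ℕ) {c : A}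
    (hc : ∀ j < k, c ∈ cent (x j) (z j)) (y : A) : τ (c * tT x z k y) = τ (c * y) := by
  induction k with
  | zero => rfl
  | succ k ih =>
    have := (h k).mem_cent.1 (hc k k.lt_succ_self)
    rw [tT_succ, (h k).τ_mul_tw this.1 this.2, ih fun j hj => hc j (hj.trans k.lt_succ_self)]

theorem τ_tT {x z : ℕ → A} (h : ∀ k, IsPauli (x k) (z k)) (k : ℕ) (y : A) :
    τ (tT x z k y) = τ y := by
  simpa using τ_mul_tT h k (fun _ _ => one_mem _) y

theorem n2_tT_le {x z : ℕ → A} (h : ∀ k, IsPauli (x k) (z k)) (k : ℕ) (y : A) :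
    n2 (tT x z k y) ≤ n2 y := by
  induction k with
  | zero => exact le_rfl
  | succ k ih => exact ((h k).n2_tw_le _).trans ih

theorem exists_tower [WTr A] [Fac A] (hA : ¬ FiniteDimensional ℂ A)
    [TopologicalSpace.SeparableSpace (LL A)] : ∃ x z : ℕ → A, IsTower x z := by
  have : Nonempty (LL A) := ⟨0⟩
  obtain ⟨d, hd⟩ := TopologicalSpace.exists_dense_seq (LL A)
  set y : ℕ → A := fun j => toL.symm (d j) - τ (toL.symm (d j)) • 1 with hy
  let St := {p : StarSubalgebra ℂ A × (A →ₗ[ℂ] A) //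
    IsII1 p.1 ∧ (∀ w, p.2 w ∈ p.1) ∧ ∀ w, τ (p.2 w) = τ w}
  have hτ : ∀ j, τ (y j) = 0 := fun j => by simp [hy, τ_one]
  have step : ∀ (k : ℕ) (s : St), ∃ x ∈ s.1.1, ∃ z ∈ s.1.1, IsPauli x z ∧
      n2 (tw x z (s.1.2 (y k.unpair.1))) ^ 2 ≤ 9 / 10 * n2 (s.1.2 (y k.unpair.1)) ^ 2 :=
    fun k s => s.2.1.exists_mixing (s.2.2.1 _) (by rw [s.2.2.2, hτ])
  choose x hx z hz hp hm using step
  let nxt : ℕ → St → St := fun k s =>
    ⟨(s.1.1 ⊓ cent (x k s) (z k s), (tw (x k s) (z k s)).comp s.1.2),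
      s.2.1.inf_cent (hx k s) (hz k s) (hp k s),
      fun w => ⟨tw_mem (hx k s) (hz k s) (s.2.2.1 w),
        (hp k s).mem_cent.2 ⟨(hp k s).comm_x _, (hp k s).comm_z _⟩⟩,
      fun w => ((hp k s).τ_tw _).trans (s.2.2.2 w)⟩
  let s : ℕ → St := fun k =>
    Nat.rec ⟨(⊤, LinearMap.id), isII1_top hA, fun _ => trivial, fun _ => rfl⟩ nxt k
  have hT : ∀ k, tT (fun k => x k (s k)) (fun k => z k (s k)) k = (s k).1.2 := by
    intro k
    induction k with
    | zero => rfl
    | succ k ih => rw [tT, ih]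
  have hanti : Antitone fun k => (s k).1.1 := antitone_nat_of_succ_le fun k => inf_le_left
  have hle : ∀ j k, j < k → (s k).1.1 ≤ cent (x j (s j)) (z j (s j)) := fun j k hjk =>
    (hanti (Nat.succ_le_of_lt hjk)).trans inf_le_right
  have hp' : ∀ k, IsPauli (x k (s k)) (z k (s k)) := fun k => hp k (s k)
  refine ⟨fun k => x k (s k), fun k => z k (s k), hp',
    fun j k hjk => ⟨hle j k hjk (hx _ _), hle j k hjk (hz _ _)⟩, fun w => ?_⟩
  set T := tT (fun k => x k (s k)) (fun k => z k (s k)) with hTT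
  have h1 : ∀ j, Tendsto (fun k => n2 (T k (y j))) atTop (𝓝 0) := by
    intro j
    have ha : Antitone fun k => n2 (T k (y j)) := antitone_nat_of_succ_le fun k =>
      (hp' k).n2_tw_le _
    have hl := tendsto_atTop_ciInf ha ⟨0, by rintro _ ⟨k, rfl⟩; exact n2_nonneg _⟩
    have h0 := ge_of_tendsto' hl fun k => n2_nonneg _
    generalize (⨅ k, n2 (T k (y j))) = L at hl h0
    have hpair : Tendsto (Nat.pair j) atTop atTop :=
      tendsto_atTop_mono (Nat.right_le_pair j) tendsto_id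
    have h2 := le_of_tendsto_of_tendsto'
      (((tendsto_add_atTop_iff_nat 1).2 hl).comp hpair |>.pow 2)
      ((hl.comp hpair).pow 2 |>.const_mul (9 / 10)) fun n => by
        have := hm (Nat.pair j n) (s (Nat.pair j n))
        rw [Nat.unpair_pair, ← hT] at this
        exact this
    have : L = 0 := by nlinarith
    rwa [this] at hl
  rw [T2_iff, Metric.tendsto_atTop]
  intro ε hε
  obtain ⟨j, hj⟩ := Metric.denseRange_iff.1 hd (toL w) (ε / 3) (by positivity)
  obtain ⟨N, hN⟩ := Metric.tendsto_atTop.1 (h1 j) (ε / 3) (by positivity)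
  refine ⟨N, fun k hk => ?_⟩
  have h2 := hN k hk
  rw [Real.dist_0_eq_abs, abs_of_nonneg (n2_nonneg _)] at h2 ⊢
  have h3 : n2 (w - toL.symm (d j)) < ε / 3 := by rw [← dist_toL]; exact hj
  have e : T k w - τ w • 1 = T k (y j) + T k (w - toL.symm (d j))
      - τ (w - toL.symm (d j)) • 1 := by
    simp only [hy, map_sub, map_smul, hTT, tT_one hp', sub_smul]
    abel
  rw [e]
  have h4 := n2_tT_le hp' k (w - toL.symm (d j))
  have h5 := norm_τ_le_n2 (w - toL.symm (d j))
  refine (n2_sub_le _ _).trans_lt ?_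
  have h6 := n2_add_le (T k (y j)) (T k (w - toL.symm (d j)))
  rw [n2_smul, n2_one]
  linarith

/-- A mean supported on a set. -/
structure Mean (A : Type u) where
  E : (A → ℝ) →ₗ[ℝ] ℝ
  supp : Set A
  le : ∀ (f : A → ℝ) (β : ℝ), (∀ a ∈ supp, β ≤ f a) → β ≤ E f

namespace Mean

variable {B : Type u}

theorem mono (μ : Mean B) {f g : B → ℝ} (h : ∀ a ∈ μ.supp, f a ≤ g a) : μ.E f ≤ μ.E g := by
  have := μ.le (g - f) 0 fun a ha => sub_nonneg.2 (h a ha)
  rwa [map_sub, sub_nonneg] at this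

theorem congr (μ : Mean B) {f g : B → ℝ} (h : ∀ a ∈ μ.supp, f a = g a) : μ.E f = μ.E g :=
  le_antisymm (μ.mono fun a ha => (h a ha).le) (μ.mono fun a ha => (h a ha).ge)

theorem const (μ : Mean B) (c : ℝ) : μ.E (fun _ => c) = c := by
  refine le_antisymm ?_ (μ.le _ _ fun _ _ => le_rfl)
  have := μ.le (-fun _ => c) (-c) fun _ _ => le_rfl
  rwa [map_neg, neg_le_neg_iff] at this

theorem add (μ : Mean B) (f g : B → ℝ) : μ.E (fun a => f a + g a) = μ.E f + μ.E g :=
  μ.E.map_add f g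

theorem mul (μ : Mean B) (c : ℝ) (f : B → ℝ) : μ.E (fun a => c * f a) = c * μ.E f :=
  μ.E.map_smul c f

/-- The point mass. -/
def dirac (b : B) : Mean B where
  E := LinearMap.proj b
  supp := {b}
  le _ _ h := h b rfl

/-- The push-forward. -/
def map {C : Type u} (μ : Mean B) (φ : B → C) : Mean C where
  E := μ.E.comp (LinearMap.funLeft ℝ ℝ φ)
  supp := φ '' μ.supp
  le _ β h := μ.le _ β fun a ha => h _ ⟨a, ha, rfl⟩

theorem map_E {C : Type u} (μ : Mean B) (φ : B → C) (f : C → ℝ) :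
    (μ.map φ).E f = μ.E fun a => f (φ a) := rfl

/-- The average of two means. -/
noncomputable def avg (μ ν : Mean B) : Mean B where
  E := (2⁻¹ : ℝ) • (μ.E + ν.E)
  supp := μ.supp ∪ ν.supp
  le f β h := by
    have h1 := μ.le f β fun a ha => h a (Or.inl ha)
    have h2 := ν.le f β fun a ha => h a (Or.inr ha)
    simp only [LinearMap.smul_apply, LinearMap.add_apply, smul_eq_mul]
    linarith

theorem avg_E (μ ν : Mean B) (f : B → ℝ) : (μ.avg ν).E f = 2⁻¹ * (μ.E f + ν.E f) := rfl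

end Mean

/-- The uniform mean on the Pauli strings. -/
noncomputable def pm (x z : ℕ → A) : ℕ → Mean A
  | 0 => Mean.dirac 1
  | k + 1 => ((pm x z k).avg ((pm x z k).map (· * x k))).avg
      (((pm x z k).map (· * z k)).avg ((pm x z k).map (· * (Complex.I • (x k * z k)))))

theorem pm_finite (x z : ℕ → A) (k : ℕ) : (pm x z k).supp.Finite := by
  induction k with
  | zero => exact Set.finite_singleton 1
  | succ k ih => exact (ih.union (ih.image _)).union ((ih.image _).union (ih.image _))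

namespace IsTower

variable {x z : ℕ → A} (h : IsTower x z)
include h

theorem comm' {j k : ℕ} (hjk : j < k) :
    Commute (x j) (x k) ∧ Commute (x j) (z k) ∧ Commute (z j) (x k) ∧ Commute (z j) (z k) := by
  have h1 := (h.pauli j).mem_cent.1 (h.comm j k hjk).1
  have h2 := (h.pauli j).mem_cent.1 (h.comm j k hjk).2
  exact ⟨h1.1, h2.1, h1.2, h2.2⟩

theorem pm_supp {N : StarSubalgebra ℂ A} (hx : ∀ k, x k ∈ N) (hz : ∀ k, z k ∈ N) (k : ℕ) :
    ∀ P ∈ (pm x z k).supp, star P = P ∧ P * P = 1 ∧ P ∈ N ∧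
      ∀ k', k ≤ k' → Commute P (x k') ∧ Commute P (z k') := by
  induction k with
  | zero =>
    rintro P rfl
    exact ⟨star_one _, mul_one _, one_mem _, fun _ _ => ⟨Commute.one_left _, Commute.one_left _⟩⟩
  | succ k ih =>
    have key : ∀ P ∈ (pm x z k).supp, ∀ p, star p = p → p * p = 1 → p ∈ N → Commute P p →
        (∀ k', k < k' → Commute p (x k') ∧ Commute p (z k')) →
        star (P * p) = P * p ∧ P * p * (P * p) = 1 ∧ P * p ∈ N ∧
          ∀ k', k + 1 ≤ k' → Commute (P * p) (x k') ∧ Commute (P * p) (z k') := by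
      intro P hP p h1 h2 h3 h4 h5
      obtain ⟨a1, a2, a3, a4⟩ := ih P hP
      refine ⟨by rw [star_mul, h1, a1, h4.eq], ?_, mul_mem a3 h3, fun k' hk' =>
        ⟨(a4 k' (by omega)).1.mul_left (h5 k' hk').1, (a4 k' (by omega)).2.mul_left (h5 k' hk').2⟩⟩
      rw [mul_assoc, ← mul_assoc p, ← h4.eq, mul_assoc, h2, mul_one, a2]
    have hp := h.pauli k
    rintro _ ((hP | ⟨P, hP, rfl⟩) | (⟨P, hP, rfl⟩ | ⟨P, hP, rfl⟩))
    · obtain ⟨a1, a2, a3, a4⟩ := ih _ hP
      exact ⟨a1, a2, a3, fun k' hk' => a4 k' (by omega)⟩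
    · exact key P hP _ hp.sx hp.xx (hx k) ((ih P hP).2.2.2 k le_rfl).1 fun k' hk' =>
        ⟨(h.comm' hk').1, (h.comm' hk').2.1⟩
    · exact key P hP _ hp.sz hp.zz (hz k) ((ih P hP).2.2.2 k le_rfl).2 fun k' hk' =>
        ⟨(h.comm' hk').2.2.1, (h.comm' hk').2.2.2⟩
    · refine key P hP _ (by simp [hp.sx, hp.sz, hp.zx]) ?_
        (SMulMemClass.smul_mem _ (mul_mem (hx k) (hz k)))
        ((((ih P hP).2.2.2 k le_rfl).1.mul_right ((ih P hP).2.2.2 k le_rfl).2).smul_right _)
        fun k' hk' => ⟨((h.comm' hk').1.mul_left (h.comm' hk').2.2.1).smul_left _,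
          ((h.comm' hk').2.1.mul_left (h.comm' hk').2.2.2).smul_left _⟩
      simp [smul_smul, mul_assoc, hp.zx', hp.xx, hp.zz]

theorem pm_E (k : ℕ) (y y' : A) :
    (pm x z k).E (fun P => (τ (P * y * P * y')).re) = (τ (tT x z k y * y')).re := by
  induction k generalizing y' with
  | zero =>
    change (τ (1 * y * 1 * y')).re = (τ (y * y')).re
    rw [one_mul, mul_one]
  | succ k ih =>
    have key : ∀ p, (∀ P ∈ (pm x z k).supp, Commute P p) →
        ((pm x z k).map (· * p)).E (fun P => (τ (P * y * P * y')).re)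
          = (τ (p * tT x z k y * p * y')).re := by
      intro p hp
      have e : τ (p * tT x z k y * p * y') = τ (tT x z k y * (p * y' * p)) := by
        rw [mul_assoc, mul_assoc, τ_comm, mul_assoc]
      rw [Mean.map_E, e, ← ih]
      refine Mean.congr _ fun P hP => ?_
      nth_rewrite 1 [(hp P hP).eq]
      rw [mul_assoc, mul_assoc, mul_assoc, τ_comm]
      simp only [mul_assoc]
    have hs := fun P hP => (h.pm_supp (N := ⊤) (fun _ => trivial) (fun _ => trivial) k P hP).2.2.2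
      k le_rfl
    rw [pm, Mean.avg_E, Mean.avg_E, Mean.avg_E, ih, key _ fun P hP => (hs P hP).1,
      key _ fun P hP => (hs P hP).2,
      key _ fun P hP => ((hs P hP).1.mul_right (hs P hP).2).smul_right _, tT_succ, tw_apply,
      (h.pauli k).zx]
    have e4 : (4⁻¹ : ℂ) = ((4⁻¹ : ℝ) : ℂ) := by simp
    simp only [smul_mul_assoc, mul_smul_comm, smul_smul, Complex.I_mul_I, neg_smul, one_smul,
      add_mul, map_smul, map_add, smul_eq_mul, e4, Complex.re_ofReal_mul, Complex.add_re, mul_neg]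
    ring

end IsTower

/-- A filter of means on symmetries in `N` that is asymptotically mixing. -/
structure IsMixing (N : StarSubalgebra ℂ A) (l : Filter (Mean A)) : Prop where
  neBot : l.NeBot
  sym : ∀ᶠ μ in l, ∀ a ∈ μ.supp, star a = a ∧ a * a = 1 ∧ a ∈ N
  fst : ∀ y, ∀ η > 0, ∀ᶠ μ in l, ∀ a ∈ μ.supp, ‖τ (a * y)‖ ≤ η
  snd : ∀ y y', ∀ η > 0, ∀ᶠ μ in l, μ.E (fun a => (τ (a * y * a * y')).re) ≤ ‖τ y‖ * ‖y'‖ + η

theorem IsTower.exists_mixing {x z : ℕ → A} (h : IsTower x z) {N : StarSubalgebra ℂ A}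
    (hx : ∀ k, x k ∈ N) (hz : ∀ k, z k ∈ N) : ∃ l, IsMixing N l := by
  have hs := h.pm_supp hx hz
  refine ⟨(Filter.curry atTop atTop).map fun p : ℕ × ℕ => (pm x z p.1).map (· * x p.2),
    ⟨fun hb => ?_⟩, ?_, fun y η hη => ?_, fun y y' η hη => ?_⟩
  · have : ∀ᶠ μ in (Filter.curry atTop atTop).map fun p : ℕ × ℕ => (pm x z p.1).map (· * x p.2),
      False := by rw [hb]; exact eventually_bot
    rw [eventually_map, eventually_curry_iff] at this
    exact this.exists.choose_spec.exists.choose_spec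
  all_goals rw [eventually_map, eventually_curry_iff]
  · refine Eventually.of_forall fun k => (eventually_ge_atTop k).mono fun k' hk' => ?_
    rintro _ ⟨P, hP, rfl⟩
    obtain ⟨a1, a2, a3, a4⟩ := hs k P hP
    have h4 := (a4 k' hk').1
    dsimp only
    refine ⟨by rw [star_mul, (h.pauli k').sx, a1, h4.eq], ?_, mul_mem a3 (hx k')⟩
    rw [mul_assoc, ← mul_assoc (x k'), ← h4.eq, mul_assoc, (h.pauli k').xx, mul_one, a2]
  · refine Eventually.of_forall fun k => ?_
    have : ∀ P ∈ (pm x z k).supp, ∀ᶠ k' in atTop, ‖τ (P * x k' * y)‖ ≤ η := by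
      intro P _
      filter_upwards [(T2_iff.1 (h.lim (y * P))).eventually (ge_mem_nhds hη)] with k' hk'
      have e : τ (P * x k' * y) = τ (x k' * (tT x z k' (y * P) - τ (y * P) • 1)) := by
        rw [mul_sub, map_sub, τ_mul_tT h.pauli k' fun j hj => (h.comm j k' hj).1, mul_smul_comm,
          mul_one, map_smul, (h.pauli k').τ_x, smul_zero, sub_zero, mul_assoc, τ_comm, mul_assoc]
      rw [e]
      exact (norm_τ_le_n2 _).trans ((n2_unitary_mul (h.pauli k').x_unitary _).le.trans hk')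
    refine ((eventually_all_finite (pm_finite x z k)).2 this).mono fun k' hk' => ?_
    rintro _ ⟨P, hP, rfl⟩
    exact hk' P hP
  · have hη' : 0 < η / (‖y'‖ + 1) := by positivity
    filter_upwards [(T2_iff.1 (h.lim y)).eventually (ge_mem_nhds hη')] with k hk
    refine (eventually_ge_atTop k).mono fun k' hk' => ?_
    have hu := (h.pauli k').x_unitary
    have e : ((pm x z k).map (· * x k')).E (fun P => (τ (P * y * P * y')).re)
        = (τ (tT x z k y * (x k' * y' * x k'))).re := by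
      rw [Mean.map_E, ← h.pm_E]
      refine Mean.congr _ fun P hP => ?_
      nth_rewrite 1 [((hs k P hP).2.2.2 k' hk').1.eq]
      rw [mul_assoc, mul_assoc, mul_assoc, τ_comm]
      simp only [mul_assoc]
    have e2 : tT x z k y * (x k' * y' * x k')
        = (tT x z k y - τ y • 1) * (x k' * y' * x k') + τ y • (x k' * y' * x k') := by
      rw [sub_mul, smul_mul_assoc, one_mul, sub_add_cancel]
    have h1 : n2 (x k' * y' * x k') ≤ ‖y'‖ := by
      rw [n2_mul_unitary _ hu, n2_unitary_mul hu]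
      exact n2_le_norm _
    rw [e, e2, map_add, map_smul, smul_eq_mul]
    refine (Complex.re_le_norm _).trans ((norm_add_le _ _).trans ?_)
    rw [norm_mul, add_comm]
    refine add_le_add (mul_le_mul_of_nonneg_left ((norm_τ_le_n2 _).trans h1) (norm_nonneg _))
      ((norm_τ_mul_le _ _).trans ((mul_le_mul hk h1 (n2_nonneg _) hη'.le).trans ?_))
    rw [div_mul_eq_mul_div, div_le_iff₀ (by positivity)]
    nlinarith

end Vale.Agent.P085
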