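import Mathlib

/-! Faithful traces on C*-algebras and the associated two-norm. -/

set_option linter.unusedSectionVars false

namespace Vale.Agent.P085

open Filter Topology
open scoped InnerProductSpace ComplexOrder

universe u

/-- A faithful tracial state. -/
class Tr (A : Type u) [CStarAlgebra A] where
  τ : A →ₗ[ℂ] ℂ
  τ_one : τ 1 = 1
  τ_nonneg : ∀ x, 0 ≤ τ (star x * x)
  τ_comm : ∀ x y, τ (x * y) = τ (y * x)
  τ_faithful : ∀ x, τ (star x * x) = 0 → x = 0

export Tr (τ τ_one τ_nonneg τ_comm τ_faithful)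

variable {A : Type u} [CStarAlgebra A] [Tr A]

theorem τ_star (x : A) : τ (star x) = star (τ x) := by
  have h0 := (Complex.nonneg_iff.1 (τ_nonneg x)).2
  have h1 := (Complex.nonneg_iff.1 (τ_nonneg (1 + x))).2
  have h2 := (Complex.nonneg_iff.1 (τ_nonneg (1 + Complex.I • x))).2
  simp only [star_add, star_one, add_mul, mul_add, one_mul, mul_one, map_add, τ_one, star_smul,
    smul_mul_assoc, mul_smul_comm, map_smul, smul_eq_mul, Complex.add_im, Complex.mul_im,
    Complex.star_def, Complex.conj_I, Complex.neg_re, Complex.neg_im, Complex.I_re, Complex.I_im,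
    Complex.one_im, Complex.mul_re] at h1 h2
  apply Complex.ext
  · simp only [Complex.star_def, Complex.conj_re]; linarith
  · simp only [Complex.star_def, Complex.conj_im]; linarith

/-- The algebra with its two-norm. -/
def LL (A : Type u) [CStarAlgebra A] [Tr A] : Type u := A

noncomputable instance : AddCommGroup (LL A) := inferInstanceAs (AddCommGroup A)

noncomputable instance : Module ℂ (LL A) := inferInstanceAs (Module ℂ A)

/-- The identity map into the two-norm space. -/
noncomputable def toL : A ≃ₗ[ℂ] LL A := LinearEquiv.refl ℂ A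

/-- The inner product given by the trace. -/
@[reducible] noncomputable def core (A : Type u) [CStarAlgebra A] [Tr A] :
    InnerProductSpace.Core ℂ (LL A) where
  inner x y := τ (star (toL.symm x) * toL.symm y : A)
  conj_inner_symm x y := by
    rw [← Complex.star_def, ← τ_star, star_mul, star_star]
  re_inner_nonneg x := (Complex.nonneg_iff.1 (τ_nonneg _)).1
  add_left x y z := by simp [add_mul]
  smul_left x y r := by simp
  definite x h := toL.symm.map_eq_zero_iff.1 (τ_faithful _ h)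

noncomputable instance : NormedAddCommGroup (LL A) :=
  @InnerProductSpace.Core.toNormedAddCommGroup ℂ (LL A) _ _ _ (core A)

noncomputable instance : InnerProductSpace ℂ (LL A) := InnerProductSpace.ofCore (core A).toCore

theorem inner_toL (x y : A) : ⟪toL x, toL y⟫_ℂ = τ (star x * y) := rfl

/-- The two-norm. -/
noncomputable def n2 (x : A) : ℝ := ‖toL x‖

theorem n2_nonneg (x : A) : 0 ≤ n2 x := norm_nonneg _

theorem n2_sq (x : A) : n2 x ^ 2 = (τ (star x * x)).re := by
  rw [n2, ← inner_toL, ← inner_self_eq_norm_sq (𝕜 := ℂ)]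
  rfl

theorem n2_eq_zero {x : A} (h : n2 x = 0) : x = 0 := toL.map_eq_zero_iff.1 (norm_eq_zero.1 h)

theorem n2_zero : n2 (0 : A) = 0 := by rw [n2, map_zero, norm_zero]

theorem n2_add_le (x y : A) : n2 (x + y) ≤ n2 x + n2 y := by
  rw [n2, map_add]
  exact norm_add_le _ _

theorem n2_neg (x : A) : n2 (-x) = n2 x := by rw [n2, map_neg, norm_neg, n2]

theorem n2_sub_le (x y : A) : n2 (x - y) ≤ n2 x + n2 y := by
  rw [n2, map_sub]
  exact norm_sub_le _ _

theorem n2_sub_comm (x y : A) : n2 (x - y) = n2 (y - x) := by rw [← n2_neg, neg_sub]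

theorem n2_triangle (x y z : A) : n2 (x - z) ≤ n2 (x - y) + n2 (y - z) := by
  have := n2_add_le (x - y) (y - z)
  rwa [sub_add_sub_cancel] at this

theorem n2_smul (c : ℂ) (x : A) : n2 (c • x) = ‖c‖ * n2 x := by
  rw [n2, map_smul, norm_smul, n2]

theorem dist_toL (x y : A) : dist (toL x) (toL y) = n2 (x - y) := by
  rw [dist_eq_norm, n2, map_sub]

theorem n2_eq_of_sq {x y : A} (h : τ (star x * x) = τ (star y * y)) : n2 x = n2 y := by
  rw [← sq_eq_sq₀ (n2_nonneg _) (n2_nonneg _), n2_sq, n2_sq, h]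

theorem n2_star (x : A) : n2 (star x) = n2 x := n2_eq_of_sq (by rw [star_star, τ_comm])

theorem n2_one : n2 (1 : A) = 1 := by
  rw [← sq_eq_sq₀ (n2_nonneg _) zero_le_one, n2_sq]
  simp [τ_one]

theorem norm_τ_mul_le (x y : A) : ‖τ (x * y)‖ ≤ n2 x * n2 y := by
  have := norm_inner_le_norm (𝕜 := ℂ) (toL (star x)) (toL y)
  rw [inner_toL, star_star] at this
  rw [← n2_star x]
  exact this

theorem norm_τ_le_n2 (x : A) : ‖τ x‖ ≤ n2 x := by
  have := norm_τ_mul_le 1 x
  rwa [one_mul, n2_one, one_mul] at this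

theorem exists_sqrt_sub (a : A) :
    ∃ b : A, star b * b = ((‖a‖ ^ 2 : ℝ) : ℂ) • (1 : A) - star a * a := by
  let _ := CStarAlgebra.spectralOrder A
  have _ := CStarAlgebra.spectralOrderedRing A
  have h := sub_nonneg.2 (CStarAlgebra.star_mul_le_algebraMap_norm_sq (a := a))
  obtain ⟨b, hb⟩ := (CStarAlgebra.nonneg_iff_eq_star_mul_self).1 h
  refine ⟨b, ?_⟩
  rw [← hb, Algebra.algebraMap_eq_smul_one, Complex.coe_smul]

theorem n2_mul_le (a x : A) : n2 (a * x) ≤ ‖a‖ * n2 x := by
  obtain ⟨b, hb⟩ := exists_sqrt_sub a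
  have h1 := sq_nonneg (n2 (b * x))
  have e : star (b * x) * (b * x)
      = ((‖a‖ ^ 2 : ℝ) : ℂ) • (star x * x) - star (a * x) * (a * x) := by
    rw [star_mul, mul_assoc, ← mul_assoc (star b), hb]
    simp [mul_sub, sub_mul, mul_assoc]
  rw [n2_sq, e, map_sub, map_smul, smul_eq_mul, Complex.sub_re, Complex.re_ofReal_mul, ← n2_sq,
    ← n2_sq] at h1
  have := n2_nonneg x
  refine (sq_le_sq₀ (n2_nonneg _) (by positivity)).1 ?_
  rw [mul_pow]
  linarith

theorem n2_mul_le' (x a : A) : n2 (x * a) ≤ n2 x * ‖a‖ := by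
  rw [← n2_star, star_mul, ← n2_star x, ← norm_star a, mul_comm]
  exact n2_mul_le _ _

theorem n2_le_norm (x : A) : n2 x ≤ ‖x‖ := by
  have := n2_mul_le x 1
  rwa [mul_one, n2_one, mul_one] at this

theorem norm_τ_le (x : A) : ‖τ x‖ ≤ ‖x‖ := (norm_τ_le_n2 x).trans (n2_le_norm x)

theorem n2_mul_le_of {a : A} (ha : ‖a‖ ≤ 1) (x : A) : n2 (a * x) ≤ n2 x :=
  (n2_mul_le a x).trans (mul_le_of_le_one_left (n2_nonneg _) ha)

theorem n2_mul_le_of' (x : A) {a : A} (ha : ‖a‖ ≤ 1) : n2 (x * a) ≤ n2 x :=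
  (n2_mul_le' x a).trans (mul_le_of_le_one_right (n2_nonneg _) ha)

theorem n2_unitary_mul {u : A} (hu : u ∈ unitary A) (x : A) : n2 (u * x) = n2 x :=
  n2_eq_of_sq (by rw [star_mul, mul_assoc, ← mul_assoc (star u), hu.1, one_mul])

theorem n2_mul_unitary (x : A) {u : A} (hu : u ∈ unitary A) : n2 (x * u) = n2 x := by
  rw [← n2_star, star_mul, n2_unitary_mul (Unitary.star_mem hu), n2_star]

theorem nontrivial_of_tr (A : Type u) [CStarAlgebra A] [Tr A] : Nontrivial A :=
  ⟨⟨1, 0, fun h => by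
    have := τ_one (A := A)
    rw [h, map_zero] at this
    exact zero_ne_one this⟩⟩

theorem norm_unitary_le {u : A} (hu : u ∈ unitary A) : ‖u‖ ≤ 1 := by
  have := nontrivial_of_tr A
  exact (CStarRing.norm_of_mem_unitary hu).le

theorem norm_one_le : ‖(1 : A)‖ ≤ 1 := norm_unitary_le (one_mem _)

theorem continuous_τ : Continuous (τ : A → ℂ) :=
  AddMonoidHomClass.continuous_of_bound (τ : A →ₗ[ℂ] ℂ) 1 fun x => by
    rw [one_mul]; exact norm_τ_le x

/-- Convergence in the two-norm. -/
def T2 {ι : Type*} (l : Filter ι) (u : ι → A) (x : A) : Prop :=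
  Tendsto (fun i => toL (u i)) l (𝓝 (toL x))

section

variable {ι : Type*} {l : Filter ι} {u v : ι → A} {x y : A}

theorem T2_iff : T2 l u x ↔ Tendsto (fun i => n2 (u i - x)) l (𝓝 0) := by
  rw [T2, tendsto_iff_dist_tendsto_zero]
  simp only [dist_toL]

theorem T2.const (x : A) : T2 l (fun _ => x) x := tendsto_const_nhds

theorem T2.unique [l.NeBot] (h : T2 l u x) (h' : T2 l u y) : x = y :=
  toL.injective (tendsto_nhds_unique h h')

theorem T2.eq_of_eq [l.NeBot] (h : T2 l u x) (h' : T2 l v y) (e : ∀ i, u i = v i) : x = y := by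
  rw [show u = v from funext e] at h
  exact h.unique h'

theorem T2.add (h : T2 l u x) (h' : T2 l v y) : T2 l (fun i => u i + v i) (x + y) := by
  simpa only [T2, map_add] using Tendsto.add h h'

theorem T2.smul (c : ℂ) (h : T2 l u x) : T2 l (fun i => c • u i) (c • x) := by
  simpa only [T2, map_smul] using Tendsto.const_smul h c

theorem T2.star (h : T2 l u x) : T2 l (fun i => star (u i)) (star x) := by
  rw [T2_iff] at h ⊢
  simpa only [← star_sub, n2_star] using h

theorem T2.mul {C : ℝ} (h : T2 l u x) (h' : T2 l v y) (hC : ∀ i, ‖u i‖ ≤ C) :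
    T2 l (fun i => u i * v i) (x * y) := by
  rw [T2_iff] at h h' ⊢
  have k := (h'.const_mul C).add (h.mul_const ‖y‖)
  rw [mul_zero, zero_mul, add_zero] at k
  refine squeeze_zero (fun i => n2_nonneg _) (fun i => ?_) k
  refine (n2_triangle _ (u i * y) _).trans (add_le_add ?_ ?_)
  · rw [← mul_sub]
    exact (n2_mul_le _ _).trans (mul_le_mul_of_nonneg_right (hC i) (n2_nonneg _))
  · rw [← sub_mul]
    exact n2_mul_le' _ _

theorem T2.const_mul (a : A) (h : T2 l u x) : T2 l (fun i => a * u i) (a * x) :=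
  (T2.const a).mul h fun _ => le_rfl

theorem T2.mul_const (a : A) (h : T2 l u x) : T2 l (fun i => u i * a) (x * a) := by
  simpa only [star_mul, star_star] using (h.star.const_mul (Star.star a)).star

theorem T2.τ (h : T2 l u x) : Tendsto (fun i => τ (u i)) l (𝓝 (τ x)) := by
  rw [T2_iff] at h
  rw [tendsto_iff_norm_sub_tendsto_zero]
  refine squeeze_zero (fun i => norm_nonneg _) (fun i => ?_) h
  rw [← map_sub]
  exact norm_τ_le_n2 _

theorem T2.n2 (h : T2 l u x) : Tendsto (fun i => n2 (u i)) l (𝓝 (n2 x)) := Tendsto.norm h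

theorem T2.of_tendsto (h : Tendsto u l (𝓝 x)) : T2 l u x := by
  rw [tendsto_iff_norm_sub_tendsto_zero] at h
  exact T2_iff.2 (squeeze_zero (fun i => n2_nonneg _) (fun i => n2_le_norm _) h)

end

/-- The unit ball is complete in the two-norm. -/
class WTr (A : Type u) [CStarAlgebra A] [Tr A] : Prop where
  complete : IsComplete {x : LL A | ‖toL.symm x‖ ≤ 1}

end Vale.Agent.P085
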