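import Vale.Agent.P085.Halving

/-! Relative commutants of Pauli pairs. -/

set_option linter.unusedSectionVars false

namespace Vale.Agent.P085

open Filter Topology
open scoped InnerProductSpace ComplexOrder

universe u

variable {A : Type u} [CStarAlgebra A] [Tr A]

/-- Subalgebras whose unit ball is closed in the two-norm. -/
class IsW (Q : StarSubalgebra ℂ A) : Prop where
  mem : ∀ (u : ℕ → A) x, (∀ n, u n ∈ Q) → (∀ n, ‖u n‖ ≤ 1) → T2 atTop u x → x ∈ Q

instance (Q : StarSubalgebra ℂ A) [IsW Q] : IsClosed (Q : Set A) :=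
  IsSeqClosed.isClosed fun u x hu h => by
    obtain ⟨C, hC⟩ := h.norm.bddAbove_range
    have hC' : ∀ n, ‖u n‖ ≤ C := fun n => hC ⟨n, rfl⟩
    have hC0 : 0 < C + 1 := by linarith [hC' 0, norm_nonneg (u 0)]
    have := IsW.mem (Q := Q) _ _ (fun n => SMulMemClass.smul_mem _ (hu n)) (fun n => by
      rw [norm_smul, Complex.norm_real, Real.norm_of_nonneg (inv_pos.2 hC0).le,
        inv_mul_le_iff₀ hC0]
      linarith [hC' n]) ((T2.of_tendsto h).smul (((C + 1)⁻¹ : ℝ) : ℂ))
    have h2 := SMulMemClass.smul_mem (((C + 1) : ℝ) : ℂ) this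
    rwa [smul_smul, ← Complex.ofReal_mul, mul_inv_cancel₀ hC0.ne', Complex.ofReal_one,
      one_smul] at h2

noncomputable instance (Q : StarSubalgebra ℂ A) [IsClosed (Q : Set A)] : Tr Q where
  τ := (τ : A →ₗ[ℂ] ℂ).comp Q.subtype.toLinearMap
  τ_one := τ_one (A := A)
  τ_nonneg x := τ_nonneg (x : A)
  τ_comm x y := τ_comm (x : A) y
  τ_faithful x h := Subtype.ext (τ_faithful (x : A) h)

theorem τ_coe {Q : StarSubalgebra ℂ A} [IsClosed (Q : Set A)] (x : Q) : τ x = τ (x : A) := rfl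

theorem n2_coe {Q : StarSubalgebra ℂ A} [IsClosed (Q : Set A)] (x : Q) : n2 x = n2 (x : A) := rfl

theorem T2_coe {Q : StarSubalgebra ℂ A} [IsClosed (Q : Set A)] {ι : Type*} {l : Filter ι}
    {u : ι → Q} {x : Q} : T2 l u x ↔ T2 l (fun i => (u i : A)) x := by
  rw [T2_iff, T2_iff]
  rfl

theorem isComplete_of_cauchySeq {X : Type*} [MetricSpace X] {S : Set X}
    (h : ∀ u : ℕ → X, (∀ n, u n ∈ S) → CauchySeq u → ∃ x ∈ S, Tendsto u atTop (𝓝 x)) :
    IsComplete S := by
  rw [← completeSpace_coe_iff_isComplete]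
  refine Metric.complete_of_cauchySeq_tendsto fun u hu => ?_
  obtain ⟨x, hx, hlim⟩ := h (fun n => u n) (fun n => (u n).2)
    (uniformContinuous_subtype_val.comp_cauchySeq hu)
  exact ⟨⟨x, hx⟩, tendsto_subtype_rng.2 hlim⟩

instance [WTr A] (Q : StarSubalgebra ℂ A) [IsW Q] : WTr Q where
  complete := isComplete_of_cauchySeq fun u hu hc => by
    have hc' : CauchySeq fun n => toL ((toL.symm (u n) : Q) : A) := by
      rw [Metric.cauchySeq_iff] at hc ⊢
      exact hc
    obtain ⟨x, hx, hlim⟩ := cauchySeq_tendsto_of_isComplete (WTr.complete (A := A)) hu hc'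
    have hQ : toL.symm x ∈ Q := IsW.mem _ _ (fun n => (toL.symm (u n) : Q).2) hu hlim
    exact ⟨toL ⟨toL.symm x, hQ⟩, hx, T2_coe.2 hlim⟩

/-- The conditional expectation onto the commutant of a Pauli pair. -/
noncomputable def tw (x z : A) : A →ₗ[ℂ] A where
  toFun y := (4⁻¹ : ℂ) • (y + x * y * x + z * y * z + x * z * y * (z * x))
  map_add' a b := by simp only [mul_add, add_mul]; module
  map_smul' c a := by simp only [mul_smul_comm, smul_mul_assoc, RingHom.id_apply]; module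

theorem tw_apply (x z y : A) :
    tw x z y = (4⁻¹ : ℂ) • (y + x * y * x + z * y * z + x * z * y * (z * x)) := rfl

theorem tw_mem {Q : StarSubalgebra ℂ A} {x z y : A} (hx : x ∈ Q) (hz : z ∈ Q) (hy : y ∈ Q) :
    tw x z y ∈ Q :=
  SMulMemClass.smul_mem _ (add_mem (add_mem (add_mem hy (mul_mem (mul_mem hx hy) hx))
    (mul_mem (mul_mem hz hy) hz)) (mul_mem (mul_mem (mul_mem hx hz) hy) (mul_mem hz hx)))

namespace IsPauli

variable {x z : A} (h : IsPauli x z)
include h

theorem xx' (w : A) : x * (x * w) = w := by rw [← mul_assoc, h.xx, one_mul]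

theorem zz' (w : A) : z * (z * w) = w := by rw [← mul_assoc, h.zz, one_mul]

theorem zx' (w : A) : z * (x * w) = -(x * (z * w)) := by
  rw [← mul_assoc, h.zx, neg_mul, mul_assoc]

theorem x_unitary : x ∈ unitary A := ⟨by rw [h.sx, h.xx], by rw [h.sx, h.xx]⟩

theorem z_unitary : z ∈ unitary A := ⟨by rw [h.sz, h.zz], by rw [h.sz, h.zz]⟩

theorem τ_x : τ x = 0 := by
  have : τ x = -τ x := by
    calc τ x = τ (z * (z * x)) := by rw [h.zz']
      _ = τ (z * x * z) := τ_comm _ _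
      _ = _ := by rw [h.zx, neg_mul, mul_assoc, h.zz, mul_one, map_neg]
  linear_combination this / 2

theorem comm_x (y : A) : x * tw x z y = tw x z y * x := by
  simp only [tw_apply, mul_smul_comm, smul_mul_assoc, mul_add, add_mul, mul_assoc, h.xx, h.xx',
    h.zx, mul_neg, neg_mul, neg_neg, mul_one]
  module

theorem comm_z (y : A) : z * tw x z y = tw x z y * z := by
  simp only [tw_apply, mul_smul_comm, smul_mul_assoc, mul_add, add_mul, mul_assoc, h.zz, h.zz',
    h.zx, h.zx', mul_neg, neg_mul, neg_neg, mul_one]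
  module

theorem decomp (y : A) :
    y = tw x z y + x * tw x z (x * y) + z * tw x z (z * y) + x * z * tw x z (z * x * y) := by
  simp only [tw_apply, mul_smul_comm, mul_add, mul_assoc, h.zz', h.xx', h.zx, h.zx', mul_neg,
    neg_mul, neg_neg]
  module

theorem tw_one : tw x z 1 = 1 := by
  simp only [tw_apply, mul_assoc, h.zz', h.xx, h.zz, one_mul]
  module

theorem τ_mul_tw {c : A} (hx : x * c = c * x) (hz : z * c = c * z) (y : A) :
    τ (c * tw x z y) = τ (c * y) := by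
  have e : ∀ p : A, p * c = c * p → ∀ q, q * p = 1 → τ (c * (p * y * q)) = τ (c * y) := by
    intro p hp q hq
    rw [← mul_assoc, ← mul_assoc, ← hp, τ_comm, mul_assoc p, ← mul_assoc q, hq, one_mul]
  simp only [tw_apply, mul_smul_comm, mul_add, map_smul, map_add]
  rw [e x hx x h.xx, e z hz z h.zz, e (x * z) (by rw [mul_assoc, hz, ← mul_assoc, hx, mul_assoc])
    (z * x) (by rw [mul_assoc, h.xx', h.zz]), smul_eq_mul]
  ring

theorem τ_tw (y : A) : τ (tw x z y) = τ y := by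
  simpa using h.τ_mul_tw (c := 1) (by simp) (by simp) y

theorem n2_sub_tw (y : A) : n2 (y - tw x z y) ^ 2 = n2 y ^ 2 - n2 (tw x z y) ^ 2 := by
  have h1 := congrArg star (h.comm_x y)
  have h2 := congrArg star (h.comm_z y)
  rw [star_mul, star_mul, h.sx] at h1
  rw [star_mul, star_mul, h.sz] at h2
  rw [n2_sub_comm, n2_sub_sq, ← h.τ_mul_tw h1.symm h2.symm, ← n2_sq]
  ring

theorem n2_tw_le (y : A) : n2 (tw x z y) ≤ n2 y := by
  refine (sq_le_sq₀ (n2_nonneg _) (n2_nonneg _)).1 ?_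
  have := h.n2_sub_tw y
  linarith [sq_nonneg (n2 (y - tw x z y))]

theorem conj {g : A} (hg : g ∈ unitary A) : IsPauli (g * x * star g) (g * z * star g) := by
  have e : ∀ w, star g * (g * w) = w := fun w => by rw [← mul_assoc, hg.1, one_mul]
  refine ⟨?_, ?_, ?_, ?_, ?_⟩ <;>
    simp only [star_mul, star_star, h.sx, h.sz, mul_assoc, e, h.xx', h.zz', h.zx', hg.2, mul_neg]

omit h in
theorem tw_conj {g : A} (hg : g ∈ unitary A) (y : A) :
    tw (g * x * star g) (g * z * star g) y = g * tw x z (star g * y * g) * star g := by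
  have e : ∀ w, star g * (g * w) = w := fun w => by rw [← mul_assoc, hg.1, one_mul]
  have e' : ∀ w, g * (star g * w) = w := fun w => by rw [← mul_assoc, hg.2, one_mul]
  simp only [tw_apply, mul_smul_comm, smul_mul_assoc, mul_add, add_mul, mul_assoc, e, e', hg.2,
    mul_one]

end IsPauli

/-- The commutant of a pair. -/
noncomputable def cent (x z : A) : StarSubalgebra ℂ A := StarSubalgebra.centralizer ℂ {x, z}

theorem IsPauli.mem_cent {x z : A} (h : IsPauli x z) {y : A} :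
    y ∈ cent x z ↔ x * y = y * x ∧ z * y = y * z := by
  simp [cent, StarSubalgebra.mem_centralizer_iff, h.sx, h.sz]

/-- Subalgebras that are factors of type two-one. -/
structure IsII1 (Q : StarSubalgebra ℂ A) : Prop where
  isW : IsW Q
  fac : ∀ c ∈ Q, (∀ y ∈ Q, c * y = y * c) → ∃ s : ℂ, c = s • 1
  inf : ¬ FiniteDimensional ℂ Q

theorem IsII1.inf_cent {Q : StarSubalgebra ℂ A} (hQ : IsII1 Q) {x z : A} (hx : x ∈ Q) (hz : z ∈ Q)
    (h : IsPauli x z) : IsII1 (Q ⊓ cent x z) := by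
  have hm : ∀ y ∈ Q, tw x z y ∈ Q ⊓ cent x z := fun y hy =>
    ⟨tw_mem hx hz hy, h.mem_cent.2 ⟨h.comm_x y, h.comm_z y⟩⟩
  refine ⟨⟨fun u y hu hb hy => ⟨hQ.isW.mem u y (fun n => (hu n).1) hb hy, h.mem_cent.2
    ⟨(hy.const_mul x).eq_of_eq (hy.mul_const x) fun n => (h.mem_cent.1 (hu n).2).1,
     (hy.const_mul z).eq_of_eq (hy.mul_const z) fun n => (h.mem_cent.1 (hu n).2).2⟩⟩⟩,
    fun c hc hcc => hQ.fac c hc.1 fun y hy => ?_, fun hf => hQ.inf ?_⟩
  · have h1 : Commute c x := (h.mem_cent.1 hc.2).1.symm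
    have h2 : Commute c z := (h.mem_cent.1 hc.2).2.symm
    have h3 : ∀ y ∈ Q, Commute c (tw x z y) := fun y hy => hcc _ (hm y hy)
    rw [h.decomp y]
    exact (((h3 _ hy).add_right (h1.mul_right (h3 _ (mul_mem hx hy)))).add_right
      (h2.mul_right (h3 _ (mul_mem hz hy)))).add_right
      ((h1.mul_right h2).mul_right (h3 _ (mul_mem (mul_mem hz hx) hy)))
  · set P := Subalgebra.toSubmodule (Q ⊓ cent x z).toSubalgebra with hP
    have : FiniteDimensional ℂ P := hf
    have hle : Subalgebra.toSubmodule Q.toSubalgebra ≤ P ⊔ P.map (LinearMap.mulLeft ℂ x)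
        ⊔ P.map (LinearMap.mulLeft ℂ z) ⊔ P.map (LinearMap.mulLeft ℂ (x * z)) := by
      intro y hy
      rw [h.decomp y]
      exact Submodule.add_mem_sup (Submodule.add_mem_sup (Submodule.add_mem_sup (hm _ hy)
        ⟨_, hm _ (mul_mem hx hy), rfl⟩) ⟨_, hm _ (mul_mem hz hy), rfl⟩)
        ⟨_, hm _ (mul_mem (mul_mem hz hx) hy), rfl⟩
    exact Submodule.finiteDimensional_of_le hle

theorem IsII1.toFac {Q : StarSubalgebra ℂ A} [IsW Q] (hQ : IsII1 Q) : Fac Q where
  factor c hc := by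
    obtain ⟨s, hs⟩ := hQ.fac c c.2 fun y hy => congrArg Subtype.val (hc ⟨y, hy⟩)
    exact ⟨s, Subtype.ext hs⟩

theorem isII1_top [Fac A] (hA : ¬ FiniteDimensional ℂ A) : IsII1 (⊤ : StarSubalgebra ℂ A) :=
  ⟨⟨fun _ _ _ _ _ => trivial⟩, fun c _ h => Fac.factor c fun y => h y trivial, fun _ =>
    hA (Module.Finite.of_surjective (⊤ : StarSubalgebra ℂ A).subtype.toLinearMap
      fun y => ⟨⟨y, trivial⟩, rfl⟩)⟩

variable [WTr A]

theorem IsII1.exists_pauli {Q : StarSubalgebra ℂ A} (hQ : IsII1 Q) :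
    ∃ x ∈ Q, ∃ z ∈ Q, IsPauli x z := by
  have := hQ.isW
  have := hQ.toFac
  obtain ⟨x, z, h⟩ := Vale.Agent.P085.exists_pauli hQ.inf
  exact ⟨x, x.2, z, z.2, congrArg Subtype.val h.sx, congrArg Subtype.val h.sz,
    congrArg Subtype.val h.xx, congrArg Subtype.val h.zz, congrArg Subtype.val h.zx⟩

theorem IsII1.averaging {Q : StarSubalgebra ℂ A} (hQ : IsII1 Q) {y c : A} (hy : y ∈ Q)
    (hc : c ∈ Q) (β : ℝ) (h : ∀ u ∈ Q, u ∈ unitary A → β ≤ (τ (c * (u * y * star u))).re) :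
    β ≤ (τ c * τ y).re := by
  have := hQ.isW
  have := hQ.toFac
  exact Vale.Agent.P085.averaging (A := Q) ⟨y, hy⟩ ⟨c, hc⟩ β fun u hu =>
    h u u.2 ⟨congrArg Subtype.val hu.1, congrArg Subtype.val hu.2⟩

theorem IsII1.exists_mixing {Q : StarSubalgebra ℂ A} (hQ : IsII1 Q) {y : A} (hy : y ∈ Q)
    (hτ : τ y = 0) :
    ∃ x ∈ Q, ∃ z ∈ Q, IsPauli x z ∧ n2 (tw x z y) ^ 2 ≤ 9 / 10 * n2 y ^ 2 := by
  obtain ⟨x, hx, z, hz, h⟩ := hQ.exists_pauli
  by_contra hcon
  push Not at hcon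
  have key : ∀ g ∈ Q, g ∈ unitary A →
      n2 (star g * y * g - tw x z (star g * y * g)) ^ 2 < 1 / 10 * n2 y ^ 2 := by
    intro g hg hu
    have := hcon _ (mul_mem (mul_mem hg hx) (star_mem hg)) _
      (mul_mem (mul_mem hg hz) (star_mem hg)) (h.conj hu)
    rw [IsPauli.tw_conj hu, n2_mul_unitary _ (Unitary.star_mem hu), n2_unitary_mul hu] at this
    rw [h.n2_sub_tw, n2_mul_unitary _ hu, n2_unitary_mul (Unitary.star_mem hu)]
    linarith
  have k1 := key 1 (one_mem _) (one_mem _)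
  rw [star_one, one_mul, mul_one] at k1
  have k2 := h.n2_sub_tw y
  set y1 := tw x z y with hy1
  have hm : y1 ∈ Q ⊓ cent x z := ⟨tw_mem hx hz hy, h.mem_cent.2 ⟨h.comm_x y, h.comm_z y⟩⟩
  obtain ⟨e, he, he1, he2, hex, hez, hec⟩ : ∃ e ∈ Q, star e = e ∧ e * e = e ∧
      x * e = x - e * x ∧ 1 - e - e = -z ∧ ∀ c, z * c = c * z → c * e = e * c := by
    refine ⟨(2⁻¹ : ℂ) • (1 + z), SMulMemClass.smul_mem _ (add_mem (one_mem _) hz),
      by simp [h.sz], ?_, ?_, by module, fun c hc => ?_⟩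
    · simp only [mul_smul_comm, smul_mul_assoc, mul_add, add_mul, h.zz, one_mul, mul_one]
      module
    · simp only [mul_smul_comm, smul_mul_assoc, mul_add, add_mul, h.zx, one_mul, mul_one]
      module
    · simp only [mul_smul_comm, smul_mul_assoc, mul_add, add_mul, hc, one_mul, mul_one]
  have := (hQ.inf_cent hx hz h).averaging hm (star_mem hm) (n2 y1 ^ 2 - 8 / 10 * n2 y ^ 2) ?_
  · rw [hy1, h.τ_tw, hτ, mul_zero, Complex.zero_re, ← hy1] at this
    linarith [sq_nonneg (n2 y)]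
  intro u hu huu
  have hc : ∀ c ∈ Q ⊓ cent x z, (∀ w, c * (e * w) = e * (c * w)) ∧ c * e = e * c ∧
      c * x = x * c := fun c hc => by
    have := hec c (h.mem_cent.1 hc.2).2
    exact ⟨fun w => by rw [← mul_assoc, this, mul_assoc], this, (h.mem_cent.1 hc.2).1.symm⟩
  have he3 : ∀ w, e * (e * w) = e * w := fun w => by rw [← mul_assoc, he2]
  obtain ⟨a1, a2, -⟩ := hc u hu
  obtain ⟨b1, b2, -⟩ := hc _ (star_mem hu)
  obtain ⟨c1, c2, c3⟩ := hc _ hm
  set w := u * y1 * star u with hw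
  obtain ⟨-, -, d3⟩ := hc w (mul_mem (mul_mem hu hm) (star_mem hu))
  set g := e * star u + (1 - e) with hg
  have hsg : star g = e * u + (1 - e) := by simp [hg, he1, a2]
  have hgu : g ∈ unitary A := by
    constructor <;> rw [hsg, hg] <;>
      simp only [mul_add, add_mul, mul_sub, sub_mul, mul_assoc, a1, a2, b1, b2, he2, he3, huu.1,
        huu.2, mul_one, one_mul] <;> abel
  have hgQ : g ∈ Q := add_mem (mul_mem he (star_mem hu.1)) (sub_mem (one_mem _) he)
  have e1 : star g * y1 * g = e * w + (y1 - e * y1) := by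
    rw [hsg, hg, hw]
    simp only [mul_add, add_mul, mul_sub, sub_mul, mul_assoc, a1, c1, c2, he3, mul_one,
      one_mul]
    abel
  have e2 : x * (star g * y1 * g) * x - star g * y1 * g = -z * (w - y1) := by
    have hex' : ∀ v, x * (e * v) = x * v - e * (x * v) := fun v => by
      rw [← mul_assoc, hex, sub_mul, mul_assoc]
    rw [e1, ← hez]
    simp only [mul_add, add_mul, mul_sub, sub_mul, mul_assoc, c3, d3, hex', h.xx', one_mul]
    abel
  have k3 := key g hgQ hgu
  set c := tw x z (star g * y * g) with hc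
  have e3 : -z * (w - y1) = x * (star g * y1 * g - c) * x - (star g * y1 * g - c) := by
    rw [← e2, mul_sub, sub_mul, hc, h.comm_x, mul_assoc _ x x, h.xx, mul_one]
    abel
  have k4 : n2 (w - y1) ≤ 2 * n2 (star g * y1 * g - c) := by
    rw [← n2_unitary_mul h.z_unitary, ← n2_neg, ← neg_mul, e3]
    refine (n2_sub_le _ _).trans ?_
    rw [n2_mul_unitary _ h.x_unitary, n2_unitary_mul h.x_unitary]
    linarith
  have k5 := n2_triangle (star g * y1 * g) (star g * y * g) c
  rw [← sub_mul, ← mul_sub, n2_mul_unitary _ hgu, n2_unitary_mul (Unitary.star_mem hgu),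
    n2_sub_comm y1] at k5
  have k6 := n2_sub_sq y1 w
  rw [n2_sub_comm] at k6
  have k7 : n2 w = n2 y1 := by
    rw [hw, n2_mul_unitary _ (Unitary.star_mem huu), n2_unitary_mul huu]
  rw [k7] at k6
  have k8 := n2_nonneg (w - y1)
  have k9 : n2 (w - y1) ^ 2 ≤ (2 * (n2 (y - y1) + n2 (star g * y * g - c))) ^ 2 := by
    gcongr
    linarith
  nlinarith [sq_nonneg (n2 (y - y1) - n2 (star g * y * g - c))]

end Vale.Agent.P085
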